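import Vale.Agent.P032.Words.H984.One
import Vale.Agent.P032.Words.H349.TieSym

/-!
# One circle on which every strongly connected change is a single change

`Wrd X`: the properties of a circle which are used by the one-circle theorems.  `RawT.wrd`: it holds for
a word with exact contacts.  `Wrd.perm`: exchange of letters.
-/

namespace Vale.Agent.P032.Words

open Set Filter Topology Scc

/-- the palettes for which every strongly connected change is a single change -/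
def GS : Set (Fin 6 → Set (Fin 4)) := {P | ∀ h h' : Hx, Sel R4 P h → Sel R4 P h' → h ≠ h' →
  SC R4 h h' → ∃ k, h k ≠ h' k ∧ h' = Function.update h k (h' k)}

theorem G4_sub_GS : G4 ⊆ GS := fun _ hP _ _ h1 h2 h3 h4 => single_of_SC hP h1 h2 h3 h4

variable {c : Fin 4 → Fin 4 → Prop}

theorem ep_of_reachS {G : Set (Fin 6 → Set (Fin 4))} (hG : G ⊆ GS) {x y : Hx × Multiset Ev}
    (hr : Scc.Reach R4 (tauE c) G x y) :
    ∃ L : List Ev, EP c x.1 L y.1 ∧ y.2 = x.2 + (L : Multiset Ev) := by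
  unfold Scc.Reach at hr
  induction hr with
  | refl => exact ⟨[], EP.refl _, by simp⟩
  | @tail y z _ hs ih =>
    obtain ⟨L, hL, hL2⟩ := ih
    obtain ⟨P, hP, a1, a2, a3, a4, a5⟩ := hs
    obtain ⟨k, hk, he⟩ := hG hP _ _ a1 a2 a3 a4
    have hsum : ∑ p, tauE c p (y.1 p) (z.1 p) = tauE c k (y.1 k) (z.1 k) := by
      refine Finset.sum_eq_single k (fun j _ hj => ?_) (fun h => absurd (Finset.mem_univ k) h)
      have : z.1 j = y.1 j := by rw [he, Function.update_of_ne hj]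
      rw [this, tauE_self]
    rw [hsum] at a5
    have l1 : Leg4 y.1 := legR_iff.mp a1.2
    have l2 : Leg4 (Function.update y.1 k (z.1 k)) := he ▸ legR_iff.mp a2.2
    by_cases hc : c (y.1 k) (z.1 k)
    · refine ⟨L ++ [(k, y.1 k, z.1 k)], ?_, ?_⟩
      · have := EP.mark k (z.1 k) hL l1 l2 hk hc
        rwa [← he] at this
      · rw [a5, hL2, tauE, if_pos ⟨hk, hc⟩, add_assoc]
        rfl
    · refine ⟨L, ?_, ?_⟩
      · have := EP.free k (z.1 k) hL l1 l2 hk hc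
        rwa [← he] at this
      · rw [a5, hL2, tauE, if_neg (fun h => hc h.2), add_zero]

theorem ep_of_walkS {G : Set (Fin 6 → Set (Fin 4))} (hG : G ⊆ GS) {h g : Hx}
    {M : List (Multiset Ev)} (hw : Walk R4 (tauE c) G h M g) :
    ∃ Ls : List (List Ev),
      List.Forall₂ (fun (L : List Ev) (m : Multiset Ev) => (L : Multiset Ev) = m) Ls M ∧
      EP c h Ls.flatten g := by
  induction hw with
  | @nil h g h1 =>
    obtain ⟨L, h2, h3⟩ := ep_of_reachS (x := (h, 0)) (y := (g, 0)) hG h1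
    have h3' : (0 : Multiset Ev) = 0 + (L : Multiset Ev) := h3
    rw [zero_add] at h3'
    have : L = [] := Multiset.coe_eq_zero L |>.mp h3'.symm
    subst this
    exact ⟨[], List.Forall₂.nil, h2⟩
  | @cons h h' g m M h1 _ ih =>
    obtain ⟨L, h2, h3⟩ := ep_of_reachS (x := (h, 0)) (y := (h', m)) hG h1
    obtain ⟨Ls, h4, h5⟩ := ih
    have h3' : m = 0 + (L : Multiset Ev) := h3
    rw [zero_add] at h3'
    refine ⟨L :: Ls, List.Forall₂.cons h3'.symm h4, ?_⟩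
    rw [List.flatten_cons]
    exact EP.trans h2 h5

/-- **One circle with any number of marks** (as `one_circle`, for `GS`). -/
theorem one_circleS {X : Fin 4 → Set ℝ} (hcl : ∀ l, IsClosed (X l))
    (per : ∀ l u, u + 6 ∈ X l ↔ u ∈ X l) (ex : ∀ u, ∃ h, Sel R4 (palX X u) h) (a : ℝ)
    (hG : ∀ u ∈ Ioo a (a + 1), palX X u ∈ GS) (F : Set ℝ) (lf rt : ℝ → Fin 4)
    (hF : ∀ t ∈ Ioo a (a + 1), ∀ k : Fin 6, t + (k.val : ℝ) ∈ F →
      Mark X (lf (t + (k.val : ℝ))) (rt (t + (k.val : ℝ))) (t + (k.val : ℝ)) ∧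
      lf (t + (k.val : ℝ)) ≠ rt (t + (k.val : ℝ)) ∧ c (lf (t + (k.val : ℝ))) (rt (t + (k.val : ℝ))))
    (hN : ∀ t ∈ Ioo a (a + 1), ∀ k : Fin 6, t + (k.val : ℝ) ∉ F → ∀ x ∈ palX X t k,
      ∀ y ∈ palX X t k, x ≠ y → ¬ c x y)
    (L : List ℝ) (hL : L.Pairwise (· < ·)) (hLa : ∀ t ∈ L, a < t ∧ t < a + 1)
    (hLF : ∀ t ∈ Ioo a (a + 1), ∀ k : Fin 6, t + (k.val : ℝ) ∈ F → t ∈ L)
    {Bp Bm : Hx → Prop} (hBp : ∀ᶠ v in 𝓝[>] a, ∀ h, Sel R4 (palX X v) h → Bp h)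
    (hBm : ∀ᶠ v in 𝓝[<] a, ∀ h, Sel R4 (palX X v) h → Bm h) :
    ∃ h g : Hx, Bp h ∧ Bm g ∧ Sel R4 (palX X a) h ∧ Sel R4 (palX X a) g ∧
      ∃ Ls : List (List Ev), List.Forall₂ (fun (E : List Ev) (t : ℝ) =>
        (E : Multiset Ev) = evT F lf rt t) Ls L ∧ EP c h Ls.flatten (rot g) := by
  have w : Wd R4 (palX X) := ⟨palX_near hcl, ex⟩
  have hq : ∀ u ∈ Ioo a (a + 1), u ∉ L → Quiet (tauE c) (palX X u) := by
    intro u hu huL p x hx y hy
    unfold tauE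
    rw [if_neg]
    rintro ⟨hne, hc⟩
    exact hN u hu p (fun hF' => huL (hLF u hu p hF')) x hx y hy hne hc
  have hx : ∀ u ∈ L, Cross R4 (tauE c) (palX X) u (evT F lf rt u) := fun t ht =>
    cross_marks hcl (hF t (hLa t ht)) (hN t (hLa t ht))
  obtain ⟨h, g, h1, h2, h3, h4, h5⟩ := w.cycle_walk (τ := tauE c) (G := GS) tauE_self
    (Equiv.addRight (1 : Fin 6)) (fun u p => palX_add_one per u p) (fun p q a b => R4_rot p q a b)
    L hL (evT F lf rt) a hLa hG hq hx hBp hBm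
  obtain ⟨Ls, h6, h7⟩ := ep_of_walkS (le_refl _) h5
  refine ⟨h, g, h1, h2, h3, h4, Ls, ?_, h7⟩
  rw [List.forall₂_map_right_iff] at h6
  exact h6

/-- a circle on which every strongly connected change is a single change -/
structure Wrd (X : Fin 4 → Set ℝ) : Prop where
  closed : ∀ l, IsClosed (X l)
  per : ∀ l u, u + 6 ∈ X l ↔ u ∈ X l
  ac : ∀ u, u ∈ X 2 → u ∉ X 3
  anti : ∀ u, u ∈ X 2 → u + 3 ∉ X 3
  ex : ∀ u, ∃ h, Sel R4 (palX X u) h
  sing : ∀ u, palX X u ∈ GS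

theorem RawT.wrd {X : Fin 4 → Set ℝ} (R : RawT X) : Wrd X :=
  ⟨R.closed, R.per, R.ac, R.anti, R.exSel, fun u => G4_sub_GS (R.g4 u)⟩

section perm
variable {σ : Equiv.Perm (Fin 4)}

theorem R4_perm (hσ : (σ 2 = 2 ∧ σ 3 = 3) ∨ (σ 2 = 3 ∧ σ 3 = 2)) (p q : Fin 6) (a b : Fin 4) :
    (R4 p q (σ a) (σ b) ∧ R4 q p (σ b) (σ a)) ↔ (R4 p q a b ∧ R4 q p b a) := by
  have e3 : q = p + 3 ↔ p = q + 3 := by
    have : ∀ p q : Fin 6, q = p + 3 ↔ p = q + 3 := by decide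
    exact this p q
  unfold R4
  rcases hσ with ⟨h2, h3⟩ | ⟨h2, h3⟩
  · have s2 : ∀ a, σ a = 2 ↔ a = 2 := fun a =>
      ⟨fun h => σ.injective (h.trans h2.symm), fun h => h ▸ h2⟩
    have s3 : ∀ a, σ a = 3 ↔ a = 3 := fun a =>
      ⟨fun h => σ.injective (h.trans h3.symm), fun h => h ▸ h3⟩
    simp only [ne_eq, σ.injective.eq_iff, s2, s3]
  · have s2 : ∀ a, σ a = 2 ↔ a = 3 := fun a =>
      ⟨fun h => σ.injective (h.trans h3.symm), fun h => h ▸ h3⟩
    have s3 : ∀ a, σ a = 3 ↔ a = 2 := fun a =>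
      ⟨fun h => σ.injective (h.trans h2.symm), fun h => h ▸ h2⟩
    simp only [ne_eq, σ.injective.eq_iff, s2, s3]
    rw [← e3]
    tauto

theorem LegR_perm (hσ : (σ 2 = 2 ∧ σ 3 = 3) ∨ (σ 2 = 3 ∧ σ 3 = 2)) {h : Hx} :
    LegR R4 (fun k => σ (h k)) ↔ LegR R4 h := by
  constructor
  · intro H p q
    exact ((R4_perm hσ p q _ _).mp ⟨H p q, H q p⟩).1
  · intro H p q
    exact ((R4_perm hσ p q _ _).mpr ⟨H p q, H q p⟩).1

theorem SC_perm (hσ : (σ 2 = 2 ∧ σ 3 = 3) ∨ (σ 2 = 3 ∧ σ 3 = 2)) {h h' : Hx} (H : SC R4 h h') :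
    SC R4 (fun k => σ (h k)) (fun k => σ (h' k)) := by
  rintro A hA h1 ⟨p, hp, hpd⟩
  obtain ⟨q, hq, p', hp', hd, hr⟩ := H A hA (fun q hq e => h1 q hq (by simp only [e]))
    ⟨p, hp, fun e => hpd (by simp only [e])⟩
  refine ⟨q, hq, p', hp', fun e => hd (σ.injective e), fun hr' => hr ?_⟩
  exact (R4_perm hσ _ _ _ _).mp hr'

theorem sel_perm (hσ : (σ 2 = 2 ∧ σ 3 = 3) ∨ (σ 2 = 3 ∧ σ 3 = 2)) {X : Fin 4 → Set ℝ} {u : ℝ}
    {h : Hx} : Sel R4 (palX (fun l => X (σ l)) u) h ↔ Sel R4 (palX X u) fun k => σ (h k) := by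
  unfold Sel
  rw [LegR_perm hσ]
  rfl

/-- renaming of the letters -/
theorem Wrd.perm {X : Fin 4 → Set ℝ} (R : Wrd X) (σ : Equiv.Perm (Fin 4))
    (hσ : (σ 2 = 2 ∧ σ 3 = 3) ∨ (σ 2 = 3 ∧ σ 3 = 2)) : Wrd fun l => X (σ l) where
  closed := fun l => R.closed _
  per := fun l u => R.per _ u
  ac := by
    rcases hσ with ⟨h2, h3⟩ | ⟨h2, h3⟩ <;> rw [h2, h3]
    · exact R.ac
    · exact fun u h h' => R.ac u h' h
  anti := by
    rcases hσ with ⟨h2, h3⟩ | ⟨h2, h3⟩ <;> rw [h2, h3]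
    · exact R.anti
    · intro u h h'
      refine R.anti _ h' ?_
      have : u + 3 + 3 = u + 6 := by ring
      rw [this, R.per]
      exact h
  ex := fun u => by
    obtain ⟨h, hh⟩ := R.ex u
    refine ⟨fun k => σ.symm (h k), (sel_perm hσ).mpr ?_⟩
    simpa using hh
  sing := fun u h h' h1 h2 h3 h4 => by
    have hne : (fun k => σ (h k)) ≠ fun k => σ (h' k) := fun e => h3 (by
      funext k; exact σ.injective (congrFun e k))
    obtain ⟨k, hk, he⟩ := R.sing u _ _ ((sel_perm hσ).mp h1) ((sel_perm hσ).mp h2) hne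
      (SC_perm hσ h4)
    refine ⟨k, fun e => hk (by simp only [e]), ?_⟩
    funext j
    by_cases hj : j = k
    · subst hj; rw [Function.update_self]
    · rw [Function.update_of_ne hj]
      have := congrFun he j
      rw [Function.update_of_ne hj] at this
      exact σ.injective this

end perm

end Vale.Agent.P032.Words
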