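import Vale.Agent.P032.Words.H984.L23W

/-!
# L3 for `Wrd`
-/

namespace Vale.Agent.P032.Words

open Set Filter Topology Scc Pot

variable {X : Fin 4 → Set ℝ}

theorem perm_pair {a b : ℝ} {l : List ℝ} (h : l.Perm [a, b]) : l = [a, b] ∨ l = [b, a] := by
  have hl := h.length_eq
  match l, hl with
  | [x, y], _ =>
    have hx : x ∈ [a, b] := h.subset (by simp)
    rcases List.mem_cons.mp hx with rfl | hx
    · exact Or.inl (by rw [List.perm_singleton.mp ((List.perm_cons _).mp h)])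
    · rw [List.mem_singleton] at hx
      subst hx
      have h' := h.trans (List.Perm.swap x a [])
      exact Or.inr (by rw [List.perm_singleton.mp ((List.perm_cons _).mp h')])

theorem kP_real {V P : ℝ} (h1 : V ≤ P) (h2 : P < V + 6) :
    0 ≤ P - V - ((kP V P).val : ℝ) ∧ P - V - ((kP V P).val : ℝ) < 1 := by
  have := tP_mem h1 h2
  unfold tP at this
  constructor <;> linarith [this.1, this.2]

/-- positions of the two ends `C|f` relative to the single end `A|e`. -/
theorem Wrd.L3core (R : Wrd X) {V Q Q' : ℝ} (hV : End X 0 2 V)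
    (hVu : ∀ u, u ∈ X 0 → u ∈ X 2 → ∃ n : ℤ, u = V + 6 * n)
    (hQ : End X 1 3 Q) (hQ' : End X 1 3 Q') (h1 : V < Q) (h2 : Q < Q') (h3 : Q' < V + 6)
    (hQu : ∀ u, u ∈ X 1 → u ∈ X 3 → ∃ n : ℤ, u = Q + 6 * n ∨ u = Q' + 6 * n) :
    ∃ (k₁ k₂ : Fin 6) (A B : ℝ), ((A = Q ∧ B = Q') ∨ (A = Q' ∧ B = Q)) ∧
      pat k₁.val k₂.val = true ∧ 0 ≤ A - V - (k₁.val : ℝ) ∧
      A - V - (k₁.val : ℝ) ≤ B - V - (k₂.val : ℝ) ∧ B - V - (k₂.val : ℝ) ≤ 1 := by
  have hne := VQ_ne hV hQ
  have hne' := VQ_ne hV hQ'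
  have hwin : ∀ P, P = Q ∨ P = Q' → V < P ∧ P < V + 6 := by
    rintro P (rfl | rfl)
    · exact ⟨h1, by linarith⟩
    · exact ⟨by linarith, h3⟩
  have hend : ∀ P, P = Q ∨ P = Q' → End X 1 3 P := by
    rintro P (rfl | rfl)
    exacts [hQ, hQ']
  obtain ⟨h, P1, P2, g0, g1, g2, g3, g4, g5⟩ := R.turnP (c := cQ) (V := V) (F := {V, Q, Q'})
    (lf := fun P => (pr X P).1) (rt := fun P => (pr X P).2) (by simp)
    (by
      intro P hP
      have hP' : P = V ∨ P = Q ∨ P = Q' := by simpa using hP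
      rcases hP' with rfl | hP'
      · exact ⟨le_rfl, by linarith⟩
      · exact ⟨(hwin P hP').1.le, (hwin P hP').2⟩)
    (by
      intro P hP
      have hP' : P = V ∨ P = Q ∨ P = Q' := by simpa using hP
      rcases hP' with rfl | hP'
      · exact v_c hV
      · exact q_c (hend P hP'))
    (hN_of R (fun u hx hy => by
      obtain ⟨n, hn⟩ := hVu u hx hy
      exact ⟨V, by simp, n, hn⟩) fun u hx hy => by
      obtain ⟨n, hn | hn⟩ := hQu u hx hy
      · exact ⟨Q, by simp, n, hn⟩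
      · exact ⟨Q', by simp, n, hn⟩)
  have hval : (({V, Q, Q'} : Finset ℝ)).val = ((V :: [Q, Q'] : List ℝ) : Multiset ℝ) := by
    rw [Finset.insert_val_of_notMem (by simp [hne, hne']),
      Finset.insert_val_of_notMem (by simpa using h2.ne)]
    rfl
  rw [hval, Multiset.coe_eq_coe] at g4
  have g4' : (P1 ++ P2).Perm [Q, Q'] := (List.perm_cons V).mp (List.perm_middle.symm.trans g4)
  obtain ⟨a, b, hab, h6⟩ : ∃ a b, ((a = Q ∧ b = Q') ∨ (a = Q' ∧ b = Q)) ∧ P1 ++ P2 = [a, b] := by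
    rcases perm_pair g4' with h | h
    · exact ⟨Q, Q', Or.inl ⟨rfl, rfl⟩, h⟩
    · exact ⟨Q', Q, Or.inr ⟨rfl, rfl⟩, h⟩
  have ha : a = Q ∨ a = Q' := by rcases hab with h | h; exacts [Or.inl h.1, Or.inr h.1]
  have hb : b = Q ∨ b = Q' := by rcases hab with h | h; exacts [Or.inr h.2, Or.inl h.2]
  have hqt : ∀ P, P = Q ∨ P = Q' → ∀ k : Fin 6, QT (k, (pr X P).1, (pr X P).2) := fun P hP k =>
    (q_spec (hend P hP)).2
  have ka := kP_real (hwin a ha).1.le (hwin a ha).2
  have kb := kP_real (hwin b hb).1.le (hwin b hb).2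
  have hkV : kP V V = 0 := by
    have := kP_add (V := V) (t := V) 0 le_rfl (by linarith)
    simpa using this
  have htV : tP V V = V := by rw [tP, hkV]; simp
  -- a mark before `V` is at the time `V`
  have hsub : ∀ P, V < P → tP V P ≤ V → P - V - ((kP V P).val : ℝ) ≤ 0 →
      P - V - ((kP V P - 1).val : ℝ) ≤ 1 ∧ (kP V P).val ≠ 0 ∧
      ((kP V P - 1).val : ℝ) = ((kP V P).val : ℝ) - 1 := by
    intro P hP _ h0
    have hk : (kP V P).val ≠ 0 := by
      intro h'
      rw [h'] at h0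
      push_cast at h0
      linarith
    have : ∀ k : Fin 6, k.val ≠ 0 → (k - 1).val + 1 = k.val := by decide
    have e := this _ hk
    have e' : ((kP V P - 1).val : ℝ) + 1 = ((kP V P).val : ℝ) := by exact_mod_cast e
    exact ⟨by linarith, hk, by linarith⟩
  have hkey : ∀ {k₁ k₂ : Fin 6} {L : List Ev}, EP cQ (Function.update h 0 (pr X V).2) L (rot h) →
      L.map (·.1) = [k₁, k₂] → (∀ e ∈ L, QT e) → pat k₁.val k₂.val = true := by
    intro k₁ k₂ L hE hL hq
    have := ep_reach hE hq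
    rw [hL] at this
    exact pat_of (cp_lt g2) (cp_lt (leg_rot g1)) (vr_step g1 g2 g0 (v_spec hV).2) this
  rcases P1 with _ | ⟨x, P1⟩
  · rw [List.nil_append] at h6
    subst h6
    refine ⟨kP V a, kP V b, a, b, hab, hkey g3 rfl ?_, ka.1, ?_, kb.2.le⟩
    · intro e he
      simp only [List.map_cons, List.map_nil, List.append_nil, List.mem_cons,
        List.not_mem_nil, or_false] at he
      rcases he with rfl | rfl
      exacts [hqt a ha _, hqt b hb _]
    · simp only [List.nil_append, List.pairwise_cons, List.mem_cons, List.not_mem_nil,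
        or_false] at g5
      have := g5.2.1 b rfl
      unfold tP at this
      linarith
  · rw [List.cons_append] at h6
    obtain ⟨rfl, h7⟩ := List.cons_eq_cons.mp h6
    rcases P1 with _ | ⟨y, P1⟩
    · rw [List.nil_append] at h7
      subst h7
      simp only [List.cons_append, List.nil_append, List.pairwise_cons, List.mem_cons,
        List.not_mem_nil, or_false] at g5
      have t1 : tP V x ≤ V := by have := g5.1 V (Or.inl rfl); rwa [htV] at this
      have t1' : x - V - ((kP V x).val : ℝ) ≤ 0 := by unfold tP at t1; linarith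
      obtain ⟨s1, s2, s3⟩ := hsub x (hwin x ha).1 t1 t1'
      refine ⟨kP V b, kP V x - 1, b, x, ?_, hkey g3 rfl ?_, kb.1, ?_, s1⟩
      · rcases hab with h | h
        · exact Or.inr ⟨h.2, h.1⟩
        · exact Or.inl ⟨h.2, h.1⟩
      · intro e he
        simp only [List.map_cons, List.map_nil, List.cons_append, List.nil_append, List.mem_cons,
          List.not_mem_nil, or_false] at he
        rcases he with rfl | rfl
        exacts [hqt b hb _, hqt x ha _]
      · rw [s3]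
        linarith [kb.2, ka.1]
    · rw [List.cons_append] at h7
      obtain ⟨rfl, h8⟩ := List.cons_eq_cons.mp h7
      obtain ⟨rfl, rfl⟩ := List.append_eq_nil_iff.mp h8
      simp only [List.cons_append, List.nil_append, List.pairwise_cons, List.mem_cons,
        List.not_mem_nil, or_false] at g5
      have t1 : tP V x ≤ V := by have := g5.1 V (Or.inr rfl); rwa [htV] at this
      have t2 : tP V y ≤ V := by have := g5.2.1 V rfl; rwa [htV] at this
      have t1' : x - V - ((kP V x).val : ℝ) ≤ 0 := by unfold tP at t1; linarith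
      have t2' : y - V - ((kP V y).val : ℝ) ≤ 0 := by unfold tP at t2; linarith
      obtain ⟨s1, s2, s3⟩ := hsub x (hwin x ha).1 t1 t1'
      obtain ⟨r1, r2, r3⟩ := hsub y (hwin y hb).1 t2 t2'
      refine ⟨kP V x - 1, kP V y - 1, x, y, hab, hkey g3 rfl ?_, ?_, ?_, r1⟩
      · intro e he
        simp only [List.map_cons, List.map_nil, List.nil_append, List.mem_cons,
          List.not_mem_nil, or_false] at he
        rcases he with rfl | rfl
        exacts [hqt x ha _, hqt y hb _]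
      · rw [s3]; linarith [ka.1]
      · rw [s3, r3]; linarith [ka.1, kb.1]

/-- **L3** over `Wrd`, with `≤`. -/
theorem Wrd.L3le (R : Wrd X) {V Q Q' : ℝ} (hV : End X 0 2 V)
    (hVu : ∀ u, u ∈ X 0 → u ∈ X 2 → ∃ n : ℤ, u = V + 6 * n)
    (hQ : End X 1 3 Q) (hQ' : End X 1 3 Q') (h1 : V < Q) (h2 : Q < Q') (h3 : Q' < V + 6)
    (hQu : ∀ u, u ∈ X 1 → u ∈ X 3 → ∃ n : ℤ, u = Q + 6 * n ∨ u = Q' + 6 * n) :
    Q < V + 3 ∧ V + 3 < Q' ∧ Q' ≤ Q + 3 := by
  have hA3 : ∀ P, End X 1 3 P → P ≠ V + 3 := by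
    intro P hP h
    exact R.anti V (End.mem hV).2 (h ▸ (End.mem hP).2)
  have hq3 := hA3 _ hQ
  have hq3' := hA3 _ hQ'
  obtain ⟨k₁, k₂, A, B, hAB, hp, t1, t2, t3⟩ := R.L3core hV hVu hQ hQ' h1 h2 h3 hQu
  rcases pat_cases hp with ⟨e1, e2⟩ | ⟨e1, e2⟩ | ⟨e1, e2⟩ | ⟨e1, e2⟩ | ⟨e1, e2⟩ | ⟨e1, e2⟩ |
    ⟨e1, e2⟩ | ⟨e1, e2⟩ <;> rw [e1] at t1 t2 <;> rw [e2] at t2 t3 <;> push_cast at t1 t2 t3 <;>
    rcases hAB with ⟨rfl, rfl⟩ | ⟨rfl, rfl⟩ <;>
    refine ⟨?_, ?_, ?_⟩ <;>
    first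
      | linarith
      | exact lt_of_le_of_ne (by linarith) (by assumption)
      | exact lt_of_le_of_ne (by linarith) (Ne.symm (by assumption))

end Vale.Agent.P032.Words
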