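import Vale.Agent.P032.Words.H984.NoWord
import Vale.Agent.P032.Words.H984.TabLow
import Vale.Agent.P032.Words.H984.TabHigh
import Vale.Agent.P032.Words.H984.TabC22
import Vale.Agent.P032.Words.H984.TabC13

/-!
# One circle: the facts for a single special end

Letters `0 = e`, `1 = f`, `2 = A`, `3 = C`; angles in units of 60 degrees, modulo 6.
-/

namespace Vale.Agent.P032.Words.Pot

open Set Filter Topology Scc

variable {X : Fin 4 → Set ℝ}

/-- the same point of the circle -/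
def E6 (u v : ℝ) : Prop := ∃ n : ℤ, u = v + 6 * n

theorem E6.refl (u : ℝ) : E6 u u := ⟨0, by simp⟩

theorem E6.symm {u v : ℝ} (h : E6 u v) : E6 v u := by
  obtain ⟨n, hn⟩ := h
  exact ⟨-n, by rw [hn]; push_cast; ring⟩

theorem E6.trans {u v w : ℝ} (h : E6 u v) (h' : E6 v w) : E6 u w := by
  obtain ⟨n, hn⟩ := h
  obtain ⟨m, hm⟩ := h'
  exact ⟨n + m, by rw [hn, hm]; push_cast; ring⟩

/-- all common points of `l` and `m` are the ends `s`, `t` -/
def Two (X : Fin 4 → Set ℝ) (l m : Fin 4) (s t : ℝ) : Prop :=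
  End X l m s ∧ End X l m t ∧ ∀ u, u ∈ X l → u ∈ X m → E6 u s ∨ E6 u t

/-- the clean ends `A|e` besides the special end `V` -/
def TwoV (X : Fin 4 → Set ℝ) (V s t : ℝ) : Prop :=
  End X 0 2 s ∧ End X 0 2 t ∧ ¬ E6 s V ∧ ¬ E6 t V ∧
    ∀ u, u ∈ X 0 → u ∈ X 2 → E6 u V ∨ E6 u s ∨ E6 u t

/-- `m` is strictly between `k` and `l` -/
def Bt (m k l : ℝ) : Prop :=
  ∃ i j : ℤ, (k < m + 6 * i ∧ m + 6 * i < l + 6 * j ∧ l + 6 * j < k + 3) ∨
    (l < m + 6 * i ∧ m + 6 * i < k + 6 * j ∧ k + 6 * j < l + 3)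

theorem memZ (R : Wrd X) (n : ℤ) (l : Fin 4) (u : ℝ) : u + 6 * (n : ℝ) ∈ X l ↔ u ∈ X l := by
  induction n generalizing u with
  | zero => simp
  | succ i ih =>
    have : u + 6 * (((i : ℤ) + 1 : ℤ) : ℝ) = (u + 6 * ((i : ℤ) : ℝ)) + 6 := by push_cast; ring
    rw [this, R.per, ih]
  | pred i ih =>
    have : u + 6 * ((-(i : ℤ) - 1 : ℤ) : ℝ) + 6 = u + 6 * ((-(i : ℤ) : ℤ) : ℝ) := by
      push_cast; ring
    rw [← R.per, this, ih]

theorem mark_E6 (R : Wrd X) {x y : Fin 4} {P Q : ℝ} (h : Mark X x y P) (hQ : E6 Q P) :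
    Mark X x y Q := by
  obtain ⟨m, rfl⟩ := hQ
  refine ⟨(memZ R m _ _).mpr h.mem_a, (memZ R m _ _).mpr h.mem_b,
    fun l hl => h.only l ((memZ R m _ _).mp hl), ?_, ?_⟩
  · have h1 := tendsto_add_left (P + 6 * (m : ℝ)) (-(6 * (m : ℝ)))
    have e : P + 6 * (m : ℝ) + -(6 * (m : ℝ)) = P := by ring
    rw [e] at h1
    filter_upwards [h1.eventually h.left] with v hv hv'
    refine hv ((memZ R m _ _).mp ?_)
    have e2 : v + -(6 * (m : ℝ)) + 6 * (m : ℝ) = v := by ring
    rw [e2]; exact hv'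
  · have h1 := tendsto_add_right (P + 6 * (m : ℝ)) (-(6 * (m : ℝ)))
    have e : P + 6 * (m : ℝ) + -(6 * (m : ℝ)) = P := by ring
    rw [e] at h1
    filter_upwards [h1.eventually h.right] with v hv hv'
    refine hv ((memZ R m _ _).mp ?_)
    have e2 : v + -(6 * (m : ℝ)) + 6 * (m : ℝ) = v := by ring
    rw [e2]; exact hv'

theorem end_E6 (R : Wrd X) {x y : Fin 4} {P Q : ℝ} (h : End X x y P) (hQ : E6 Q P) :
    End X x y Q := h.imp (fun h => mark_E6 R h hQ) fun h => mark_E6 R h hQ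

theorem norm_ex (V s : ℝ) : ∃ s', E6 s' s ∧ V ≤ s' ∧ s' < V + 6 := by
  refine ⟨s + 6 * ((-⌊(s - V) / 6⌋ : ℤ) : ℝ), ⟨_, rfl⟩, ?_, ?_⟩
  · have := Int.floor_le ((s - V) / 6)
    push_cast; linarith
  · have := Int.lt_floor_add_one ((s - V) / 6)
    push_cast; linarith

theorem E6.eq {V s t : ℝ} (h : E6 s t) (h1 : V ≤ s) (h2 : s < V + 6) (h3 : V ≤ t)
    (h4 : t < V + 6) : s = t := by
  obtain ⟨n, hn⟩ := h
  have a : (n : ℝ) < 1 := by linarith
  have b : (-1 : ℝ) < n := by linarith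
  have a' : n < 1 := by exact_mod_cast a
  have b' : -1 < n := by exact_mod_cast b
  have : n = 0 := by omega
  rw [hn, this]; simp

theorem Two.norm (R : Wrd X) {l m : Fin 4} {s t : ℝ} (h : Two X l m s t) (V : ℝ) :
    ∃ s' t', E6 s' s ∧ E6 t' t ∧ End X l m s' ∧ End X l m t' ∧ (V ≤ s' ∧ s' < V + 6) ∧
      (V ≤ t' ∧ t' < V + 6) ∧ ∀ u, u ∈ X l → u ∈ X m → E6 u s' ∨ E6 u t' := by
  obtain ⟨h1, h2, h3⟩ := h
  obtain ⟨s', a1, a2⟩ := norm_ex V s
  obtain ⟨t', b1, b2⟩ := norm_ex V t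
  exact ⟨s', t', a1, b1, end_E6 R h1 a1, end_E6 R h2 b1, a2, b2, fun u hl hm =>
    (h3 u hl hm).imp (fun h => h.trans a1.symm) fun h => h.trans b1.symm⟩

theorem End.mem {x y : Fin 4} {P : ℝ} (h : End X x y P) : P ∈ X x ∧ P ∈ X y := by
  rcases h with h | h
  · exact ⟨h.mem_a, h.mem_b⟩
  · exact ⟨h.mem_b, h.mem_a⟩

theorem End.only {x y : Fin 4} {P : ℝ} (h : End X x y P) (l : Fin 4) (hl : P ∈ X l) :
    l = x ∨ l = y := by
  rcases h with h | h
  · exact h.only l hl
  · exact (h.only l hl).symm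

theorem kP_lt {V P : ℝ} (h1 : V ≤ P) (h2 : P < V + 6) (h3 : P < V + 3) : (kP V P).val < 3 := by
  rw [kP_val h1 h2, Nat.floor_lt (by linarith)]
  push_cast; linarith

theorem kP_ge {V P : ℝ} (h1 : V ≤ P) (h2 : P < V + 6) (h3 : V + 3 ≤ P) : 3 ≤ (kP V P).val := by
  rw [kP_val h1 h2]
  apply Nat.le_floor
  push_cast; linarith

/-- marks of one circle with two ends of every type (for the types 2, 3: at most two) -/
theorem marks_of (R : Wrd X) {V v q q' w w' r r' : ℝ} (hV : End X 0 2 V) (hv : End X 0 2 v)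
    (h02 : ∀ u, u ∈ X 0 → u ∈ X 2 → E6 u V ∨ E6 u v)
    (h13 : Two X 1 3 q q') (h12 : Two X 1 2 w w') (h03 : Two X 0 3 r r')
    (hq : V ≤ q ∧ q < V + 6) (hq' : V ≤ q' ∧ q' < V + 6) :
    ∃ v₁ w₁ w₁' r₁ r₁', E6 v₁ v ∧ E6 w₁ w ∧ E6 w₁' w' ∧ E6 r₁ r ∧ E6 r₁' r' ∧
      (V ≤ w₁ ∧ w₁ < V + 6) ∧ (V ≤ w₁' ∧ w₁' < V + 6) ∧ (V ≤ r₁ ∧ r₁ < V + 6) ∧
      (V ≤ r₁' ∧ r₁' < V + 6) ∧
      Marks X V ![{V, v₁}, {q, q'}, {w₁, w₁'}, {r₁, r₁'}] := by
  obtain ⟨v₁, a1, a2⟩ := norm_ex V v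
  obtain ⟨w₁, w₁', b1, b2, b3, b4, b5, b6, b7⟩ := h12.norm R V
  obtain ⟨r₁, r₁', c1, c2, c3, c4, c5, c6, c7⟩ := h03.norm R V
  have a3 := end_E6 R hv a1
  refine ⟨v₁, w₁, w₁', r₁, r₁', a1, b1, b2, c1, c2, b5, b6, c5, c6, ?_, ?_, ?_⟩
  · intro t
    fin_cases t
    · intro P hP
      have hP' : P = V ∨ P = v₁ := by simpa using hP
      rcases hP' with rfl | rfl
      exacts [hV, a3]
    · intro P hP
      have hP' : P = q ∨ P = q' := by simpa using hP
      rcases hP' with rfl | rfl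
      exacts [h13.1, h13.2.1]
    · intro P hP
      have hP' : P = w₁ ∨ P = w₁' := by simpa using hP
      rcases hP' with rfl | rfl
      exacts [b3, b4]
    · intro P hP
      have hP' : P = r₁ ∨ P = r₁' := by simpa using hP
      rcases hP' with rfl | rfl
      exacts [c3, c4]
  · intro t
    fin_cases t
    · intro P hP
      have hP' : P = V ∨ P = v₁ := by simpa using hP
      rcases hP' with rfl | rfl
      · exact ⟨le_rfl, by linarith⟩
      · exact a2
    · intro P hP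
      have hP' : P = q ∨ P = q' := by simpa using hP
      rcases hP' with rfl | rfl
      exacts [hq, hq']
    · intro P hP
      have hP' : P = w₁ ∨ P = w₁' := by simpa using hP
      rcases hP' with rfl | rfl
      exacts [b5, b6]
    · intro P hP
      have hP' : P = r₁ ∨ P = r₁' := by simpa using hP
      rcases hP' with rfl | rfl
      exacts [c5, c6]
  · intro t
    fin_cases t
    · intro u hx hy
      rcases h02 u hx hy with ⟨n, hn⟩ | h
      · exact ⟨V, by simp, n, hn⟩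
      · obtain ⟨n, hn⟩ := h.trans a1.symm
        exact ⟨v₁, by simp, n, hn⟩
    · intro u hx hy
      rcases h13.2.2 u hx hy with ⟨n, hn⟩ | ⟨n, hn⟩
      · exact ⟨q, by simp, n, hn⟩
      · exact ⟨q', by simp, n, hn⟩
    · intro u hx hy
      rcases b7 u hx hy with ⟨n, hn⟩ | ⟨n, hn⟩
      · exact ⟨w₁, by simp, n, hn⟩
      · exact ⟨w₁', by simp, n, hn⟩
    · intro u hx hy
      rcases c7 u hx hy with ⟨n, hn⟩ | ⟨n, hn⟩
      · exact ⟨r₁, by simp, n, hn⟩
      · exact ⟨r₁', by simp, n, hn⟩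

theorem low_w : (lowG.all fun g => Nat.blt (wt g.1 2 * 2 + wt g.1 3 * 2) g.2.1) = true := by
  decide +kernel

theorem high_w : (highG.all fun g => Nat.blt (wt g.1 2 * 2 + wt g.1 3 * 2) g.2.1) = true := by
  decide +kernel

theorem c22_w : (cnt22G.all fun g => wt g.1 2 == 1 && wt g.1 3 == 1 && g.2.1 == 4) = true := by
  decide +kernel

theorem c13_w : (cnt13G.all fun g => wt g.1 3 == 1 && g.2.1 == 3) = true := by
  decide +kernel

theorem card_pair {a b : ℝ} : ({a, b} : Finset ℝ).card ≤ 2 := Finset.card_le_two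

/-- **(2, 2, 2, 2)**: every end `A|e` separates the two ends `C|f`. -/
theorem sep_gen (R : Wrd X) {V v q q' w w' r r' : ℝ} (hV : End X 0 2 V) (hv : End X 0 2 v)
    (hvV : ¬ E6 v V) (h02 : ∀ u, u ∈ X 0 → u ∈ X 2 → E6 u V ∨ E6 u v)
    (hVq : V < q) (hqq : q < q') (hqV : q' < V + 6)
    (h13 : Two X 1 3 q q') (h12 : Two X 1 2 w w') (h03 : Two X 0 3 r r') :
    q < V + 3 ∧ V + 3 < q' := by
  obtain ⟨v₁, w₁, w₁', r₁, r₁', e1, -, -, -, -, -, -, -, -, M⟩ :=
    marks_of R hV hv h02 h13 h12 h03 ⟨hVq.le, by linarith⟩ ⟨by linarith, hqV⟩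
  have hVv : V ≠ v₁ := fun h => hvV (h ▸ e1.symm)
  have hA3 : ∀ P, End X 1 3 P → P ≠ V + 3 := by
    intro P hP h
    exact R.anti V (End.mem hV).2 (h ▸ (End.mem hP).2)
  have hq3 := hA3 _ h13.1
  have hq3' := hA3 _ h13.2.1
  have hcA : ({V, v₁} : Finset ℝ).card = 2 := Finset.card_pair hVv
  have hcB : ({q, q'} : Finset ℝ).card = 2 := Finset.card_pair hqq.ne
  by_contra hcon
  rcases lt_or_gt_of_ne hq3' with h' | h'
  · -- both low
    refine no_word R M (by simp) (tA := 0) (tB := 1) (nA := 1) low_mv low_cl (by decide)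
      (by decide) ?_ ?_ hcA le_rfl (by simp) hcB ?_
    · intro P hP
      have hP' : P = q ∨ P = q' := by simpa using hP
      rw [Nat.blt_eq]
      rcases hP' with rfl | rfl
      · exact kP_lt hVq.le (by linarith) (by linarith)
      · exact kP_lt (by linarith) hqV h'
    · intro k hk
      have hP' : V + (k.val : ℝ) = q ∨ V + (k.val : ℝ) = q' := by simpa using hk
      have h1 : (0 : ℝ) < (k.val : ℝ) := by rcases hP' with h | h <;> linarith
      have h2 : (k.val : ℝ) < 3 := by rcases hP' with h | h <;> linarith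
      have h1' : 0 < k.val := by exact_mod_cast h1
      have h2' : k.val < 3 := by exact_mod_cast h2
      have : ∀ k : Fin 6, 0 < k.val → k.val < 3 → Nat.blt (k - 1).val 3 = true := by decide
      exact this k h1' h2'
    · intro g hg
      have := List.all_eq_true.mp low_w g hg
      rw [Nat.blt_eq] at this
      refine lt_of_le_of_lt ?_ this
      rw [Fin.sum_univ_four]
      simp only [Fin.isValue, Fin.val_zero, Fin.val_one, Fin.val_two, true_or, or_true, if_true,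
        zero_mul, zero_add]
      norm_num
      exact Nat.add_le_add (Nat.mul_le_mul_left _ card_pair) (Nat.mul_le_mul_left _ card_pair)
  · by_cases h'' : q < V + 3
    · exact hcon ⟨h'', h'⟩
    have hq4 : V + 3 < q := lt_of_le_of_ne (not_lt.mp h'') hq3.symm
    refine no_word R M (by simp) (tA := 0) (tB := 1) (nA := 1) high_mv high_cl (by decide)
      (by decide) ?_ ?_ hcA le_rfl (by simp) hcB ?_
    · intro P hP
      have hP' : P = q ∨ P = q' := by simpa using hP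
      rw [Nat.ble_eq]
      rcases hP' with rfl | rfl
      · exact kP_ge hVq.le (by linarith) (by linarith)
      · exact kP_ge (by linarith) hqV (by linarith)
    · intro k hk
      have hP' : V + (k.val : ℝ) = q ∨ V + (k.val : ℝ) = q' := by simpa using hk
      have h2 : (3 : ℝ) < (k.val : ℝ) := by rcases hP' with h | h <;> linarith
      have h2' : 3 < k.val := by exact_mod_cast h2
      have : ∀ k : Fin 6, 3 < k.val → Nat.ble 3 (k - 1).val = true := by decide
      exact this k h2'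
    · intro g hg
      have := List.all_eq_true.mp high_w g hg
      rw [Nat.blt_eq] at this
      refine lt_of_le_of_lt ?_ this
      rw [Fin.sum_univ_four]
      simp only [Fin.isValue, Fin.val_zero, Fin.val_one, Fin.val_two, true_or, or_true, if_true,
        zero_mul, zero_add]
      norm_num
      exact Nat.add_le_add (Nat.mul_le_mul_left _ card_pair) (Nat.mul_le_mul_left _ card_pair)

end Vale.Agent.P032.Words.Pot
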