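import Vale.Agent.P032.Words.H984.Scc

/-!
# Path lemma for several circles: any number of marks, counters

`Pal u p`: the letters available at position `p` at time `u` (closed palettes).  Only legal selections
are used; ties are allowed.  `τ p a b`: what the counter gains if the letter at `p` changes from `a` to
`b`; `m u`: what the counter gains at the time `u`.
-/

namespace Vale.Agent.P032.Words.Scc

open Set Filter Topology

variable {ι Λ : Type*} {R : ι → ι → Λ → Λ → Prop}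

/-- `h` is a legal selection of the palettes `P` -/
def Sel (R : ι → ι → Λ → Λ → Prop) (P : ι → Set Λ) (h : ι → Λ) : Prop :=
  (∀ p, h p ∈ P p) ∧ LegR R h

/-- palettes in time -/
structure Wd (R : ι → ι → Λ → Λ → Prop) (Pal : ℝ → ι → Set Λ) : Prop where
  near : ∀ u, ∀ᶠ v in 𝓝 u, ∀ p, Pal v p ⊆ Pal u p
  ex : ∀ u, ∃ h, Sel R (Pal u) h

/-- `Inv` is closed under the legal strongly connected changes inside the palettes `P` -/
def Cl [Fintype ι] {M : Type*} [AddCommMonoid M] (R : ι → ι → Λ → Λ → Prop) (τ : ι → Λ → Λ → M)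
    (Inv : (ι → Λ) → M → Prop) (P : ι → Set Λ) : Prop :=
  ∀ h h' : ι → Λ, Sel R P h → Sel R P h' → h ≠ h' → SC R h h' →
    ∀ n, Inv h n → Inv h' (n + ∑ p, τ p (h p) (h' p))

variable [Fintype ι] {M : Type*} [AddCommMonoid M] {τ : ι → Λ → Λ → M}
  {Inv : (ι → Λ) → M → Prop} {P : ι → Set Λ} {Pal : ℝ → ι → Set Λ}

theorem Cl.go (hτ : ∀ p a, τ p a a = 0) (hc : Cl R τ Inv P) {h h' : ι → Λ} (hh : Sel R P h)
    (hh' : Sel R P h') {n : M} (hn : Inv h n) : Inv h' (n + ∑ p, τ p (h p) (h' p)) :=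
  sc_path (R := R) hτ P Inv (fun h h' a b c d e f => hc h h' ⟨a, c⟩ ⟨b, d⟩ e f) hh.1 hh'.1 hh.2 hh'.2 hn

/-- nothing is counted between two letters of the same palette -/
def Quiet (τ : ι → Λ → Λ → M) (P : ι → Set Λ) : Prop := ∀ p, ∀ a ∈ P p, ∀ b ∈ P p, τ p a b = 0

omit [Fintype ι] in
theorem Wd.sel_near (w : Wd R Pal) (u : ℝ) :
    ∀ᶠ v in 𝓝 u, ∀ h, Sel R (Pal v) h → Sel R (Pal u) h := by
  filter_upwards [w.near u] with v hv h hh
  exact ⟨fun p => hv p (hh.1 p), hh.2⟩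

theorem Cl.quiet (hτ : ∀ p a, τ p a a = 0) (hc : Cl R τ Inv P) (hq : Quiet τ P) {h h' : ι → Λ}
    (hh : Sel R P h) (hh' : Sel R P h') {n : M} (hn : Inv h n) : Inv h' n := by
  have := hc.go hτ hh hh' hn
  have e : ∑ p, τ p (h p) (h' p) = 0 := Finset.sum_eq_zero fun p _ => hq p _ (hh.1 p) _ (hh'.1 p)
  rwa [e, add_zero] at this

/-- All selections at a time without marks, and the selections near it, are equivalent. -/
theorem Wd.quiet_near (w : Wd R Pal) (hτ : ∀ p a, τ p a a = 0) {u : ℝ} (hc : Cl R τ Inv (Pal u))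
    (hq : Quiet τ (Pal u)) :
    ∀ᶠ v in 𝓝 u, ∀ h h', Sel R (Pal u) h → Sel R (Pal v) h' → ∀ n, Inv h n ↔ Inv h' n := by
  filter_upwards [w.sel_near u] with v hv h h' hh hh' n
  exact ⟨fun hn => hc.quiet hτ hq hh (hv _ hh') hn, fun hn => hc.quiet hτ hq (hv _ hh') hh hn⟩

/-- No marks on a closed interval. -/
theorem Wd.path_quiet (w : Wd R Pal) (hτ : ∀ p a, τ p a a = 0) {a b : ℝ} (hab : a ≤ b)
    (hc : ∀ u ∈ Icc a b, Cl R τ Inv (Pal u)) (hq : ∀ u ∈ Icc a b, Quiet τ (Pal u))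
    {h h' : ι → Λ} (hh : Sel R (Pal a) h) (hh' : Sel R (Pal b) h') (n : M) : Inv h n ↔ Inv h' n := by
  classical
  choose s hs using w.ex
  have hloc : ∀ u ∈ Icc a b, ∀ᶠ v in 𝓝 u, (Inv (s u) n ↔ Inv (s v) n) := by
    intro u hu
    filter_upwards [w.quiet_near hτ (hc u hu) (hq u hu)] with v hv
    exact hv _ _ (hs u) (hs v) n
  have hcont : ContinuousOn (fun u => if Inv (s u) n then (1 : ℕ) else 0) (Icc a b) := by
    intro x hx
    have h1 : Tendsto (fun u => if Inv (s u) n then (1 : ℕ) else 0) (𝓝 x)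
        (pure (if Inv (s x) n then (1 : ℕ) else 0)) := by
      rw [tendsto_pure]
      filter_upwards [hloc x hx] with v hv
      exact if_congr hv.symm rfl rfl
    exact (h1.mono_left nhdsWithin_le_nhds).mono_right (pure_le_nhds _)
  have h1 := isPreconnected_Icc.constant hcont (left_mem_Icc.mpr hab) (right_mem_Icc.mpr hab)
  have h2 : Inv (s a) n ↔ Inv (s b) n := by
    have h1' : (if Inv (s a) n then (1 : ℕ) else 0) = if Inv (s b) n then (1 : ℕ) else 0 := h1
    by_cases ha : Inv (s a) n <;> by_cases hb : Inv (s b) n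
    · exact iff_of_true ha hb
    · rw [if_pos ha, if_neg hb] at h1'; exact absurd h1' one_ne_zero
    · rw [if_neg ha, if_pos hb] at h1'; exact absurd h1'.symm one_ne_zero
    · exact iff_of_false ha hb
  have ha := hc a (left_mem_Icc.mpr hab)
  have hb := hc b (right_mem_Icc.mpr hab)
  have qa := hq a (left_mem_Icc.mpr hab)
  have qb := hq b (right_mem_Icc.mpr hab)
  constructor
  · intro hn
    exact hb.quiet hτ qb (hs b) hh' (h2.mp (ha.quiet hτ qa hh (hs a) hn))
  · intro hn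
    exact ha.quiet hτ qa (hs a) hh (h2.mpr (hb.quiet hτ qb hh' (hs b) hn))

/-- the counter gains `m` at the time `u` -/
def Cross (R : ι → ι → Λ → Λ → Prop) (τ : ι → Λ → Λ → M) (Pal : ℝ → ι → Set Λ) (u : ℝ) (m : M) :
    Prop :=
  ∀ᶠ v in 𝓝[<] u, ∀ᶠ v' in 𝓝[>] u, ∀ h h', Sel R (Pal v) h → Sel R (Pal v') h' →
    ∑ p, τ p (h p) (h' p) = m

/-- **Path lemma**: finitely many times `T` with marks. -/
theorem Wd.path (w : Wd R Pal) (hτ : ∀ p a, τ p a a = 0) (T : Finset ℝ) (m : ℝ → M) {b : ℝ} :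
    ∀ (k : ℕ) (a : ℝ), (T.filter fun u => a < u ∧ u < b).card = k → a < b → a ∉ T → b ∉ T →
    (∀ u ∈ Icc a b, Cl R τ Inv (Pal u)) → (∀ u ∈ Icc a b, u ∉ T → Quiet τ (Pal u)) →
    (∀ u ∈ Icc a b, u ∈ T → Cross R τ Pal u (m u)) →
    ∀ {h h' : ι → Λ}, Sel R (Pal a) h → Sel R (Pal b) h' → ∀ n : M, Inv h n →
      Inv h' (n + ∑ u ∈ T.filter (fun u => a < u ∧ u < b), m u) := by
  intro k
  induction k with
  | zero =>
    intro a hk hab ha hb hc hq hx h h' hh hh' n hn
    rw [Finset.card_eq_zero] at hk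
    rw [hk, Finset.sum_empty, add_zero]
    refine (w.path_quiet hτ hab.le hc (fun u hu => hq u hu ?_) hh hh' n).mp hn
    intro huT
    have : u ∈ T.filter fun u => a < u ∧ u < b := by
      refine Finset.mem_filter.mpr ⟨huT, lt_of_le_of_ne hu.1 ?_, lt_of_le_of_ne hu.2 ?_⟩
      · rintro rfl; exact ha huT
      · rintro rfl; exact hb huT
    rw [hk] at this
    exact absurd this (Finset.notMem_empty u)
  | succ k ih =>
    intro a hk hab ha hb hc hq hx h h' hh hh' n hn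
    have hne : (T.filter fun u => a < u ∧ u < b).Nonempty := by
      rw [← Finset.card_pos, hk]; omega
    set t := (T.filter fun u => a < u ∧ u < b).min' hne with ht
    have htm := Finset.min'_mem _ hne
    rw [← ht] at htm
    obtain ⟨htT, hat, htb⟩ := Finset.mem_filter.mp htm
    have hmin : ∀ u ∈ T, a < u → u < b → t ≤ u := fun u hu h1 h2 =>
      Finset.min'_le _ _ (Finset.mem_filter.mpr ⟨hu, h1, h2⟩)
    have hcross := hx t ⟨hat.le, htb.le⟩ htT
    have hnear := w.sel_near t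
    have hTc : ∀ᶠ v in 𝓝[>] t, v ∉ T := by
      have h1 : ((T.erase t : Finset ℝ) : Set ℝ)ᶜ ∈ 𝓝 t :=
        (T.erase t).finite_toSet.isClosed.isOpen_compl.mem_nhds (by simp)
      filter_upwards [nhdsWithin_le_nhds h1, self_mem_nhdsWithin] with v hv hv' hvT
      exact hv (by
        simp only [Finset.coe_erase, mem_diff, Finset.mem_coe, mem_singleton_iff]
        exact ⟨hvT, (ne_of_gt hv')⟩)
    have hTn : ∀ᶠ v in 𝓝[>] t, ∀ u ∈ T, t < u → v < u := by
      have : ∀ u ∈ T, ∀ᶠ v in 𝓝[>] t, t < u → v < u := by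
        intro u _
        by_cases htu : t < u
        · filter_upwards [nhdsWithin_le_nhds (Iio_mem_nhds htu)] with v hv _
          exact hv
        · exact Eventually.of_forall fun v h => absurd h htu
      exact (Finset.eventually_all T).mpr this
    obtain ⟨v, ⟨hv1, hv2⟩, hv3⟩ := ((hcross.and (nhdsWithin_le_nhds hnear)).and
      (Ioo_mem_nhdsLT hat)).exists
    obtain ⟨v', ⟨⟨⟨⟨hw1, hw2⟩, hw3⟩, hw4⟩, hw5⟩⟩ := ((((hv1.and (nhdsWithin_le_nhds hnear)).and
      (Ioo_mem_nhdsGT htb)).and hTc).and hTn).exists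
    obtain ⟨g, hg⟩ := w.ex v
    obtain ⟨g', hg'⟩ := w.ex v'
    -- from `a` to `v`
    have hav : ∀ u ∈ Icc a v, u ∉ T := by
      intro u hu huT
      rcases eq_or_lt_of_le hu.1 with e | e
      · exact ha (e ▸ huT)
      · have := hmin u huT e (by linarith [hu.2, hv3.2])
        linarith [hu.2, hv3.2]
    have n1 : Inv g n := (w.path_quiet hτ hv3.1.le
      (fun u hu => hc u ⟨hu.1, by linarith [hu.2, hv3.2]⟩)
      (fun u hu => hq u ⟨hu.1, by linarith [hu.2, hv3.2]⟩ (hav u hu)) hh hg n).mp hn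
    -- across `t`
    have n2 := (hc t ⟨hat.le, htb.le⟩).go hτ (hv2 g hg) (hw2 g' hg') n1
    rw [hw1 g g' hg hg'] at n2
    -- from `v'` to `b`
    have hfil : (T.filter fun u => v' < u ∧ u < b) = (T.filter fun u => a < u ∧ u < b).erase t := by
      ext u
      simp only [Finset.mem_filter, Finset.mem_erase]
      constructor
      · rintro ⟨h1, h2, h3⟩
        exact ⟨by rintro rfl; linarith [hw3.1], h1, by linarith [hw3.1], h3⟩
      · rintro ⟨h1, h2, h3, h4⟩
        have h5 := hmin u h2 h3 h4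
        exact ⟨h2, hw5 u h2 (lt_of_le_of_ne h5 (Ne.symm h1)), h4⟩
    have hcard : (T.filter fun u => v' < u ∧ u < b).card = k := by
      rw [hfil, Finset.card_erase_of_mem htm, hk]; rfl
    have n3 := ih v' hcard hw3.2 hw4 hb (fun u hu => hc u ⟨by linarith [hu.1, hw3.1], hu.2⟩)
      (fun u hu => hq u ⟨by linarith [hu.1, hw3.1], hu.2⟩)
      (fun u hu => hx u ⟨by linarith [hu.1, hw3.1], hu.2⟩) hg' hh' _ n2
    rw [add_assoc, hfil, Finset.add_sum_erase _ _ htm] at n3
    exact n3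

/-- The same with one sided ends (there may be marks at the times `a` and `b`). -/
theorem Wd.path_sided (w : Wd R Pal) (hτ : ∀ p a, τ p a a = 0) (T : Finset ℝ) (m : ℝ → M) {a b : ℝ}
    (hab : a < b) (hc : ∀ u ∈ Ioo a b, Cl R τ Inv (Pal u))
    (hq : ∀ u ∈ Ioo a b, u ∉ T → Quiet τ (Pal u))
    (hx : ∀ u ∈ Ioo a b, u ∈ T → Cross R τ Pal u (m u)) (n : M)
    (hstart : ∀ᶠ v in 𝓝[>] a, ∃ h, Sel R (Pal v) h ∧ Inv h n) :
    ∀ᶠ v' in 𝓝[<] b, ∀ h', Sel R (Pal v') h' →
      Inv h' (n + ∑ u ∈ T.filter (fun u => a < u ∧ u < b), m u) := by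
  have hTa : ∀ᶠ v in 𝓝[>] a, ∀ u ∈ T, a < u → v < u := by
    refine (Finset.eventually_all T).mpr fun u _ => ?_
    by_cases htu : a < u
    · filter_upwards [nhdsWithin_le_nhds (Iio_mem_nhds htu)] with v hv _
      exact hv
    · exact Eventually.of_forall fun v h => absurd h htu
  have hTb : ∀ᶠ v in 𝓝[<] b, ∀ u ∈ T, u < b → u < v := by
    refine (Finset.eventually_all T).mpr fun u _ => ?_
    by_cases htu : u < b
    · filter_upwards [nhdsWithin_le_nhds (Ioi_mem_nhds htu)] with v hv _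
      exact hv
    · exact Eventually.of_forall fun v h => absurd h htu
  have hmid : a < (a + b) / 2 := by linarith
  have hmid' : (a + b) / 2 < b := by linarith
  obtain ⟨v, ⟨hv1, hv2⟩, hv3⟩ := ((hTa.and hstart).and (Ioo_mem_nhdsGT hmid)).exists
  filter_upwards [hTb, Ioo_mem_nhdsLT hmid'] with v' hw1 hw3 h' hh'
  obtain ⟨h, hh, hn⟩ := hv2
  have hvT : v ∉ T := fun hvT => lt_irrefl v (hv1 v hvT hv3.1)
  have hwT : v' ∉ T := fun hwT => lt_irrefl v' (hw1 v' hwT hw3.2)
  have hvw : v < v' := by linarith [hv3.2, hw3.1]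
  have hfil : (T.filter fun u => v < u ∧ u < v') = T.filter fun u => a < u ∧ u < b := by
    ext u
    simp only [Finset.mem_filter]
    constructor
    · rintro ⟨h1, h2, h3⟩
      exact ⟨h1, by linarith [hv3.1], by linarith [hw3.2]⟩
    · rintro ⟨h1, h2, h3⟩
      exact ⟨h1, hv1 u h1 h2, hw1 u h1 h3⟩
  have := w.path hτ T m (b := v') _ v rfl hvw hvT hwT
    (fun u hu => hc u ⟨by linarith [hu.1, hv3.1], by linarith [hu.2, hw3.2]⟩)
    (fun u hu => hq u ⟨by linarith [hu.1, hv3.1], by linarith [hu.2, hw3.2]⟩)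
    (fun u hu => hx u ⟨by linarith [hu.1, hv3.1], by linarith [hu.2, hw3.2]⟩) hh hh' n hn
  rwa [hfil] at this

end Vale.Agent.P032.Words.Scc
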