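import Vale.Agent.P032.Words.H984.Path

/-!
# Reachability form and the closing of the cycle

`StepR R τ G`: a legal strongly connected change between two selections of one palette system of `G`,
with its counter.  `Wd.cycle`: from just right of the time `a` to just left of `a + 1`, where the
palettes are those of time `a` with permuted positions.
-/

namespace Vale.Agent.P032.Words.Scc

open Set Filter Topology

variable {ι Λ : Type*} [Fintype ι] {M : Type*} [AddCommMonoid M]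

/-- one legal strongly connected change inside a palette system of `G` -/
def StepR (R : ι → ι → Λ → Λ → Prop) (τ : ι → Λ → Λ → M) (G : Set (ι → Set Λ))
    (x y : (ι → Λ) × M) : Prop :=
  ∃ P ∈ G, Sel R P x.1 ∧ Sel R P y.1 ∧ x.1 ≠ y.1 ∧ SC R x.1 y.1 ∧
    y.2 = x.2 + ∑ p, τ p (x.1 p) (y.1 p)

/-- reachability -/
def Reach (R : ι → ι → Λ → Λ → Prop) (τ : ι → Λ → Λ → M) (G : Set (ι → Set Λ))
    (x y : (ι → Λ) × M) : Prop := Relation.ReflTransGen (StepR R τ G) x y

variable {R : ι → ι → Λ → Λ → Prop} {τ : ι → Λ → Λ → M} {G : Set (ι → Set Λ)}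
  {P : ι → Set Λ} {Pal : ℝ → ι → Set Λ}

theorem cl_reach (hP : P ∈ G) (x : (ι → Λ) × M) : Cl R τ (fun h n => Reach R τ G x (h, n)) P :=
  fun h h' hh hh' hne hsc n hn => hn.tail ⟨P, hP, hh, hh', hne, hsc, rfl⟩

/-- two legal selections of the same palettes -/
theorem reach_of_sel (hτ : ∀ p a, τ p a a = 0) (hP : P ∈ G) {h h' : ι → Λ} (hh : Sel R P h)
    (hh' : Sel R P h') (n : M) : Reach R τ G (h, n) (h', n + ∑ p, τ p (h p) (h' p)) :=
  (cl_reach (τ := τ) hP (h, n)).go hτ hh hh' Relation.ReflTransGen.refl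

/-- from just right of `a` to just left of `b` with the exact total of the counter -/
theorem Wd.reach (w : Wd R Pal) (hτ : ∀ p a, τ p a a = 0) (T : Finset ℝ) (m : ℝ → M) {a b : ℝ}
    (hab : a < b) (hG : ∀ u ∈ Ioo a b, Pal u ∈ G)
    (hq : ∀ u ∈ Ioo a b, u ∉ T → Quiet τ (Pal u))
    (hx : ∀ u ∈ Ioo a b, u ∈ T → Cross R τ Pal u (m u)) :
    ∀ᶠ v in 𝓝[>] a, ∀ᶠ v' in 𝓝[<] b, ∀ h h', Sel R (Pal v) h → Sel R (Pal v') h' →
      Reach R τ G (h, 0) (h', ∑ u ∈ T.filter (fun u => a < u ∧ u < b), m u) := by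
  have hTa : ∀ᶠ v in 𝓝[>] a, ∀ u ∈ T, a < u → v < u := by
    refine (Finset.eventually_all T).mpr fun u _ => ?_
    by_cases htu : a < u
    · filter_upwards [nhdsWithin_le_nhds (Iio_mem_nhds htu)] with v hv _
      exact hv
    · exact Eventually.of_forall fun v h => absurd h htu
  have hTb : ∀ᶠ v in 𝓝[<] b, ∀ u ∈ T, u < b → u < v := by
    refine (Finset.eventually_all T).mpr fun u _ => ?_
    by_cases htu : u < b
    · filter_upwards [nhdsWithin_le_nhds (Ioi_mem_nhds htu)] with v hv _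
      exact hv
    · exact Eventually.of_forall fun v h => absurd h htu
  have hmid : a < (a + b) / 2 := by linarith
  have hmid' : (a + b) / 2 < b := by linarith
  filter_upwards [hTa, Ioo_mem_nhdsGT hmid] with v hv1 hv3
  filter_upwards [hTb, Ioo_mem_nhdsLT hmid'] with v' hw1 hw3 h h' hh hh'
  have hvT : v ∉ T := fun hvT => lt_irrefl v (hv1 v hvT hv3.1)
  have hwT : v' ∉ T := fun hwT => lt_irrefl v' (hw1 v' hwT hw3.2)
  have hvw : v < v' := by linarith [hv3.2, hw3.1]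
  have hfil : (T.filter fun u => v < u ∧ u < v') = T.filter fun u => a < u ∧ u < b := by
    ext u
    simp only [Finset.mem_filter]
    constructor
    · rintro ⟨h1, h2, h3⟩
      exact ⟨h1, by linarith [hv3.1], by linarith [hw3.2]⟩
    · rintro ⟨h1, h2, h3⟩
      exact ⟨h1, hv1 u h1 h2, hw1 u h1 h3⟩
  have hI : ∀ u ∈ Icc v v', u ∈ Ioo a b := fun u hu =>
    ⟨by linarith [hu.1, hv3.1], by linarith [hu.2, hw3.2]⟩
  have := w.path (Inv := fun g n => Reach R τ G (h, 0) (g, n)) hτ T m (b := v') _ v rfl hvw hvT hwT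
    (fun u hu => cl_reach (hG u (hI u hu)) _) (fun u hu => hq u (hI u hu))
    (fun u hu => hx u (hI u hu)) hh hh' 0 Relation.ReflTransGen.refl
  rwa [hfil, zero_add] at this

/-- **Closing of the cycle.**  `h`: a selection just right of `a`; `g`: a selection just left of
`a + 1`, written at the positions of time `a` (`Pal (u + 1) p = Pal u (σ p)`). -/
theorem Wd.cycle (w : Wd R Pal) (hτ : ∀ p a, τ p a a = 0) (σ : Equiv.Perm ι)
    (hσ : ∀ u p, Pal (u + 1) p = Pal u (σ p)) (hR : ∀ p q a b, R p q a b ↔ R (σ p) (σ q) a b)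
    (T : Finset ℝ) (m : ℝ → M) (a : ℝ) (hG : ∀ u ∈ Ioo a (a + 1), Pal u ∈ G)
    (hq : ∀ u ∈ Ioo a (a + 1), u ∉ T → Quiet τ (Pal u))
    (hx : ∀ u ∈ Ioo a (a + 1), u ∈ T → Cross R τ Pal u (m u))
    {Bp Bm : (ι → Λ) → Prop}
    (hBp : ∀ᶠ v in 𝓝[>] a, ∀ h, Sel R (Pal v) h → Bp h)
    (hBm : ∀ᶠ v in 𝓝[<] a, ∀ h, Sel R (Pal v) h → Bm h) :
    ∃ h g : ι → Λ, Bp h ∧ Bm g ∧ Sel R (Pal a) h ∧ Sel R (Pal a) g ∧
      Reach R τ G (h, 0) (fun p => g (σ p), ∑ u ∈ T.filter (fun u => a < u ∧ u < a + 1), m u) := by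
  have h1 := w.reach (G := G) hτ T m (lt_add_one a) hG hq hx
  have hs := w.sel_near a
  obtain ⟨v, ⟨hv1, hv2⟩, hv3⟩ := ((h1.and hBp).and (nhdsWithin_le_nhds hs)).exists
  -- transport the properties left of `a` to the left of `a + 1`
  have htr : Tendsto (fun v : ℝ => v - 1) (𝓝[<] (a + 1)) (𝓝[<] a) := by
    refine tendsto_nhdsWithin_of_tendsto_nhds_of_eventually_within _ ?_ ?_
    · have : Tendsto (fun v : ℝ => v - 1) (𝓝 (a + 1)) (𝓝 (a + 1 - 1)) :=
        (continuous_sub_right 1).tendsto _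
      rw [add_sub_cancel_right] at this
      exact this.mono_left nhdsWithin_le_nhds
    · filter_upwards [self_mem_nhdsWithin] with v hv
      have : v < a + 1 := hv
      show v - 1 < a
      linarith
  have e2 := htr.eventually (hBm.and (nhdsWithin_le_nhds hs))
  obtain ⟨v', hw1, hw2, hw3⟩ := (hv1.and e2).exists
  obtain ⟨h, hh⟩ := w.ex v
  obtain ⟨g, hg⟩ := w.ex (v' - 1)
  have hg' : Sel R (Pal v') (fun p => g (σ p)) := by
    have e : ∀ p, Pal v' p = Pal (v' - 1) (σ p) := by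
      intro p
      rw [← hσ, sub_add_cancel]
    refine ⟨fun p => ?_, fun p q => ?_⟩
    · rw [e]; exact hg.1 (σ p)
    · exact (hR p q _ _).mpr (hg.2 (σ p) (σ q))
  exact ⟨h, g, hv2 h hh, hw2 g hg, hv3 h hh, hw3 g hg, hw1 h _ hh hg'⟩

end Vale.Agent.P032.Words.Scc
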