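import Vale.Agent.P032.Words.H984.Ord
import Vale.Agent.P032.Words.H984.Sep22
import Vale.Agent.P032.Words.L3

/-!
# L2 and L3 for `Wrd`

Letters `0 = e`, `1 = f`, `2 = A`, `3 = C`.  The changes `A|e` and `C|f` are counted, all others are
free (any number of them).
-/

namespace Vale.Agent.P032.Words

open Set Filter Topology Scc Pot

/-- the counted changes: `A|e`, `C|f`, `A|C` -/
def cQ (x y : Fin 4) : Prop := (x = 0 ∧ y = 2) ∨ (x = 2 ∧ y = 0) ∨ (x = 1 ∧ y = 3) ∨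
  (x = 3 ∧ y = 1) ∨ (x = 2 ∧ y = 3) ∨ (x = 3 ∧ y = 2)

theorem cQ_free : ∀ x y : Fin 4, ¬ cQ x y → Fr x y := by
  unfold cQ Fr fr2
  decide

/-- type `C|f` -/
def QT (e : Ev) : Prop := (e.2.1 = 1 ∧ e.2.2 = 3) ∨ (e.2.1 = 3 ∧ e.2.2 = 1)

theorem ep_reach {h g : Hx} {L : List Ev} (hE : EP cQ h L g) (hL : ∀ e ∈ L, QT e) :
    Words.Reach (L.map (·.1)) (cp h) (cp g) := by
  induction hE with
  | refl => rfl
  | @free m L k l _ a b d e ih =>
    rw [cp_step m k l a b (cQ_free _ _ e)]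
    exact ih hL
  | @mark m L k l _ a b d e ih =>
    rw [List.map_append]
    refine Reach.append (ih fun e' he' => hL e' (List.mem_append_left _ he')) ?_
    exact ⟨cp (Function.update m k l), cp_lt b, rq_step a b rfl (hL (k, m k, l) (by simp)), rfl⟩

/-- rotation by `n` -/
def rn (n : Fin 6) (g : Hx) : Hx := fun p => g (p + n)

/-- shift by `n` -/
def shn (n : Fin 6) (e : Ev) : Ev := (e.1 - n, e.2)

theorem rn_update (n : Fin 6) (g : Hx) (k : Fin 6) (l : Fin 4) :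
    rn n (Function.update g k l) = Function.update (rn n g) (k - n) l := by
  funext j
  unfold rn
  by_cases h : j + n = k
  · subst h
    rw [add_sub_cancel_right, Function.update_self, Function.update_self]
  · rw [Function.update_of_ne h, Function.update_of_ne]
    intro e
    exact h (by rw [e, sub_add_cancel])

theorem leg_rn {h : Hx} (n : Fin 6) (H : Leg4 h) : Leg4 (rn n h) := by
  obtain ⟨ha, hb⟩ := H
  refine ⟨fun k => ?_, fun k => ?_⟩
  · have := ha (k + n)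
    unfold rn
    have e : k + 1 + n = k + n + 1 := add_right_comm k 1 n
    rw [e]
    exact this
  · have := hb (k + n)
    unfold rn
    have e : k + 3 + n = k + n + 3 := add_right_comm k 3 n
    rw [e]
    exact this

theorem EP.rn {c : Fin 4 → Fin 4 → Prop} {h g : Hx} {L : List Ev} (H : EP c h L g) (n : Fin 6) :
    EP c (Words.rn n h) (L.map (shn n)) (Words.rn n g) := by
  induction H with
  | refl => exact EP.refl _
  | @free g L k l _ a b d e ih =>
    have hk : Words.rn n g (k - n) = g k := by unfold Words.rn; rw [sub_add_cancel]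
    rw [rn_update]
    exact EP.free (k - n) l ih (leg_rn n a) (by rw [← rn_update]; exact leg_rn n b)
      (by rw [hk]; exact d) (by rw [hk]; exact e)
  | @mark g L k l _ a b d e ih =>
    have hk : Words.rn n g (k - n) = g k := by unfold Words.rn; rw [sub_add_cancel]
    rw [rn_update, List.map_append]
    have := EP.mark (k - n) l ih (leg_rn n a) (by rw [← rn_update]; exact leg_rn n b)
      (by rw [hk]; exact d) (by rw [hk]; exact e)
    rw [hk] at this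
    exact this

theorem rn_rot (n : Fin 6) (g : Hx) : rn n (rot g) = rot (rn n g) := by
  funext p
  unfold rn rot
  rw [add_right_comm]

/-- a closed path with the event `(j, x, y)` of type `A|e` -/
theorem base_pat {g : Hx} {L1 L2 : List Ev} {j : Fin 6} {x y : Fin 4}
    (hE : EP cQ g (L1 ++ (j, x, y) :: L2) (rot g)) (hxy : (x = 0 ∧ y = 2) ∨ (x = 2 ∧ y = 0))
    (hL : ∀ e ∈ L1 ++ L2, QT e) :
    ∃ p F, p < 20 ∧ F < 20 ∧ relN vr p F = true ∧
      Words.Reach (L2.map (fun e => e.1 - j) ++ L1.map (fun e => e.1 - 1 - j)) p F := by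
  obtain ⟨m, h1, h2, h3, h4, h5⟩ := hE.split_at rfl
  have h6 := (EP.trans h5 h1.rot).rn j
  rw [rn_update, sub_self, rn_rot] at h6
  have h7 := ep_reach h6 (by
    intro e he
    rw [List.map_append, List.mem_append] at he
    rcases he with he | he
    · obtain ⟨e', he', rfl⟩ := List.mem_map.mp he
      exact hL e' (List.mem_append_right _ he')
    · obtain ⟨e', he', rfl⟩ := List.mem_map.mp he
      obtain ⟨e'', he'', rfl⟩ := List.mem_map.mp he'
      exact hL e'' (List.mem_append_left _ he''))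
  have h0 : rn j m 0 = x := by unfold rn; rw [zero_add]; exact h2
  have l2 : Leg4 (Function.update (rn j m) 0 y) := by
    have := leg_rn j h4
    rwa [rn_update, sub_self] at this
  refine ⟨_, _, cp_lt l2, cp_lt (leg_rot (leg_rn j h3)), vr_step (leg_rn j h3) l2 h0 hxy, ?_⟩
  have e : ((L2 ++ L1.map sh).map (shn j)).map (·.1) =
      L2.map (fun e => e.1 - j) ++ L1.map (fun e => e.1 - 1 - j) := by
    rw [List.map_append, List.map_append, List.map_map, List.map_map, List.map_map]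
    rfl
  rw [← e]
  exact h7

section
variable {X : Fin 4 → Set ℝ}

theorem hN_of (R : Wrd X) {F : Finset ℝ}
    (h02 : ∀ u, u ∈ X 0 → u ∈ X 2 → ∃ P ∈ F, ∃ n : ℤ, u = P + 6 * n)
    (h13 : ∀ u, u ∈ X 1 → u ∈ X 3 → ∃ P ∈ F, ∃ n : ℤ, u = P + 6 * n) :
    ∀ u, (∀ P ∈ F, ∀ n : ℤ, u ≠ P + 6 * n) → ∀ x y, u ∈ X x → u ∈ X y → x ≠ y → ¬ cQ x y := by
  rintro u hu x y hx hy - (⟨rfl, rfl⟩ | ⟨rfl, rfl⟩ | ⟨rfl, rfl⟩ | ⟨rfl, rfl⟩ | ⟨rfl, rfl⟩ | ⟨rfl, rfl⟩)
  · obtain ⟨P, hP, n, hn⟩ := h02 u hx hy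
    exact hu P hP n hn
  · obtain ⟨P, hP, n, hn⟩ := h02 u hy hx
    exact hu P hP n hn
  · obtain ⟨P, hP, n, hn⟩ := h13 u hx hy
    exact hu P hP n hn
  · obtain ⟨P, hP, n, hn⟩ := h13 u hy hx
    exact hu P hP n hn
  · exact R.ac u hx hy
  · exact R.ac u hy hx

theorem v_spec {V : ℝ} (hV : End X 0 2 V) : Mark X (pr X V).1 (pr X V).2 V ∧
    (((pr X V).1 = 0 ∧ (pr X V).2 = 2) ∨ ((pr X V).1 = 2 ∧ (pr X V).2 = 0)) := by
  obtain ⟨h1, h2⟩ := pr_spec hV (by decide)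
  refine ⟨h1, ?_⟩
  rcases h2 with e | e <;> rw [e]
  · exact Or.inl ⟨rfl, rfl⟩
  · exact Or.inr ⟨rfl, rfl⟩

theorem q_spec {V : ℝ} (hV : End X 1 3 V) : Mark X (pr X V).1 (pr X V).2 V ∧
    (((pr X V).1 = 1 ∧ (pr X V).2 = 3) ∨ ((pr X V).1 = 3 ∧ (pr X V).2 = 1)) := by
  obtain ⟨h1, h2⟩ := pr_spec hV (by decide)
  refine ⟨h1, ?_⟩
  rcases h2 with e | e <;> rw [e]
  · exact Or.inl ⟨rfl, rfl⟩
  · exact Or.inr ⟨rfl, rfl⟩

theorem v_c {V : ℝ} (hV : End X 0 2 V) : Mark X (pr X V).1 (pr X V).2 V ∧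
    (pr X V).1 ≠ (pr X V).2 ∧ cQ (pr X V).1 (pr X V).2 := by
  obtain ⟨h1, h2⟩ := v_spec hV
  refine ⟨h1, ?_⟩
  rcases h2 with ⟨a, b⟩ | ⟨a, b⟩ <;> rw [a, b]
  · exact ⟨by decide, Or.inl ⟨rfl, rfl⟩⟩
  · exact ⟨by decide, Or.inr (Or.inl ⟨rfl, rfl⟩)⟩

theorem q_c {V : ℝ} (hV : End X 1 3 V) : Mark X (pr X V).1 (pr X V).2 V ∧
    (pr X V).1 ≠ (pr X V).2 ∧ cQ (pr X V).1 (pr X V).2 := by
  obtain ⟨h1, h2⟩ := q_spec hV
  refine ⟨h1, ?_⟩
  rcases h2 with ⟨a, b⟩ | ⟨a, b⟩ <;> rw [a, b]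
  · exact ⟨by decide, Or.inr (Or.inr (Or.inl ⟨rfl, rfl⟩))⟩
  · exact ⟨by decide, Or.inr (Or.inr (Or.inr (Or.inl ⟨rfl, rfl⟩)))⟩

theorem VQ_ne {V Q : ℝ} (hV : End X 0 2 V) (hQ : End X 1 3 Q) : V ≠ Q := by
  intro h
  subst h
  rcases End.only hQ 0 (End.mem hV).1 with h | h <;> exact absurd h (by decide)

/-- **L2** over `Wrd`. -/
theorem Wrd.L2 (R : Wrd X) {V Q : ℝ} (hV : End X 0 2 V) (hQ : End X 1 3 Q)
    (hVu : ∀ u, u ∈ X 0 → u ∈ X 2 → ∃ n : ℤ, u = V + 6 * n)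
    (hQu : ∀ u, u ∈ X 1 → u ∈ X 3 → ∃ n : ℤ, u = Q + 6 * n) : False := by
  obtain ⟨Q₁, a1, a2⟩ := norm_ex V Q
  have hQ₁ := end_E6 R hQ a1
  have hne := VQ_ne hV hQ₁
  obtain ⟨h, P1, P2, h0, h1, h2, h3, h4, h5⟩ := R.turnP (c := cQ) (V := V) (F := {V, Q₁})
    (lf := fun P => (pr X P).1) (rt := fun P => (pr X P).2) (by simp)
    (by
      intro P hP
      have hP' : P = V ∨ P = Q₁ := by simpa using hP
      rcases hP' with rfl | rfl
      · exact ⟨le_rfl, by linarith⟩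
      · exact a2)
    (by
      intro P hP
      have hP' : P = V ∨ P = Q₁ := by simpa using hP
      rcases hP' with rfl | rfl
      · exact v_c hV
      · exact q_c hQ₁)
    (hN_of R (fun u hx hy => by
      obtain ⟨n, hn⟩ := hVu u hx hy
      exact ⟨V, by simp, n, hn⟩) fun u hx hy => by
      obtain ⟨n, hn⟩ := E6.trans (hQu u hx hy) a1.symm
      exact ⟨Q₁, by simp, n, hn⟩)
  have hval : (({V, Q₁} : Finset ℝ)).val = ((V :: [Q₁] : List ℝ) : Multiset ℝ) := by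
    rw [Finset.insert_val_of_notMem (by simpa using hne)]
    rfl
  rw [hval, Multiset.coe_eq_coe] at h4
  have h4' : (P1 ++ P2).Perm [Q₁] := (List.perm_cons V).mp (List.perm_middle.symm.trans h4)
  have h6 : P1 ++ P2 = [Q₁] := List.perm_singleton.mp h4'
  have hqt : ∀ (k : Fin 6), QT (k, (pr X Q₁).1, (pr X Q₁).2) := fun k => (q_spec hQ₁).2
  have key : ∀ k : Fin 6, EP cQ (Function.update h 0 (pr X V).2)
      [(k, (pr X Q₁).1, (pr X Q₁).2)] (rot h) → False := by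
    intro k hk
    have := ep_reach hk (by
      intro e he
      rw [List.mem_singleton] at he
      subst he
      exact hqt k)
    exact no_one (cp_lt h2) (cp_lt (leg_rot h1)) (vr_step h1 h2 h0 (v_spec hV).2) this
  rcases P1 with _ | ⟨a, P1⟩
  · rw [List.nil_append] at h6
    subst h6
    exact key _ h3
  · rw [List.cons_append] at h6
    obtain ⟨rfl, h7⟩ := List.cons_eq_cons.mp h6
    obtain ⟨rfl, rfl⟩ := List.append_eq_nil_iff.mp h7
    exact key _ h3

end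

end Vale.Agent.P032.Words
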