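import Vale.Agent.P032.Words.H984.L3W

/-!
# L3 for `Wrd`, strict form: no antipodal pair of ends `C|f`
-/

namespace Vale.Agent.P032.Words

open Set Filter Topology Scc Pot

variable {X : Fin 4 → Set ℝ}

/-- no chain of common letters between two antipodal ends `C|f` -/
def NC (X : Fin 4 → Set ℝ) : Prop :=
  ∀ (u : ℝ) (a0 a1 a2 : Fin 4), a0 ≠ a1 → a1 ≠ a2 → (a0 = 1 ∨ a0 = 3) → (a2 = 1 ∨ a2 = 3) →
    u ∈ X a0 → u + 1 ∈ X a0 → u + 1 ∈ X a1 → u + 2 ∈ X a1 → u + 2 ∈ X a2 → u + 3 ∈ X a2 → False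

theorem sel_right {a b : Fin 4} {u : ℝ} {k : Fin 6} (hcl : ∀ l, IsClosed (X l))
    (hm : Mark X a b (u + (k.val : ℝ))) :
    ∀ᶠ v in 𝓝[>] u, ∀ h, Sel R4 (palX X v) h → h k = b := by
  have h1 := (tendsto_add_right u (k.val : ℝ)).eventually hm.right
  filter_upwards [h1, nhdsWithin_le_nhds (palX_near hcl u)] with v hv hn h hh
  have h2 : u + (k.val : ℝ) ∈ X (h k) := hn k (hh.1 k)
  rcases hm.only _ h2 with e | e
  · exact absurd (e ▸ hh.1 k) hv
  · exact e

theorem sel_left {a b : Fin 4} {u : ℝ} {k : Fin 6} (hcl : ∀ l, IsClosed (X l))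
    (hm : Mark X a b (u + (k.val : ℝ))) :
    ∀ᶠ v in 𝓝[<] u, ∀ h, Sel R4 (palX X v) h → h k = a := by
  have h1 := (tendsto_add_left u (k.val : ℝ)).eventually hm.left
  filter_upwards [h1, nhdsWithin_le_nhds (palX_near hcl u)] with v hv hn h hh
  have h2 : u + (k.val : ℝ) ∈ X (h k) := hn k (hh.1 k)
  rcases hm.only _ h2 with e | e
  · exact e
  · exact absurd (e ▸ hh.1 k) hv

theorem mem_pos (R : Wrd X) {u : ℝ} (l : Fin 4) (n : ℕ) (k : Fin 6)
    (hk : n % 6 = k.val) (hn : n < 12) : u + (n : ℝ) ∈ X l ↔ u + (k.val : ℝ) ∈ X l := by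
  by_cases h : n < 6
  · rw [Nat.mod_eq_of_lt h] at hk
    rw [hk]
  · have e : n = k.val + 6 := by omega
    have : u + (n : ℝ) = u + (k.val : ℝ) + 6 := by rw [e]; push_cast; ring
    rw [this, R.per]

/-- the intermediate selection: position 0 is changed, position 3 is not -/
theorem split3 (R : Wrd X) (nc : NC X) {u : ℝ} {g h : Hx} (hg : Sel R4 (palX X u) g)
    (hh : Sel R4 (palX X u) h) (g0 : ∀ l, l ∈ palX X u 0 → l = 1 ∨ l = 3)
    (g3 : ∀ l, l ∈ palX X u 3 → l = 1 ∨ l = 3) :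
    ∃ m, Sel R4 (palX X u) m ∧ (∀ p, m p = g p ∨ m p = h p) ∧ m 0 = h 0 ∧ m 3 = g 3 := by
  classical
  obtain ⟨gl, ga⟩ := legR_iff.mp hg.2
  obtain ⟨hl, ha⟩ := legR_iff.mp hh.2
  -- the chains
  have nc1 : ¬ (h 0 = g 1 ∧ h 1 = g 2 ∧ h 2 = g 3) := by
    rintro ⟨e1, e2, e3⟩
    refine nc u (g 1) (g 2) (g 3) (gl 1) (gl 2) (e1 ▸ g0 _ (hh.1 0)) (g3 _ (hg.1 3)) ?_ ?_ ?_ ?_ ?_ ?_
    · have := hh.1 0
      rw [e1] at this
      have h2 : u + (((0 : Fin 6).val : ℕ) : ℝ) ∈ X (g 1) := this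
      simpa using h2
    · have h2 : u + (((1 : Fin 6).val : ℕ) : ℝ) ∈ X (g 1) := hg.1 1
      simpa using h2
    · have := hh.1 1
      rw [e2] at this
      have h2 : u + (((1 : Fin 6).val : ℕ) : ℝ) ∈ X (g 2) := this
      simpa using h2
    · have h2 : u + (((2 : Fin 6).val : ℕ) : ℝ) ∈ X (g 2) := hg.1 2
      simpa using h2
    · have := hh.1 2
      rw [e3] at this
      have h2 : u + (((2 : Fin 6).val : ℕ) : ℝ) ∈ X (g 3) := this
      simpa using h2
    · have h2 : u + (((3 : Fin 6).val : ℕ) : ℝ) ∈ X (g 3) := hg.1 3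
      simpa using h2
  have nc2 : ¬ (h 0 = g 5 ∧ h 5 = g 4 ∧ h 4 = g 3) := by
    rintro ⟨e1, e2, e3⟩
    refine nc (u + 3) (g 3) (g 4) (g 5) (gl 3) (gl 4) (g3 _ (hg.1 3)) (e1 ▸ g0 _ (hh.1 0))
      ?_ ?_ ?_ ?_ ?_ ?_
    · have h2 : u + (((3 : Fin 6).val : ℕ) : ℝ) ∈ X (g 3) := hg.1 3
      simpa using h2
    · have := hh.1 4
      rw [e3] at this
      have h2 : u + (((4 : Fin 6).val : ℕ) : ℝ) ∈ X (g 3) := this
      have e : u + 3 + 1 = u + (((4 : Fin 6).val : ℕ) : ℝ) := by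
        have : ((4 : Fin 6).val : ℕ) = 4 := rfl
        rw [this]; push_cast; ring
      rw [e]; exact h2
    · have h2 : u + (((4 : Fin 6).val : ℕ) : ℝ) ∈ X (g 4) := hg.1 4
      have e : u + 3 + 1 = u + (((4 : Fin 6).val : ℕ) : ℝ) := by
        have : ((4 : Fin 6).val : ℕ) = 4 := rfl
        rw [this]; push_cast; ring
      rw [e]; exact h2
    · have := hh.1 5
      rw [e2] at this
      have h2 : u + (((5 : Fin 6).val : ℕ) : ℝ) ∈ X (g 4) := this
      have e : u + 3 + 2 = u + (((5 : Fin 6).val : ℕ) : ℝ) := by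
        have : ((5 : Fin 6).val : ℕ) = 5 := rfl
        rw [this]; push_cast; ring
      rw [e]; exact h2
    · have h2 : u + (((5 : Fin 6).val : ℕ) : ℝ) ∈ X (g 5) := hg.1 5
      have e : u + 3 + 2 = u + (((5 : Fin 6).val : ℕ) : ℝ) := by
        have : ((5 : Fin 6).val : ℕ) = 5 := rfl
        rw [this]; push_cast; ring
      rw [e]; exact h2
    · have := hh.1 0
      rw [e1] at this
      have h2 : u + (((0 : Fin 6).val : ℕ) : ℝ) ∈ X (g 5) := this
      have h2' : u ∈ X (g 5) := by simpa using h2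
      have e : u + 3 + 3 = u + 6 := by ring
      rw [e, R.per]; exact h2'
  let m : Hx := ![h 0, if h 0 = g 1 then h 1 else g 1,
    if h 0 = g 1 ∧ h 1 = g 2 then h 2 else g 2, g 3,
    if h 0 = g 5 ∧ h 5 = g 4 then h 4 else g 4, if h 0 = g 5 then h 5 else g 5]
  have m0 : m 0 = h 0 := rfl
  have m1 : m 1 = if h 0 = g 1 then h 1 else g 1 := rfl
  have m2 : m 2 = if h 0 = g 1 ∧ h 1 = g 2 then h 2 else g 2 := rfl
  have m3 : m 3 = g 3 := rfl
  have m4 : m 4 = if h 0 = g 5 ∧ h 5 = g 4 then h 4 else g 4 := rfl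
  have m5 : m 5 = if h 0 = g 5 then h 5 else g 5 := rfl
  have hmem : ∀ p, m p = g p ∨ m p = h p := by
    intro p
    fin_cases p
    · exact Or.inr rfl
    · show m 1 = g 1 ∨ m 1 = h 1
      rw [m1]; split_ifs <;> simp
    · show m 2 = g 2 ∨ m 2 = h 2
      rw [m2]; split_ifs <;> simp
    · exact Or.inl rfl
    · show m 4 = g 4 ∨ m 4 = h 4
      rw [m4]; split_ifs <;> simp
    · show m 5 = g 5 ∨ m 5 = h 5
      rw [m5]; split_ifs <;> simp
  have hsel : ∀ p, m p ∈ palX X u p := by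
    intro p
    rcases hmem p with e | e <;> rw [e]
    · exact hg.1 p
    · exact hh.1 p
  refine ⟨m, ⟨hsel, legR_iff.mpr ⟨?_, ?_⟩⟩, hmem, rfl, rfl⟩
  · have l01 : m 0 ≠ m 1 := by
      rw [m0, m1]; split_ifs with h1
      · exact hl 0
      · exact h1
    have l12 : m 1 ≠ m 2 := by
      rw [m1, m2]
      by_cases h1 : h 0 = g 1
      · rw [if_pos h1]
        by_cases h2 : h 1 = g 2
        · rw [if_pos ⟨h1, h2⟩]; exact hl 1
        · rw [if_neg (fun h' => h2 h'.2)]; exact h2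
      · rw [if_neg h1, if_neg (fun h' => h1 h'.1)]; exact gl 1
    have l23 : m 2 ≠ m 3 := by
      rw [m2, m3]; split_ifs with h1
      · exact fun h' => nc1 ⟨h1.1, h1.2, h'⟩
      · exact gl 2
    have l34 : m 3 ≠ m 4 := by
      rw [m3, m4]; split_ifs with h1
      · exact fun h' => nc2 ⟨h1.1, h1.2, h'.symm⟩
      · exact gl 3
    have l45 : m 4 ≠ m 5 := by
      rw [m4, m5]
      by_cases h1 : h 0 = g 5
      · rw [if_pos h1]
        by_cases h2 : h 5 = g 4
        · rw [if_pos ⟨h1, h2⟩]; exact hl 4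
        · rw [if_neg (fun h' => h2 h'.2)]; exact fun h' => h2 h'.symm
      · rw [if_neg h1, if_neg (fun h' => h1 h'.1)]; exact gl 4
    have l50 : m 5 ≠ m 0 := by
      rw [m5, m0]; split_ifs with h1
      · exact hl 5
      · exact fun h' => h1 h'.symm
    intro k
    fin_cases k
    exacts [l01, l12, l23, l34, l45, l50]
  · intro k ⟨h2, h3⟩
    have a2 := hsel k
    have a3 := hsel (k + 3)
    rw [h2] at a2
    rw [h3] at a3
    have a2' : u + (k.val : ℝ) ∈ X 2 := a2
    have a3' : u + ((k + 3).val : ℝ) ∈ X 3 := a3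
    refine R.anti _ a2' ?_
    have hk := k.isLt
    have e : (k.val + 3) % 6 = (k + 3).val := by rw [Fin.val_add]; rfl
    have := (mem_pos R (u := u) 3 (k.val + 3) (k + 3) e (by omega)).mpr a3'
    have e2 : u + (k.val : ℝ) + 3 = u + ((k.val + 3 : ℕ) : ℝ) := by push_cast; ring
    rw [e2]; exact this

theorem perm_pair' {α : Type*} {a b : α} {l : List α} (h : l.Perm [a, b]) :
    l = [a, b] ∨ l = [b, a] := by
  have hl := h.length_eq
  match l, hl with
  | [x, y], _ =>
    have hx : x ∈ [a, b] := h.subset (by simp)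
    rcases List.mem_cons.mp hx with rfl | hx
    · exact Or.inl (by rw [List.perm_singleton.mp ((List.perm_cons _).mp h)])
    · rw [List.mem_singleton] at hx
      subst hx
      have h' := h.trans (List.Perm.swap x a [])
      exact Or.inr (by rw [List.perm_singleton.mp ((List.perm_cons _).mp h')])

/-- the events of a change inside one palette system -/
theorem ep_of_sel (R : Wrd X) {u : ℝ} {g h : Hx} (hg : Sel R4 (palX X u) g)
    (hh : Sel R4 (palX X u) h) : ∃ L : List Ev, EP cQ g L h ∧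
      (L : Multiset Ev) = ∑ p, tauE cQ p (g p) (h p) := by
  have h1 := reach_of_sel (R := R4) (τ := tauE cQ) (G := GS) tauE_self (R.sing u) hg hh 0
  obtain ⟨L0, h2, h3⟩ := ep_of_reachS (le_refl _) h1
  refine ⟨L0, h2, ?_⟩
  have h5 : (0 : Multiset Ev) + ∑ p, tauE cQ p (g p) (h p) = 0 + (L0 : Multiset Ev) := h3
  rw [zero_add, zero_add] at h5
  exact h5.symm

theorem tauE_one {k : Fin 6} {a b : Fin 4} (hne : a ≠ b) (hc : cQ a b) :
    tauE cQ k a b = {(k, a, b)} := by
  unfold tauE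
  rw [if_pos ⟨hne, hc⟩]

/-- **No antipodal pair** of ends `C|f`. -/
theorem Wrd.anti_pair (R : Wrd X) (nc : NC X) {V Q : ℝ} (hV : End X 0 2 V)
    (hVu : ∀ u, u ∈ X 0 → u ∈ X 2 → ∃ n : ℤ, u = V + 6 * n)
    (hQ : End X 1 3 Q) (hQ' : End X 1 3 (Q + 3)) (h1 : V < Q) (h2 : Q < V + 3)
    (hQu : ∀ u, u ∈ X 1 → u ∈ X 3 → ∃ n : ℤ, u = Q + 6 * n ∨ u = Q + 3 + 6 * n) : False := by
  classical
  -- the end `A|e` in the window after `Q`
  set W := V + 6 with hW
  have hVW : End X 0 2 W := end_E6 R hV ⟨1, by rw [hW]; push_cast; ring⟩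
  have hWu : ∀ u, u ∈ X 0 → u ∈ X 2 → ∃ n : ℤ, u = W + 6 * n := by
    intro u hx hy
    obtain ⟨n, hn⟩ := hVu u hx hy
    exact ⟨n - 1, by rw [hn, hW]; push_cast; ring⟩
  have w1 : Q + 3 < W := by rw [hW]; linarith
  have w2 : W < Q + 6 := by rw [hW]; linarith
  set j := kP Q W with hj
  set t := tP Q W with ht
  have htj : W = t + (j.val : ℝ) := by rw [ht, tP]; ring
  obtain ⟨t1, t2⟩ := tP_mem (V := Q) (P := W) (by linarith) w2
  have hj3 : 3 ≤ j.val := kP_ge (by linarith) w2 w1.le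
  -- the set of all marks
  set F : Set ℝ := {u | (∃ n : ℤ, u = W + 6 * n) ∨ (∃ n : ℤ, u = Q + 6 * n) ∨
    ∃ n : ℤ, u = Q + 3 + 6 * n} with hF
  have hFc : ∀ u ∈ F, Mark X (pr X u).1 (pr X u).2 u ∧ (pr X u).1 ≠ (pr X u).2 ∧
      cQ (pr X u).1 (pr X u).2 := by
    rintro u (hn | hn | hn)
    · exact v_c (end_E6 R hVW hn)
    · exact q_c (end_E6 R hQ hn)
    · exact q_c (end_E6 R hQ' hn)
  have hFn : ∀ u, u ∉ F → ∀ x y, u ∈ X x → u ∈ X y → x ≠ y → ¬ cQ x y := by
    rintro u hu x y hx hy - (⟨rfl, rfl⟩ | ⟨rfl, rfl⟩ | ⟨rfl, rfl⟩ | ⟨rfl, rfl⟩ | ⟨rfl, rfl⟩ |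
      ⟨rfl, rfl⟩)
    · exact hu (Or.inl (hWu u hx hy))
    · exact hu (Or.inl (hWu u hy hx))
    · obtain ⟨n, hn | hn⟩ := hQu u hx hy
      · exact hu (Or.inr (Or.inl ⟨n, hn⟩))
      · exact hu (Or.inr (Or.inr ⟨n, hn⟩))
    · obtain ⟨n, hn | hn⟩ := hQu u hy hx
      · exact hu (Or.inr (Or.inl ⟨n, hn⟩))
      · exact hu (Or.inr (Or.inr ⟨n, hn⟩))
    · exact R.ac u hx hy
    · exact R.ac u hy hx
  -- marks strictly after the time `Q`
  have hFt : ∀ s ∈ Ioo Q (Q + 1), ∀ k : Fin 6, s + (k.val : ℝ) ∈ F → k = j ∧ s = t := by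
    rintro s ⟨s1, s2⟩ k (⟨n, hn⟩ | ⟨n, hn⟩ | ⟨n, hn⟩)
    · have hk : (k.val : ℝ) + 1 ≤ 6 := by exact_mod_cast k.isLt
      have hk0 : (0 : ℝ) ≤ (k.val : ℝ) := Nat.cast_nonneg _
      have a : (n : ℝ) < 1 := by linarith
      have b : (-1 : ℝ) < n := by linarith
      have a' : n < 1 := by exact_mod_cast a
      have b' : -1 < n := by exact_mod_cast b
      have : n = 0 := by omega
      subst this
      have e : s + (k.val : ℝ) = W := by rw [hn]; push_cast; ring
      have e1 := kP_add k s1.le s2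
      have e2 := tP_add k s1.le s2
      rw [e] at e1 e2
      exact ⟨e1.symm, e2.symm⟩
    · exfalso
      have a : (((6 * n - (k.val : ℤ) : ℤ)) : ℝ) = s - Q := by push_cast; linarith
      have b : (0 : ℝ) < (((6 * n - (k.val : ℤ) : ℤ)) : ℝ) := by rw [a]; linarith
      have c : (((6 * n - (k.val : ℤ) : ℤ)) : ℝ) < 1 := by rw [a]; linarith
      have b' : 0 < 6 * n - (k.val : ℤ) := by exact_mod_cast b
      have c' : 6 * n - (k.val : ℤ) < 1 := by exact_mod_cast c
      omega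
    · exfalso
      have a : (((3 + 6 * n - (k.val : ℤ) : ℤ)) : ℝ) = s - Q := by push_cast; linarith
      have b : (0 : ℝ) < (((3 + 6 * n - (k.val : ℤ) : ℤ)) : ℝ) := by rw [a]; linarith
      have c : (((3 + 6 * n - (k.val : ℤ) : ℤ)) : ℝ) < 1 := by rw [a]; linarith
      have b' : 0 < 3 + 6 * n - (k.val : ℤ) := by exact_mod_cast b
      have c' : 3 + 6 * n - (k.val : ℤ) < 1 := by exact_mod_cast c
      omega
  -- marks at the time `Q`
  have hF0 : ∀ k : Fin 6, Q + (k.val : ℝ) ∈ F → k = 0 ∨ k = 3 ∨ (k = j ∧ t = Q) := by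
    rintro k (⟨n, hn⟩ | ⟨n, hn⟩ | ⟨n, hn⟩)
    · have hk : (k.val : ℝ) + 1 ≤ 6 := by exact_mod_cast k.isLt
      have hk0 : (0 : ℝ) ≤ (k.val : ℝ) := Nat.cast_nonneg _
      have a : (n : ℝ) < 1 := by linarith
      have b : (-1 : ℝ) < n := by linarith
      have a' : n < 1 := by exact_mod_cast a
      have b' : -1 < n := by exact_mod_cast b
      have : n = 0 := by omega
      subst this
      have e : Q + (k.val : ℝ) = W := by rw [hn]; push_cast; ring
      have e1 := kP_add (V := Q) (t := Q) k le_rfl (by linarith)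
      have e2 := tP_add (V := Q) (t := Q) k le_rfl (by linarith)
      rw [e] at e1 e2
      exact Or.inr (Or.inr ⟨e1.symm, e2⟩)
    · left
      have a : ((6 * n : ℤ) : ℝ) = ((k.val : ℤ) : ℝ) := by push_cast; linarith
      have a' : 6 * n = (k.val : ℤ) := by exact_mod_cast a
      have := k.isLt
      apply Fin.ext
      show k.val = 0
      omega
    · right; left
      have a : ((3 + 6 * n : ℤ) : ℝ) = ((k.val : ℤ) : ℝ) := by push_cast; linarith
      have a' : 3 + 6 * n = (k.val : ℤ) := by exact_mod_cast a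
      have := k.isLt
      apply Fin.ext
      show k.val = 3
      omega
  have hQF : Q + (((0 : Fin 6).val : ℕ) : ℝ) ∈ F := Or.inr (Or.inl ⟨0, by simp⟩)
  have hQF3 : Q + (((3 : Fin 6).val : ℕ) : ℝ) ∈ F := Or.inr (Or.inr ⟨0, by
    have : ((3 : Fin 6).val : ℕ) = 3 := rfl
    rw [this]; push_cast; ring⟩)
  have hQ0 : Q + (((0 : Fin 6).val : ℕ) : ℝ) = Q := by simp
  have hQ3 : Q + (((3 : Fin 6).val : ℕ) : ℝ) = Q + 3 := by
    have : ((3 : Fin 6).val : ℕ) = 3 := rfl
    rw [this]; push_cast; ring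
  have mQ := hFc _ hQF
  have mQ3 := hFc _ hQF3
  -- the letters on the two sides
  have hBp : ∀ᶠ v in 𝓝[>] Q, ∀ h, Sel R4 (palX X v) h →
      ∀ k : Fin 6, Q + (k.val : ℝ) ∈ F → h k = (pr X (Q + (k.val : ℝ))).2 := by
    have : ∀ k : Fin 6, ∀ᶠ v in 𝓝[>] Q, ∀ h, Sel R4 (palX X v) h →
        Q + (k.val : ℝ) ∈ F → h k = (pr X (Q + (k.val : ℝ))).2 := by
      intro k
      by_cases hk : Q + (k.val : ℝ) ∈ F
      · filter_upwards [sel_right R.closed (hFc _ hk).1] with v hv h hh _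
        exact hv h hh
      · exact Eventually.of_forall fun v h _ h' => absurd h' hk
    filter_upwards [eventually_all.mpr this] with v hv h hh k hk
    exact hv k h hh hk
  have hBm : ∀ᶠ v in 𝓝[<] Q, ∀ h, Sel R4 (palX X v) h →
      ∀ k : Fin 6, Q + (k.val : ℝ) ∈ F → h k = (pr X (Q + (k.val : ℝ))).1 := by
    have : ∀ k : Fin 6, ∀ᶠ v in 𝓝[<] Q, ∀ h, Sel R4 (palX X v) h →
        Q + (k.val : ℝ) ∈ F → h k = (pr X (Q + (k.val : ℝ))).1 := by
      intro k
      by_cases hk : Q + (k.val : ℝ) ∈ F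
      · filter_upwards [sel_left R.closed (hFc _ hk).1] with v hv h hh _
        exact hv h hh
      · exact Eventually.of_forall fun v h _ h' => absurd h' hk
    filter_upwards [eventually_all.mpr this] with v hv h hh k hk
    exact hv k h hh hk
  -- the times
  have hLt : ∀ s ∈ (if t = Q then ([] : List ℝ) else [t]), s = t ∧ t ≠ Q := by
    intro s hs
    split_ifs at hs with h'
    · simp at hs
    · exact ⟨by simpa using hs, h'⟩
  obtain ⟨h, g, bp, bm, hh, hg, Ls, hLs, hEP⟩ := one_circleS (c := cQ) R.closed R.per R.ex Q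
    (fun u _ => R.sing u) F (fun P => (pr X P).1) (fun P => (pr X P).2)
    (fun s _ k hk => hFc _ hk) (fun s _ k hk x hx y hy hne => hFn _ hk x y hx hy hne)
    (if t = Q then [] else [t]) (by split_ifs <;> simp)
    (by
      intro s hs
      obtain ⟨rfl, h'⟩ := hLt s hs
      exact ⟨lt_of_le_of_ne t1 (Ne.symm h'), t2⟩)
    (by
      intro s hs k hk
      obtain ⟨-, rfl⟩ := hFt s hs k hk
      have : t ≠ Q := hs.1.ne'
      rw [if_neg this]; simp)
    hBp hBm
  have g0 : ∀ l, l ∈ palX X Q 0 → l = 1 ∨ l = 3 := by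
    intro l hl
    have : Q ∈ X l := by
      have h' : Q + (((0 : Fin 6).val : ℕ) : ℝ) ∈ X l := hl
      rwa [hQ0] at h'
    exact End.only hQ l this
  have g3 : ∀ l, l ∈ palX X Q 3 → l = 1 ∨ l = 3 := by
    intro l hl
    have : Q + 3 ∈ X l := by
      have h' : Q + (((3 : Fin 6).val : ℕ) : ℝ) ∈ X l := hl
      rwa [hQ3] at h'
    exact End.only hQ' l this
  obtain ⟨m, hm, hm1, hm0, hm3⟩ := split3 R nc hg hh g0 g3
  obtain ⟨E1, e1, e1'⟩ := ep_of_sel R hg hm
  obtain ⟨E2, e2, e2'⟩ := ep_of_sel R hm hh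
  have hclosed : EP cQ g (E1 ++ (E2 ++ Ls.flatten)) (rot g) := EP.trans e1 (EP.trans e2 hEP)
  -- the two events of type `C|f`
  have hg0 : g 0 = (pr X Q).1 := by have := bm 0 hQF; rwa [hQ0] at this
  have hh0 : h 0 = (pr X Q).2 := by have := bp 0 hQF; rwa [hQ0] at this
  have hg3 : g 3 = (pr X (Q + 3)).1 := by have := bm 3 hQF3; rwa [hQ3] at this
  have hh3 : h 3 = (pr X (Q + 3)).2 := by have := bp 3 hQF3; rwa [hQ3] at this
  rw [hQ0] at mQ
  rw [hQ3] at mQ3
  have q0 : tauE cQ 0 (g 0) (m 0) = {(0, g 0, h 0)} := by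
    rw [hm0]; exact tauE_one (by rw [hg0, hh0]; exact mQ.2.1) (by rw [hg0, hh0]; exact mQ.2.2)
  have q3 : tauE cQ 3 (m 3) (h 3) = {(3, g 3, h 3)} := by
    rw [hm3]; exact tauE_one (by rw [hg3, hh3]; exact mQ3.2.1) (by rw [hg3, hh3]; exact mQ3.2.2)
  have qt0 : QT (0, g 0, h 0) := by
    show (g 0 = 1 ∧ h 0 = 3) ∨ (g 0 = 3 ∧ h 0 = 1)
    rw [hg0, hh0]; exact (q_spec hQ).2
  have qt3 : QT (3, g 3, h 3) := by
    show (g 3 = 1 ∧ h 3 = 3) ∨ (g 3 = 3 ∧ h 3 = 1)
    rw [hg3, hh3]; exact (q_spec hQ').2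
  have z1 : ∀ p : Fin 6, p ≠ 0 → ¬ (p = j ∧ t = Q) → tauE cQ p (g p) (m p) = 0 := by
    intro p hp hpj
    by_cases hp3 : p = 3
    · subst hp3; rw [hm3]; exact tauE_self _ _
    · unfold tauE
      rw [if_neg]
      rintro ⟨hne, hc⟩
      refine hFn (Q + (p.val : ℝ)) (fun hF' => ?_) _ _ (hg.1 p) (hm.1 p) hne hc
      rcases hF0 p hF' with h' | h' | h'
      exacts [hp h', hp3 h', hpj h']
  have z2 : ∀ p : Fin 6, p ≠ 3 → ¬ (p = j ∧ t = Q) → tauE cQ p (m p) (h p) = 0 := by
    intro p hp hpj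
    by_cases hp0 : p = 0
    · subst hp0; rw [hm0]; exact tauE_self _ _
    · unfold tauE
      rw [if_neg]
      rintro ⟨hne, hc⟩
      refine hFn (Q + (p.val : ℝ)) (fun hF' => ?_) _ _ (hm.1 p) (hh.1 p) hne hc
      rcases hF0 p hF' with h' | h' | h'
      exacts [hp0 h', hp h', hpj h']
  have bad : ∀ {L1 L2 : List Ev} {x y : Fin 4} {k₁ k₂ : Fin 6},
      E1 ++ (E2 ++ Ls.flatten) = L1 ++ (j, x, y) :: L2 →
      ((x = 0 ∧ y = 2) ∨ (x = 2 ∧ y = 0)) → (∀ e ∈ L1 ++ L2, QT e) →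
      (L2.map (fun e => e.1 - j) ++ L1.map (fun e => e.1 - 1 - j)) = [k₁, k₂] →
      pat k₁.val k₂.val = true := by
    intro L1 L2 x y k₁ k₂ he hxy hq hk
    rw [he] at hclosed
    obtain ⟨p, F', hp, hF', hr, hre⟩ := base_pat hclosed hxy hq
    rw [hk] at hre
    exact pat_of hp hF' hr hre
  by_cases htQ : t = Q
  · -- the end `A|e` is at the time `Q` too
    have hWj : W = Q + (j.val : ℝ) := by rw [htj, htQ]
    have hjF : Q + (j.val : ℝ) ∈ F := Or.inl ⟨0, by rw [hWj]; push_cast; ring⟩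
    have hj3' : j ≠ 3 := by
      intro h'
      have : W = Q + 3 := by rw [hWj, h', hQ3]
      exact absurd this w1.ne'
    have hj0 : j ≠ 0 := by
      intro h'; rw [h'] at hj3; exact absurd hj3 (by decide)
    have hLs' : Ls = [] := by
      rw [if_pos htQ] at hLs
      cases hLs
      rfl
    have hgj : g j = (pr X W).1 := by have := bm j hjF; rwa [← hWj] at this
    have hhj : h j = (pr X W).2 := by have := bp j hjF; rwa [← hWj] at this
    have mW := v_c hVW
    have vt : (g j = 0 ∧ h j = 2) ∨ (g j = 2 ∧ h j = 0) := by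
      rw [hgj, hhj]; exact (v_spec hVW).2
    have qj : tauE cQ j (g j) (h j) = {(j, g j, h j)} :=
      tauE_one (by rw [hgj, hhj]; exact mW.2.1) (by rw [hgj, hhj]; exact mW.2.2)
    have hj45 : j = 4 ∨ j = 5 := by
      have := j.isLt
      have h3 : j.val ≠ 3 := fun h' => hj3' (Fin.ext h')
      have : j.val = 4 ∨ j.val = 5 := by omega
      rcases this with h' | h'
      · exact Or.inl (Fin.ext h')
      · exact Or.inr (Fin.ext h')
    subst hLs'
    rcases hm1 j with hmj | hmj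
    · -- changed in the second part
      have s1 : (E1 : Multiset Ev) = {(0, g 0, h 0)} := by
        rw [e1', ← q0]
        refine Finset.sum_eq_single 0 (fun p _ hp => ?_) (fun h' => absurd (Finset.mem_univ _) h')
        by_cases hpj : p = j
        · subst hpj; rw [hmj]; exact tauE_self _ _
        · exact z1 p hp fun h' => hpj h'.1
      have s2 : (E2 : Multiset Ev) = {(3, g 3, h 3)} + {(j, g j, h j)} := by
        rw [e2', ← q3, ← qj, ← hmj]
        refine Finset.sum_eq_add 3 j hj3'.symm (fun p _ hp => z2 p hp.1 fun h' => hp.2 h'.1)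
          (fun h' => absurd (Finset.mem_univ _) h') (fun h' => absurd (Finset.mem_univ _) h')
      have s1' : E1 = [(0, g 0, h 0)] := Multiset.coe_eq_singleton.mp s1
      have s2' : E2 = [(3, g 3, h 3), (j, g j, h j)] ∨ E2 = [(j, g j, h j), (3, g 3, h 3)] := by
        have hp : E2.Perm [(3, g 3, h 3), (j, g j, h j)] := by
          rw [← Multiset.coe_eq_coe, s2]; rfl
        exact perm_pair' hp
      subst s1'
      rcases s2' with rfl | rfl
      · have := bad (L1 := [(0, g 0, h 0), (3, g 3, h 3)]) (L2 := []) (k₁ := 0 - 1 - j)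
          (k₂ := 3 - 1 - j) rfl vt (by
          intro e he
          simp only [List.append_nil, List.mem_cons, List.not_mem_nil, or_false] at he
          rcases he with rfl | rfl
          exacts [qt0, qt3]) rfl
        rcases hj45 with h' | h' <;> rw [h'] at this <;> exact absurd this (by decide)
      · have := bad (L1 := [(0, g 0, h 0)]) (L2 := [(3, g 3, h 3)]) (k₁ := 3 - j)
          (k₂ := 0 - 1 - j) rfl vt (by
          intro e he
          simp only [List.cons_append, List.nil_append, List.mem_cons, List.not_mem_nil,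
            or_false] at he
          rcases he with rfl | rfl
          exacts [qt0, qt3]) rfl
        rcases hj45 with h' | h' <;> rw [h'] at this <;> exact absurd this (by decide)
    · -- changed in the first part
      have s1 : (E1 : Multiset Ev) = {(0, g 0, h 0)} + {(j, g j, h j)} := by
        rw [e1', ← q0, ← qj, ← hmj]
        refine Finset.sum_eq_add 0 j hj0.symm (fun p _ hp => z1 p hp.1 fun h' => hp.2 h'.1)
          (fun h' => absurd (Finset.mem_univ _) h') (fun h' => absurd (Finset.mem_univ _) h')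
      have s2 : (E2 : Multiset Ev) = {(3, g 3, h 3)} := by
        rw [e2', ← q3]
        refine Finset.sum_eq_single 3 (fun p _ hp => ?_) (fun h' => absurd (Finset.mem_univ _) h')
        by_cases hpj : p = j
        · subst hpj; rw [hmj]; exact tauE_self _ _
        · exact z2 p hp fun h' => hpj h'.1
      have s2' : E2 = [(3, g 3, h 3)] := Multiset.coe_eq_singleton.mp s2
      have s1' : E1 = [(0, g 0, h 0), (j, g j, h j)] ∨ E1 = [(j, g j, h j), (0, g 0, h 0)] := by
        have hp : E1.Perm [(0, g 0, h 0), (j, g j, h j)] := by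
          rw [← Multiset.coe_eq_coe, s1]; rfl
        exact perm_pair' hp
      subst s2'
      rcases s1' with rfl | rfl
      · have := bad (L1 := [(0, g 0, h 0)]) (L2 := [(3, g 3, h 3)]) (k₁ := 3 - j)
          (k₂ := 0 - 1 - j) rfl vt (by
          intro e he
          simp only [List.cons_append, List.nil_append, List.mem_cons, List.not_mem_nil,
            or_false] at he
          rcases he with rfl | rfl
          exacts [qt0, qt3]) rfl
        rcases hj45 with h' | h' <;> rw [h'] at this <;> exact absurd this (by decide)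
      · have := bad (L1 := []) (L2 := [(0, g 0, h 0), (3, g 3, h 3)]) (k₁ := 0 - j)
          (k₂ := 3 - j) rfl vt (by
          intro e he
          simp only [List.nil_append, List.mem_cons, List.not_mem_nil, or_false] at he
          rcases he with rfl | rfl
          exacts [qt0, qt3]) rfl
        rcases hj45 with h' | h' <;> rw [h'] at this <;> exact absurd this (by decide)
  · -- the end `A|e` comes later
    have s1 : E1 = [(0, g 0, h 0)] := by
      apply Multiset.coe_eq_singleton.mp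
      rw [e1', ← q0]
      exact Finset.sum_eq_single 0 (fun p _ hp => z1 p hp fun h' => htQ h'.2)
        (fun h' => absurd (Finset.mem_univ _) h')
    have s2 : E2 = [(3, g 3, h 3)] := by
      apply Multiset.coe_eq_singleton.mp
      rw [e2', ← q3]
      exact Finset.sum_eq_single 3 (fun p _ hp => z2 p hp fun h' => htQ h'.2)
        (fun h' => absurd (Finset.mem_univ _) h')
    rw [if_neg htQ] at hLs
    obtain ⟨E, hE, rfl⟩ : ∃ E : List Ev, (E : Multiset Ev) = evT F (fun P => (pr X P).1)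
        (fun P => (pr X P).2) t ∧ Ls = [E] := by
      cases hLs with
      | cons a b => cases b; exact ⟨_, a, rfl⟩
    have htI : t ∈ Ioo Q (Q + 1) := ⟨lt_of_le_of_ne t1 (Ne.symm htQ), t2⟩
    have hE' : E = [(j, (pr X W).1, (pr X W).2)] := by
      apply Multiset.coe_eq_singleton.mp
      rw [hE]
      unfold evT
      rw [Finset.sum_eq_single j]
      · rw [← htj, if_pos]
        exact Or.inl ⟨0, by simp⟩
      · intro k _ hk
        rw [if_neg]
        intro hF'
        exact hk (hFt t htI k hF').1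
      · intro h'; exact absurd (Finset.mem_univ _) h'
    subst s1 s2 hE'
    have := bad (L1 := [(0, g 0, h 0), (3, g 3, h 3)]) (L2 := []) (k₁ := 0 - 1 - j)
          (k₂ := 3 - 1 - j) rfl (v_spec hVW).2 (by
      intro e he
      simp only [List.append_nil, List.mem_cons, List.not_mem_nil, or_false] at he
      rcases he with rfl | rfl
      exacts [qt0, qt3]) rfl
    have hj345 : j = 3 ∨ j = 4 ∨ j = 5 := by
      have := j.isLt
      have : j.val = 3 ∨ j.val = 4 ∨ j.val = 5 := by omega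
      rcases this with h' | h' | h'
      · exact Or.inl (Fin.ext h')
      · exact Or.inr (Or.inl (Fin.ext h'))
      · exact Or.inr (Or.inr (Fin.ext h'))
    rcases hj345 with h' | h' | h' <;> rw [h'] at this <;> exact absurd this (by decide)

/-- **L3** over `Wrd`. -/
theorem Wrd.L3 (R : Wrd X) (nc : NC X) {V Q Q' : ℝ} (hV : End X 0 2 V)
    (hVu : ∀ u, u ∈ X 0 → u ∈ X 2 → ∃ n : ℤ, u = V + 6 * n)
    (hQ : End X 1 3 Q) (hQ' : End X 1 3 Q') (h1 : V < Q) (h2 : Q < Q') (h3 : Q' < V + 6)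
    (hQu : ∀ u, u ∈ X 1 → u ∈ X 3 → ∃ n : ℤ, u = Q + 6 * n ∨ u = Q' + 6 * n) :
    Q < V + 3 ∧ V + 3 < Q' ∧ Q' < Q + 3 := by
  obtain ⟨a, b, c⟩ := R.L3le hV hVu hQ hQ' h1 h2 h3 hQu
  refine ⟨a, b, lt_of_le_of_ne c ?_⟩
  rintro rfl
  exact R.anti_pair nc hV hVu hQ hQ' h1 a hQu

end Vale.Agent.P032.Words
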