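import Vale.Agent.P032.Words.H984.OneW

/-!
# The closed path of one circle, seen from one of its marks

`Wrd.turn`: `F` is the finite set of all marks in `[V, V + 6)`, `V ∈ F`.  From the hexagon just after
`V` to the rotated hexagon just before `V`; the list of the changes in between is known.
-/

namespace Vale.Agent.P032.Words

open Set Filter Topology Scc

variable {c : Fin 4 → Fin 4 → Prop}

/-- shift of the position -/
def sh (e : Ev) : Ev := (e.1 - 1, e.2)

theorem rot_update (g : Hx) (k : Fin 6) (l : Fin 4) :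
    rot (Function.update g k l) = Function.update (rot g) (k - 1) l := by
  funext j
  unfold rot
  by_cases h : j + 1 = k
  · subst h
    rw [add_sub_cancel_right, Function.update_self, Function.update_self]
  · rw [Function.update_of_ne h, Function.update_of_ne]
    intro e
    exact h (by rw [e, sub_add_cancel])

theorem leg_rot {h : Hx} (H : Leg4 h) : Leg4 (rot h) := by
  obtain ⟨ha, hb⟩ := H
  refine ⟨fun k => ha (k + 1), fun k => ?_⟩
  have := hb (k + 1)
  unfold rot
  have e : k + 3 + 1 = k + 1 + 3 := add_right_comm k 3 1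
  rw [e]
  exact this

theorem EP.rot {h g : Hx} {L : List Ev} (H : EP c h L g) :
    EP c (Words.rot h) (L.map sh) (Words.rot g) := by
  induction H with
  | refl => exact EP.refl _
  | @free g L k l _ a b d e ih =>
    have hk : Words.rot g (k - 1) = g k := by unfold Words.rot; rw [sub_add_cancel]
    rw [rot_update]
    exact EP.free (k - 1) l ih (leg_rot a) (by rw [← rot_update]; exact leg_rot b)
      (by rw [hk]; exact d) (by rw [hk]; exact e)
  | @mark g L k l _ a b d e ih =>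
    have hk : Words.rot g (k - 1) = g k := by unfold Words.rot; rw [sub_add_cancel]
    rw [rot_update, List.map_append]
    have := EP.mark (k - 1) l ih (leg_rot a) (by rw [← rot_update]; exact leg_rot b)
      (by rw [hk]; exact d) (by rw [hk]; exact e)
    rw [hk] at this
    exact this

theorem EP.split_at {h g : Hx} {L : List Ev} (H : EP c h L g) :
    ∀ {L1 L2 : List Ev} {k : Fin 6} {x y : Fin 4}, L = L1 ++ (k, x, y) :: L2 →
      ∃ m : Hx, EP c h L1 m ∧ m k = x ∧ Leg4 m ∧ Leg4 (Function.update m k y) ∧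
        EP c (Function.update m k y) L2 g := by
  induction H with
  | refl => intro L1 L2 k x y e; simp at e
  | @free g L k l _ a b d e ih =>
    intro L1 L2 k' x y e'
    obtain ⟨m, h1, h2, h3, h4, h5⟩ := ih e'
    exact ⟨m, h1, h2, h3, h4, EP.free k l h5 a b d e⟩
  | @mark g L k l hL a b d e ih =>
    intro L1 L2 k' x y e'
    rcases List.eq_nil_or_concat L2 with rfl | ⟨L3, e3, rfl⟩
    · obtain ⟨e1, e2⟩ := List.append_inj' e' rfl
      simp only [List.cons.injEq, Prod.mk.injEq, and_true] at e2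
      obtain ⟨rfl, rfl, rfl⟩ := e2
      subst e1
      exact ⟨g, hL, rfl, a, b, EP.refl _⟩
    · have e4 : L ++ [(k, g k, l)] = (L1 ++ (k', x, y) :: L3) ++ [e3] := by
        rw [e']; simp
      obtain ⟨e1, e2⟩ := List.append_inj' e4 rfl
      obtain ⟨m, h1, h2, h3, h4, h5⟩ := ih e1
      refine ⟨m, h1, h2, h3, h4, ?_⟩
      rw [List.concat_eq_append, ← e2]
      exact EP.mark k l h5 a b d e

/-- position of `P` as seen from `V` -/
noncomputable def kP (V P : ℝ) : Fin 6 := Fin.ofNat 6 ⌊P - V⌋₊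

/-- time of `P` in `[V, V + 1)` -/
noncomputable def tP (V P : ℝ) : ℝ := P - ((kP V P).val : ℝ)

/-- event of `P` -/
noncomputable def evP (V : ℝ) (lf rt : ℝ → Fin 4) (P : ℝ) : Ev := (kP V P, lf P, rt P)

theorem kP_val {V P : ℝ} (h1 : V ≤ P) (h2 : P < V + 6) : (kP V P).val = ⌊P - V⌋₊ := by
  have : ⌊P - V⌋₊ < 6 := by
    rw [Nat.floor_lt (by linarith)]; push_cast; linarith
  simp [kP, Fin.ofNat, Nat.mod_eq_of_lt this]

theorem tP_mem {V P : ℝ} (h1 : V ≤ P) (h2 : P < V + 6) : V ≤ tP V P ∧ tP V P < V + 1 := by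
  rw [tP, kP_val h1 h2]
  have a := Nat.floor_le (show 0 ≤ P - V by linarith)
  have b := Nat.lt_floor_add_one (P - V)
  constructor <;> linarith

theorem kP_add {V t : ℝ} (k : Fin 6) (h1 : V ≤ t) (h2 : t < V + 1) : kP V (t + (k.val : ℝ)) = k := by
  have hk : (k.val : ℝ) < 6 := by exact_mod_cast k.isLt
  have hk' : (k.val : ℝ) + 1 ≤ 6 := by exact_mod_cast k.isLt
  have hk0 : (0 : ℝ) ≤ (k.val : ℝ) := Nat.cast_nonneg _
  apply Fin.ext
  rw [kP_val (by linarith) (by linarith)]
  rw [Nat.floor_eq_iff (by linarith)]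
  constructor <;> linarith

theorem tP_add {V t : ℝ} (k : Fin 6) (h1 : V ≤ t) (h2 : t < V + 1) : tP V (t + (k.val : ℝ)) = t := by
  rw [tP, kP_add k h1 h2]; ring

theorem evT_eq {V : ℝ} (F : Finset ℝ) (lf rt : ℝ → Fin 4) {t : ℝ} (h1 : V ≤ t) (h2 : t < V + 1) :
    evT (F : Set ℝ) lf rt t = ∑ P ∈ F.filter (fun P => tP V P = t), {evP V lf rt P} := by
  classical
  have e0 : evT (F : Set ℝ) lf rt t = ∑ k : Fin 6, if t + (k.val : ℝ) ∈ F then
      ({(k, lf (t + (k.val : ℝ)), rt (t + (k.val : ℝ)))} : Multiset Ev) else 0 := by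
    unfold evT
    refine Finset.sum_congr rfl fun k _ => ?_
    by_cases h : t + (k.val : ℝ) ∈ F
    · rw [if_pos h, if_pos (Finset.mem_coe.mpr h)]
    · rw [if_neg h, if_neg (fun h' => h (Finset.mem_coe.mp h'))]
  rw [e0, ← Finset.sum_filter]
  refine Finset.sum_nbij' (fun k : Fin 6 => t + (k.val : ℝ)) (kP V) ?_ ?_ ?_ ?_ ?_
  · intro k hk
    rw [Finset.mem_filter] at hk ⊢
    exact ⟨hk.2, tP_add k h1 h2⟩
  · intro P hP
    rw [Finset.mem_filter] at hP ⊢
    refine ⟨Finset.mem_univ _, ?_⟩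
    have : t + ((kP V P).val : ℝ) = P := by rw [← hP.2, tP]; ring
    rw [this]
    exact hP.1
  · intro k _
    exact kP_add k h1 h2
  · intro P hP
    rw [Finset.mem_filter] at hP
    show t + ((kP V P).val : ℝ) = P
    rw [← hP.2, tP]; ring
  · intro k _
    simp only [evP, kP_add k h1 h2]

theorem flatten_of_forall₂ {f : ℝ → Multiset Ev} {Ls : List (List Ev)} {L : List ℝ}
    (h : List.Forall₂ (fun (E : List Ev) (t : ℝ) => (E : Multiset Ev) = f t) Ls L) :
    (Ls.flatten : Multiset Ev) = (L.map f).sum := by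
  induction h with
  | nil => simp
  | cons h1 _ ih =>
    rw [List.flatten_cons, List.map_cons, List.sum_cons, ← h1, ← ih, Multiset.coe_add]

/-- **The closed path seen from the mark `V`.** -/
theorem Wrd.turn {X : Fin 4 → Set ℝ} (R : Wrd X) {V : ℝ} {F : Finset ℝ} {lf rt : ℝ → Fin 4}
    (hVF : V ∈ F) (hw : ∀ P ∈ F, V ≤ P ∧ P < V + 6)
    (hF : ∀ P ∈ F, Mark X (lf P) (rt P) P ∧ lf P ≠ rt P ∧ c (lf P) (rt P))
    (hN : ∀ u, (∀ P ∈ F, ∀ n : ℤ, u ≠ P + 6 * n) → ∀ x y, u ∈ X x → u ∈ X y → x ≠ y → ¬ c x y) :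
    ∃ (h : Hx) (B1 B2 D : List Ev), h 0 = lf V ∧ Leg4 h ∧ Leg4 (Function.update h 0 (rt V)) ∧
      EP c (Function.update h 0 (rt V)) (B2 ++ D ++ B1.map sh) (rot h) ∧
      (∀ e ∈ B1, ∃ k : Fin 6, V + (k.val : ℝ) ∈ F ∧
        e = (k, lf (V + (k.val : ℝ)), rt (V + (k.val : ℝ)))) ∧
      ((B1 ++ (0, lf V, rt V) :: (B2 ++ D) : List Ev) : Multiset Ev) =
        F.val.map (evP V lf rt) := by
  classical
  -- the base
  obtain ⟨a, ha, haV⟩ : ∃ a, (∀ P ∈ F, tP V P - 1 < a) ∧ a < V := by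
    have h1 : ∀ᶠ a in 𝓝[<] V, ∀ P ∈ F, tP V P - 1 < a := by
      refine (Finset.eventually_all F).mpr fun P hP => ?_
      have := (tP_mem (hw P hP).1 (hw P hP).2).2
      exact nhdsWithin_le_nhds (Ioi_mem_nhds (by linarith))
    exact (h1.and self_mem_nhdsWithin).exists
  have hkV : kP V V = 0 := by
    have := kP_add (V := V) (t := V) 0 le_rfl (by linarith)
    simpa using this
  have htV : tP V V = V := by rw [tP, hkV]; simp
  have haV1 : V - 1 < a := by have := ha V hVF; rwa [htV] at this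
  -- the times
  set T : Finset ℝ := F.image (tP V) with hT
  set L' : List ℝ := (T.erase V).sort with hL'
  have hVT : V ∈ T := by rw [hT, Finset.mem_image]; exact ⟨V, hVF, htV⟩
  have hTm : ∀ t ∈ T, V ≤ t ∧ t < V + 1 ∧ t < a + 1 := by
    intro t ht
    rw [hT, Finset.mem_image] at ht
    obtain ⟨P, hP, rfl⟩ := ht
    have := tP_mem (hw P hP).1 (hw P hP).2
    exact ⟨this.1, this.2, by have := ha P hP; linarith⟩
  have hmemL' : ∀ t, t ∈ L' ↔ t ∈ T ∧ t ≠ V := by
    intro t
    rw [hL', Finset.mem_sort, Finset.mem_erase, and_comm]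
  have hpw : (V :: L').Pairwise (· < ·) := by
    rw [List.pairwise_cons]
    constructor
    · intro t ht
      rw [hmemL'] at ht
      exact lt_of_le_of_ne (hTm t ht.1).1 ht.2.symm
    · exact Finset.sortedLT_sort _ |>.pairwise
  have hmemL : ∀ t, t ∈ V :: L' ↔ t ∈ T := by
    intro t
    rw [List.mem_cons, hmemL']
    constructor
    · rintro (rfl | h)
      · exact hVT
      · exact h.1
    · intro h
      by_cases e : t = V
      · exact Or.inl e
      · exact Or.inr ⟨h, e⟩
  -- marks in the window are seen at their times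
  have hpos : ∀ t ∈ Ioo a (a + 1), ∀ k : Fin 6, ∀ P ∈ F, ∀ n : ℤ, t + (k.val : ℝ) = P + 6 * n →
      n = 0 := by
    intro t ht k P hP n he
    have hk : (k.val : ℝ) + 1 ≤ 6 := by exact_mod_cast k.isLt
    have hk0 : (0 : ℝ) ≤ (k.val : ℝ) := Nat.cast_nonneg _
    have h1 := hw P hP
    have h2 := ha P hP
    have h3 : P = tP V P + ((kP V P).val : ℝ) := by rw [tP]; ring
    have h4 : ((kP V P).val : ℝ) + 1 ≤ 6 := by exact_mod_cast (kP V P).isLt
    have h5 : (n : ℝ) < 1 := by linarith [ht.1, ht.2]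
    have h6 : (-1 : ℝ) < (n : ℝ) := by linarith [ht.1, ht.2]
    have h7 : n < 1 := by exact_mod_cast h5
    have h8 : -1 < n := by exact_mod_cast h6
    omega
  have hint : ∀ t ∈ Ioo a (a + 1), ∀ k : Fin 6, t + (k.val : ℝ) ∈ F →
      tP V (t + (k.val : ℝ)) = t := by
    intro t ht k hP
    have h1 := hw _ hP
    have h2 := ha _ hP
    have h3 := tP_mem h1.1 h1.2
    have h4 : t + (k.val : ℝ) = tP V (t + (k.val : ℝ)) + ((kP V (t + (k.val : ℝ))).val : ℝ) := by
      rw [tP]; ring
    have h5 : ((k.val : ℤ) : ℝ) - ((kP V (t + (k.val : ℝ))).val : ℤ) =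
        tP V (t + (k.val : ℝ)) - t := by push_cast; linarith
    have h6 : (((k.val : ℤ) - ((kP V (t + (k.val : ℝ))).val : ℤ) : ℤ) : ℝ) < 1 := by
      push_cast
      push_cast at h5
      linarith [ht.1, ht.2]
    have h7 : (-1 : ℝ) < (((k.val : ℤ) - ((kP V (t + (k.val : ℝ))).val : ℤ) : ℤ) : ℝ) := by
      push_cast
      push_cast at h5
      linarith [ht.1, ht.2]
    have h8 : ((k.val : ℤ) - ((kP V (t + (k.val : ℝ))).val : ℤ) : ℤ) = 0 := by
      have a1 : ((k.val : ℤ) - ((kP V (t + (k.val : ℝ))).val : ℤ) : ℤ) < 1 := by exact_mod_cast h6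
      have a2 : -1 < ((k.val : ℤ) - ((kP V (t + (k.val : ℝ))).val : ℤ) : ℤ) := by exact_mod_cast h7
      omega
    have h9 : ((k.val : ℤ) : ℝ) - ((kP V (t + (k.val : ℝ))).val : ℤ) = 0 := by exact_mod_cast h8
    linarith
  obtain ⟨h, g, -, -, hh, hg, Ls, hLs, hEP⟩ := one_circleS (c := c) R.closed R.per R.ex a
    (fun u _ => R.sing u) (F : Set ℝ) lf rt (fun t _ k hk => hF _ (Finset.mem_coe.mp hk))
    (by
      intro t ht k hk x hx y hy hne hc
      refine hN (t + (k.val : ℝ)) ?_ x y hx hy hne hc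
      intro P hP n he
      have h0 := hpos t ht k P hP n he
      subst h0
      apply hk
      have : t + (k.val : ℝ) = P := by rw [he]; push_cast; ring
      rw [this]
      exact hP)
    (V :: L') hpw
    (by
      intro t ht
      rw [hmemL] at ht
      have := hTm t ht
      exact ⟨by linarith, this.2.2⟩)
    (by
      intro t ht k hk
      rw [hmemL, hT, Finset.mem_image]
      exact ⟨_, Finset.mem_coe.mp hk, hint t ht k (Finset.mem_coe.mp hk)⟩)
    (Bp := fun _ => True) (Bm := fun _ => True) (by simp) (by simp)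
  -- the closing at the quiet time `a`
  have hqa : ∀ k : Fin 6, ∀ P ∈ F, ∀ n : ℤ, a + (k.val : ℝ) ≠ P + 6 * n := by
    intro k P hP n he
    have h1 := hw P hP
    have h2 := ha P hP
    have h3 := tP_mem h1.1 h1.2
    have h4 : P = tP V P + ((kP V P).val : ℝ) := by rw [tP]; ring
    have h5 : ((((kP V P).val : ℤ) + 6 * n - (k.val : ℤ) : ℤ) : ℝ) = a - tP V P := by
      push_cast; linarith
    have h6 : ((((kP V P).val : ℤ) + 6 * n - (k.val : ℤ) : ℤ) : ℝ) < 0 := by
      rw [h5]; linarith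
    have h7 : (-1 : ℝ) < ((((kP V P).val : ℤ) + 6 * n - (k.val : ℤ) : ℤ) : ℝ) := by
      rw [h5]; linarith
    have a1 : (((kP V P).val : ℤ) + 6 * n - (k.val : ℤ) : ℤ) < 0 := by exact_mod_cast h6
    have a2 : -1 < (((kP V P).val : ℤ) + 6 * n - (k.val : ℤ) : ℤ) := by exact_mod_cast h7
    omega
  have hclose : EP c g [] h := by
    have h1 := reach_of_sel (R := R4) (τ := tauE c) (G := GS) tauE_self (R.sing a) hg hh 0
    obtain ⟨L0, h2, h3⟩ := ep_of_reachS (le_refl _) h1
    have h4 : ∑ p, tauE c p (g p) (h p) = 0 := by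
      refine Finset.sum_eq_zero fun p _ => ?_
      unfold tauE
      rw [if_neg]
      rintro ⟨hne, hc⟩
      exact hN _ (hqa p) _ _ (hg.1 p) (hh.1 p) hne hc
    rw [h4] at h3
    have h5 : (0 : Multiset Ev) + 0 = 0 + (L0 : Multiset Ev) := h3
    rw [zero_add, zero_add] at h5
    have : L0 = [] := Multiset.coe_eq_zero L0 |>.mp h5.symm
    rw [this] at h2
    exact h2
  have hloop : EP c h Ls.flatten (rot h) := by
    have := EP.trans hEP hclose.rot
    simpa using this
  obtain ⟨EV, Rs, hEV, hRs, rfl⟩ : ∃ (EV : List Ev) (Rs : List (List Ev)), (EV : Multiset Ev) = evT (F : Set ℝ) lf rt V ∧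
      List.Forall₂ (fun (E : List Ev) (t : ℝ) => (E : Multiset Ev) = evT (F : Set ℝ) lf rt t) Rs L' ∧
      Ls = EV :: Rs := by
    cases hLs with
    | cons h1 h2 => exact ⟨_, _, h1, h2, rfl⟩
  have hmemEV : ∀ e ∈ EV, ∃ k : Fin 6, V + (k.val : ℝ) ∈ F ∧
      e = (k, lf (V + (k.val : ℝ)), rt (V + (k.val : ℝ))) := by
    intro e he
    have : e ∈ (EV : Multiset Ev) := he
    rw [hEV, evT, Multiset.mem_sum] at this
    obtain ⟨k, -, hk⟩ := this
    split_ifs at hk with h1
    · exact ⟨k, Finset.mem_coe.mp h1, Multiset.mem_singleton.mp hk⟩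
    · simp at hk
  have hV0 : ((0 : Fin 6), lf V, rt V) ∈ EV := by
    have : ((0 : Fin 6), lf V, rt V) ∈ (EV : Multiset Ev) := by
      rw [hEV, evT, Multiset.mem_sum]
      refine ⟨0, Finset.mem_univ _, ?_⟩
      have e0 : V + (((0 : Fin 6).val : ℕ) : ℝ) = V := by simp
      rw [e0, if_pos (Finset.mem_coe.mpr hVF)]
      exact Multiset.mem_singleton_self _
    exact this
  obtain ⟨B1, B2, hB⟩ := List.append_of_mem hV0
  have hfl : (EV :: Rs).flatten = B1 ++ (0, lf V, rt V) :: (B2 ++ Rs.flatten) := by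
    rw [List.flatten_cons, hB]; simp
  rw [hfl] at hloop
  obtain ⟨m, h1, h2, h3, h4, h5⟩ := hloop.split_at rfl
  refine ⟨m, B1, B2, Rs.flatten, h2, h3, h4, EP.trans h5 h1.rot, ?_, ?_⟩
  · intro e he
    exact hmemEV e (by rw [hB]; exact List.mem_append_left _ he)
  · rw [← hfl]
    have e1 := flatten_of_forall₂ (List.Forall₂.cons hEV hRs)
    have hnd : List.Nodup (V :: L') := hpw.imp (fun h => ne_of_lt h)
    have e2 : (V :: L').toFinset = T := by
      ext t
      rw [List.mem_toFinset, hmemL]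
    rw [e1, ← List.sum_toFinset _ hnd, e2]
    have e3 : ∑ t ∈ T, evT (F : Set ℝ) lf rt t =
        ∑ t ∈ T, ∑ P ∈ F.filter (fun P => tP V P = t), ({evP V lf rt P} : Multiset Ev) :=
      Finset.sum_congr rfl fun t ht => evT_eq F lf rt (hTm t ht).1 (hTm t ht).2.1
    rw [e3, Finset.sum_fiberwise_of_maps_to (fun P hP => Finset.mem_image_of_mem _ hP)]
    show (F.val.map (fun P => ({evP V lf rt P} : Multiset Ev))).sum = _
    have e4 : F.val.map (fun P => ({evP V lf rt P} : Multiset Ev)) =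
        (F.val.map (evP V lf rt)).map (fun a => {a}) := by rw [Multiset.map_map]; rfl
    rw [e4, Multiset.sum_map_singleton]

end Vale.Agent.P032.Words
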