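import Vale.Agent.P032.Words.H984.Pot

/-!
# No word with given counts, from a potential
-/

namespace Vale.Agent.P032.Words.Pot

open Set Filter Topology Scc

variable {X : Fin 4 → Set ℝ}

/-- the letters of the four types -/
def pa (t : Fin 4) : Fin 4 × Fin 4 := ![(0, 2), (1, 3), (1, 2), (0, 3)] t

theorem pa_ne : ∀ t, (pa t).1 ≠ (pa t).2 := by decide

theorem pa_cc : ∀ t, cc (pa t).1 (pa t).2 ∧ cc (pa t).2 (pa t).1 := by
  unfold cc
  decide

theorem pa_ty : ∀ t, ty (pa t).1.val (pa t).2.val = t.val ∧ ty (pa t).2.val (pa t).1.val = t.val := by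
  decide

theorem pa_of : ∀ x y : Fin 4, x ≠ y → cc x y → ¬ (x = 2 ∧ y = 3) → ¬ (x = 3 ∧ y = 2) →
    ∃ t, (x = (pa t).1 ∧ y = (pa t).2) ∨ (x = (pa t).2 ∧ y = (pa t).1) := by
  unfold cc
  decide

open Classical in
/-- the letters at a mark -/
noncomputable def pr (X : Fin 4 → Set ℝ) (P : ℝ) : Fin 4 × Fin 4 :=
  if h : ∃ ab : Fin 4 × Fin 4, Mark X ab.1 ab.2 P ∧ ab.1 ≠ ab.2 then h.choose else (0, 0)

theorem pr_spec {a b : Fin 4} {P : ℝ} (h : End X a b P) (hab : a ≠ b) :
    Mark X (pr X P).1 (pr X P).2 P ∧ (pr X P = (a, b) ∨ pr X P = (b, a)) := by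
  have hex : ∃ ab : Fin 4 × Fin 4, Mark X ab.1 ab.2 P ∧ ab.1 ≠ ab.2 := by
    rcases h with h | h
    · exact ⟨(a, b), h, hab⟩
    · exact ⟨(b, a), h, hab.symm⟩
  have e : pr X P = hex.choose := dif_pos hex
  have hs := hex.choose_spec
  rw [← e] at hs
  obtain ⟨h1, h2⟩ := hs
  refine ⟨h1, ?_⟩
  have key : ∀ l, P ∈ X l → l = a ∨ l = b := by
    intro l hl
    rcases h with h | h
    · exact h.only l hl
    · exact (h.only l hl).symm
  rcases key _ h1.mem_a with e1 | e1 <;> rcases key _ h1.mem_b with e2 | e2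
  · exact absurd (e1.trans e2.symm) h2
  · exact Or.inl (Prod.ext e1 e2)
  · exact Or.inr (Prod.ext e1 e2)
  · exact absurd (e1.trans e2.symm) h2

/-- all marks of the four types in the window `[V, V + 6)` -/
structure Marks (X : Fin 4 → Set ℝ) (V : ℝ) (F : Fin 4 → Finset ℝ) : Prop where
  isEnd : ∀ t, ∀ P ∈ F t, End X (pa t).1 (pa t).2 P
  win : ∀ t, ∀ P ∈ F t, V ≤ P ∧ P < V + 6
  all : ∀ t u, u ∈ X (pa t).1 → u ∈ X (pa t).2 → ∃ P ∈ F t, ∃ n : ℤ, u = P + 6 * n

theorem ws_eq (w tA tB : ℕ) (L : List Ev) (hL : ∀ e ∈ L, tyE e < 4) :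
    ws w tA tB L = ∑ t : Fin 4, (if t.val = tA ∨ t.val = tB then 0 else wt w t.val) * cnt t.val L := by
  induction L with
  | nil => simp [ws, cnt]
  | cons e L ih =>
    have h1 : ws w tA tB (e :: L) =
        (if tyE e = tA ∨ tyE e = tB then 0 else wt w (tyE e)) + ws w tA tB L := by
      unfold ws; rw [List.map_cons, List.sum_cons]
    have h2 : ∀ t : Fin 4, cnt t.val (e :: L) = (if tyE e = t.val then 1 else 0) + cnt t.val L := by
      intro t
      unfold cnt
      rw [List.countP_cons]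
      by_cases h : tyE e = t.val
      · simp [h, add_comm]
      · simp [h]
    rw [h1, ih (fun e' he' => hL e' (List.mem_cons_of_mem _ he'))]
    simp only [h2, mul_add, Finset.sum_add_distrib]
    congr 1
    have h3 : ∀ t : Fin 4, (if t.val = tA ∨ t.val = tB then 0 else wt w t.val) *
        (if tyE e = t.val then 1 else 0) = if (⟨tyE e, hL e (by simp)⟩ : Fin 4) = t then
        (if tyE e = tA ∨ tyE e = tB then 0 else wt w (tyE e)) else 0 := by
      intro t
      by_cases h : tyE e = t.val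
      · have h' : (⟨tyE e, hL e (by simp)⟩ : Fin 4) = t := Fin.ext h
        rw [if_pos h, if_pos h', mul_one, h]
      · have h' : ¬ (⟨tyE e, hL e (by simp)⟩ : Fin 4) = t := fun h' => h (by rw [← h'])
        rw [if_neg h, if_neg h', mul_zero]
    simp only [h3]
    rw [Finset.sum_ite_eq]
    simp

/-- **No word** with such marks. -/
theorem no_word (R : Wrd X) {V : ℝ} {F : Fin 4 → Finset ℝ} (M : Marks X V F) (hV : V ∈ F 0)
    {NA NL nA : ℕ} {tA tB : Fin 4} {sd : ℕ → Bool} {fin : List ℕ} {T : ℕ}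
    {gs : List (ℕ × ℕ × ℕ)} (H : chkMv NA NL tA.val tB.val sd T gs = true)
    (HC : chkCl NA NL fin T gs = true) (hne : tA ≠ tB) (hB0 : tB ≠ 0)
    (hs1 : ∀ P ∈ F tB, sd (kP V P).val = true)
    (hs2 : ∀ k : Fin 6, V + (k.val : ℝ) ∈ F tB → sd (k - 1).val = true)
    (hA : (F tA).card = nA + if tA = 0 then 1 else 0) (hAN : nA ≤ NA) (hf : nA ∈ fin)
    (hB : (F tB).card = NL)
    (hw : ∀ g ∈ gs, ∑ t : Fin 4, (if t.val = tA.val ∨ t.val = tB.val then 0 else wt g.1 t.val) *
      ((F t).card - if t = 0 then 1 else 0) < g.2.1) : False := by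
  classical
  set G : Finset ℝ := Finset.univ.biUnion F with hG
  have hmemG : ∀ P, P ∈ G ↔ ∃ t, P ∈ F t := by
    intro P; rw [hG, Finset.mem_biUnion]; simp
  have hsp : ∀ t, ∀ P ∈ F t, Mark X (pr X P).1 (pr X P).2 P ∧
      (pr X P = ((pa t).1, (pa t).2) ∨ pr X P = ((pa t).2, (pa t).1)) := fun t P hP =>
    pr_spec (M.isEnd t P hP) (pa_ne t)
  have hty : ∀ t, ∀ P ∈ F t, ty (pr X P).1.val (pr X P).2.val = t.val := by
    intro t P hP
    rcases (hsp t P hP).2 with e | e
    · rw [e]; exact (pa_ty t).1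
    · rw [e]; exact (pa_ty t).2
  obtain ⟨h, B1, B2, D, h0, h1, h2, h3, h4, h5⟩ := R.turn (c := cc) (V := V) (F := G)
    (lf := fun P => (pr X P).1) (rt := fun P => (pr X P).2) ((hmemG V).mpr ⟨0, hV⟩)
    (by
      intro P hP
      obtain ⟨t, ht⟩ := (hmemG P).mp hP
      exact M.win t P ht)
    (by
      intro P hP
      obtain ⟨t, ht⟩ := (hmemG P).mp hP
      obtain ⟨a1, a2⟩ := hsp t P ht
      refine ⟨a1, ?_⟩
      rcases a2 with e | e <;> simp only [e]
      · exact ⟨pa_ne t, (pa_cc t).1⟩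
      · exact ⟨(pa_ne t).symm, (pa_cc t).2⟩)
    (by
      intro u hu x y hx hy hxy hc
      obtain ⟨t, ht⟩ := pa_of x y hxy hc (by rintro ⟨rfl, rfl⟩; exact R.ac u hx hy)
        (by rintro ⟨rfl, rfl⟩; exact R.ac u hy hx)
      obtain ⟨P, hP, n, hn⟩ : ∃ P ∈ F t, ∃ n : ℤ, u = P + 6 * n := by
        rcases ht with ⟨rfl, rfl⟩ | ⟨rfl, rfl⟩
        · exact M.all t u hx hy
        · exact M.all t u hy hx
      exact hu P ((hmemG P).mpr ⟨t, hP⟩) n hn)
  -- the events
  have hev : ∀ e ∈ (B1 ++ (0, (pr X V).1, (pr X V).2) :: (B2 ++ D) : List Ev), ∃ t, ∃ P ∈ F t,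
      e = (kP V P, (pr X P).1, (pr X P).2) := by
    intro e he
    have : e ∈ ((B1 ++ (0, (pr X V).1, (pr X V).2) :: (B2 ++ D) : List Ev) : Multiset Ev) := he
    rw [h5, Multiset.mem_map] at this
    obtain ⟨P, hP, rfl⟩ := this
    obtain ⟨t, ht⟩ := (hmemG P).mp hP
    exact ⟨t, P, ht, rfl⟩
  have hcnt : ∀ t : Fin 4, cnt t.val (B2 ++ D ++ B1.map sh) + (if t = 0 then 1 else 0) =
      (F t).card := by
    intro t
    have e1 : cnt t.val (B1.map sh) = cnt t.val B1 := by
      unfold cnt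
      rw [List.countP_map]
      rfl
    have e2 : cnt t.val (B1 ++ (0, (pr X V).1, (pr X V).2) :: (B2 ++ D)) = (F t).card := by
      have e3 : cnt t.val (B1 ++ (0, (pr X V).1, (pr X V).2) :: (B2 ++ D)) =
          Multiset.countP (fun e => (tyE e == t.val) = true)
            ((B1 ++ (0, (pr X V).1, (pr X V).2) :: (B2 ++ D) : List Ev) : Multiset Ev) := by
        rw [Multiset.coe_countP]
        unfold cnt
        exact List.countP_congr fun e _ => by rw [decide_eq_true_iff]
      rw [e3, h5, Multiset.countP_map]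
      have e4 : (G.filter fun P => (tyE (evP V (fun P => (pr X P).1) (fun P => (pr X P).2) P) ==
          t.val) = true) = F t := by
        ext P
        rw [Finset.mem_filter, hmemG]
        constructor
        · rintro ⟨⟨s, hs⟩, h'⟩
          have := hty s P hs
          have h'' : ty (pr X P).1.val (pr X P).2.val = t.val := beq_iff_eq.mp h'
          have : s = t := Fin.ext (this.symm.trans h'')
          rw [← this]; exact hs
        · intro hP
          exact ⟨⟨t, hP⟩, beq_iff_eq.mpr (hty t P hP)⟩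
      rw [← e4]
      rfl
    have hVt : tyE ((0 : Fin 6), (pr X V).1, (pr X V).2) = 0 := hty 0 V hV
    have e5 : cnt t.val ([((0 : Fin 6), (pr X V).1, (pr X V).2)] : List Ev) =
        if t = 0 then 1 else 0 := by
      unfold cnt
      rw [List.countP_singleton, hVt]
      by_cases ht : t = 0
      · subst ht; simp
      · have : (0 : ℕ) ≠ t.val := fun h' => ht (Fin.ext h'.symm)
        simp [ht, this]
    have app : ∀ L L' : List Ev, cnt t.val (L ++ L') = cnt t.val L + cnt t.val L' := fun L L' => by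
      unfold cnt; rw [List.countP_append]
    have e6 : (B1 ++ ((0 : Fin 6), (pr X V).1, (pr X V).2) :: (B2 ++ D) : List Ev) =
        B1 ++ ([((0 : Fin 6), (pr X V).1, (pr X V).2)] ++ (B2 ++ D)) := by simp
    rw [← e2, e6, app, app, app, app, app, e5, e1]
    omega
  have htB : ∀ e, tyE (sh e) = tyE e := fun _ => rfl
  refine no_loop H HC (fun h' => hne (Fin.ext h')) (h := h) (y := (pr X V).2)
    (L := B2 ++ D ++ B1.map sh) ?_ h1 h2 h3 ?_ ?_ ?_ ?_ ?_
  · rw [h0]; exact hty 0 V hV
  · intro e he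
    have hB2D : e ∈ B2 ++ D ∨ ∃ e' ∈ B1, sh e' = e := by
      rcases List.mem_append.mp he with h' | h'
      · exact Or.inl h'
      · exact Or.inr (List.mem_map.mp h')
    rcases hB2D with he | ⟨e', he', rfl⟩
    · obtain ⟨t, P, hP, rfl⟩ := hev e (by
        apply List.mem_append_right; exact List.mem_cons_of_mem _ he)
      have : tyE (kP V P, (pr X P).1, (pr X P).2) = t.val := hty t P hP
      rw [this]
      refine ⟨t.isLt, fun h' => ?_⟩
      have : t = tB := Fin.ext h'
      subst this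
      exact hs1 P hP
    · obtain ⟨k, hk, rfl⟩ := h4 e' he'
      obtain ⟨t, ht⟩ := (hmemG _).mp hk
      have : tyE (k, (pr X (V + (k.val : ℝ))).1, (pr X (V + (k.val : ℝ))).2) = t.val := hty t _ ht
      rw [htB, this]
      refine ⟨t.isLt, fun h' => ?_⟩
      have : t = tB := Fin.ext h'
      subst this
      exact hs2 k ht
  · have := hcnt tA
    omega
  · have := hcnt tA
    have : cnt tA.val (B2 ++ D ++ B1.map sh) = nA := by omega
    rw [this]
    exact hf
  · have := hcnt tB
    rw [if_neg hB0] at this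
    omega
  · intro g hg
    rw [ws_eq]
    · have := hw g hg
      refine lt_of_le_of_lt (Finset.sum_le_sum fun t _ => ?_) this
      refine Nat.mul_le_mul_left _ ?_
      have := hcnt t
      omega
    · intro e he
      have hB2D : e ∈ B2 ++ D ∨ ∃ e' ∈ B1, sh e' = e := by
        rcases List.mem_append.mp he with h' | h'
        · exact Or.inl h'
        · exact Or.inr (List.mem_map.mp h')
      rcases hB2D with he | ⟨e', he', rfl⟩
      · obtain ⟨t, P, hP, rfl⟩ := hev e (by
          apply List.mem_append_right; exact List.mem_cons_of_mem _ he)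
        have : tyE (kP V P, (pr X P).1, (pr X P).2) = t.val := hty t P hP
        rw [this]; exact t.isLt
      · obtain ⟨t, P, hP, h'⟩ := hev e' (List.mem_append_left _ he')
        have : tyE e' = t.val := by rw [h']; exact hty t P hP
        rw [htB, this]; exact t.isLt

end Vale.Agent.P032.Words.Pot
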