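import Vale.Agent.P032.Words.H984.Walk
import Vale.Agent.P032.Words.H349.Tie

/-!
# One circle, any number of marks, in their order

Letters `0 = e`, `1 = f`, `2 = A`, `3 = C`; angles in units of 60 degrees.  Under the local rules
`PalT` the strongly connected changes are single changes.  `EP c h L g`: from the hexagon `h` to the
hexagon `g` by legal single changes; `L` is the list of the changes `(k, x, y)` which are counted.
-/

namespace Vale.Agent.P032.Words

open Set Filter Topology Scc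

/-- pairwise form of `Leg4` -/
def R4 (p q : Fin 6) (a b : Fin 4) : Prop := (q = p + 1 → a ≠ b) ∧ (q = p + 3 → ¬ (a = 2 ∧ b = 3))

theorem legR_iff {h : Hx} : LegR R4 h ↔ Leg4 h := by
  constructor
  · intro H
    exact ⟨fun k => (H k (k + 1)).1 rfl, fun k => (H k (k + 3)).2 rfl⟩
  · rintro ⟨h1, h2⟩ p q
    exact ⟨fun e => e ▸ h1 p, fun e => e ▸ h2 p⟩

theorem R4_rot (p q : Fin 6) (a b : Fin 4) : R4 p q a b ↔ R4 (p + 1) (q + 1) a b := by
  have h1 : ∀ p q : Fin 6, (q = p + 1 ↔ q + 1 = p + 1 + 1) := by decide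
  have h2 : ∀ p q : Fin 6, (q = p + 3 ↔ q + 1 = p + 1 + 3) := by decide
  unfold R4
  rw [h1, h2]

/-- palettes of a circle off the special times -/
def G4 : Set (Fin 6 → Set (Fin 4)) := {P | PalT (fun k l => l ∈ P k) ∧ ∀ k, 2 ∈ P k → 3 ∉ P (k + 3)}

/-- **One circle**: a strongly connected change is a single change. -/
theorem single_of_SC {P : Fin 6 → Set (Fin 4)} (hP : P ∈ G4) {h h' : Hx} (hh : Sel R4 P h)
    (hh' : Sel R4 P h') (hne : h ≠ h') (hsc : SC R4 h h') :
    ∃ k, h k ≠ h' k ∧ h' = Function.update h k (h' k) := by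
  obtain ⟨hT, hanti⟩ := hP
  obtain ⟨k, h1, h2, h3⟩ := hT.exists_step (h := h) (h' := h') hh.1 hh'.1
    (legR_iff.mp hh'.2).1 hne
  refine ⟨k, h1, ?_⟩
  funext j
  by_cases hj : j = k
  · subst hj; rw [Function.update_self]
  rw [Function.update_of_ne hj]
  by_contra hd
  obtain ⟨q, hq, p, hp, hpd, hreq⟩ := hsc {k} ⟨k, rfl⟩ (by rintro q rfl; exact h1)
    ⟨j, hj, fun e => hd e.symm⟩
  rw [mem_singleton_iff] at hq
  subst hq
  apply hreq
  have e3 : ∀ a b : Fin 6, a = b + 3 → b = a + 3 := by decide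
  refine ⟨⟨?_, ?_⟩, ⟨?_, ?_⟩⟩
  · intro e
    have : p = q - 1 := by rw [e, add_sub_cancel_right]
    rw [this]
    exact h3.symm
  · rintro e ⟨e1, e2⟩
    have a1 := hh.1 p
    have a2 := hh'.1 q
    rw [e1] at a1
    rw [e2, e] at a2
    exact hanti p a1 a2
  · intro e
    rw [e]
    exact h2
  · rintro e ⟨e1, e2⟩
    have a1 := hh'.1 q
    have a2 := hh.1 p
    rw [e1] at a1
    rw [e2, e] at a2
    exact hanti q a1 a2

/-- a counted change: the position, the letter before, the letter after -/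
abbrev Ev := Fin 6 × Fin 4 × Fin 4

/-- from `h` to `g` by legal single changes with the list `L` of the counted changes -/
inductive EP (c : Fin 4 → Fin 4 → Prop) : Hx → List Ev → Hx → Prop
  | refl (h : Hx) : EP c h [] h
  | free {h g : Hx} {L : List Ev} (k : Fin 6) (l : Fin 4) : EP c h L g → Leg4 g →
      Leg4 (Function.update g k l) → g k ≠ l → ¬ c (g k) l → EP c h L (Function.update g k l)
  | mark {h g : Hx} {L : List Ev} (k : Fin 6) (l : Fin 4) : EP c h L g → Leg4 g →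
      Leg4 (Function.update g k l) → g k ≠ l → c (g k) l →
      EP c h (L ++ [(k, g k, l)]) (Function.update g k l)

variable {c : Fin 4 → Fin 4 → Prop}

theorem EP.trans {h g k : Hx} {L L' : List Ev} (h1 : EP c h L g) (h2 : EP c g L' k) :
    EP c h (L ++ L') k := by
  induction h2 with
  | refl => rw [List.append_nil]; exact h1
  | free k l _ a b d e ih => exact EP.free k l ih a b d e
  | mark k l _ a b d e ih => rw [← List.append_assoc]; exact EP.mark k l ih a b d e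

open Classical in
/-- the counter of a change -/
noncomputable def tauE (c : Fin 4 → Fin 4 → Prop) (k : Fin 6) (a b : Fin 4) : Multiset Ev :=
  if a ≠ b ∧ c a b then {(k, a, b)} else 0

theorem tauE_self (k : Fin 6) (a : Fin 4) : tauE c k a a = 0 := by simp [tauE]

theorem ep_of_reach {G : Set (Fin 6 → Set (Fin 4))} (hG : G ⊆ G4) {x y : Hx × Multiset Ev}
    (hr : Scc.Reach R4 (tauE c) G x y) : ∃ L : List Ev, EP c x.1 L y.1 ∧ y.2 = x.2 + (L : Multiset Ev) := by
  unfold Scc.Reach at hr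
  induction hr with
  | refl => exact ⟨[], EP.refl _, by simp⟩
  | @tail y z _ hs ih =>
    obtain ⟨L, hL, hL2⟩ := ih
    obtain ⟨P, hP, a1, a2, a3, a4, a5⟩ := hs
    obtain ⟨k, hk, he⟩ := single_of_SC (hG hP) a1 a2 a3 a4
    have hsum : ∑ p, tauE c p (y.1 p) (z.1 p) = tauE c k (y.1 k) (z.1 k) := by
      refine Finset.sum_eq_single k (fun j _ hj => ?_) (fun h => absurd (Finset.mem_univ k) h)
      have : z.1 j = y.1 j := by rw [he, Function.update_of_ne hj]
      rw [this, tauE_self]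
    rw [hsum] at a5
    have l1 : Leg4 y.1 := legR_iff.mp a1.2
    have l2 : Leg4 (Function.update y.1 k (z.1 k)) := he ▸ legR_iff.mp a2.2
    by_cases hc : c (y.1 k) (z.1 k)
    · refine ⟨L ++ [(k, y.1 k, z.1 k)], ?_, ?_⟩
      · have := EP.mark k (z.1 k) hL l1 l2 hk hc
        rwa [← he] at this
      · rw [a5, hL2, tauE, if_pos ⟨hk, hc⟩, add_assoc]
        rfl
    · refine ⟨L, ?_, ?_⟩
      · have := EP.free k (z.1 k) hL l1 l2 hk hc
        rwa [← he] at this
      · rw [a5, hL2, tauE, if_neg (fun h => hc h.2), add_zero]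

theorem ep_of_walk {G : Set (Fin 6 → Set (Fin 4))} (hG : G ⊆ G4) {h g : Hx} {M : List (Multiset Ev)}
    (hw : Walk R4 (tauE c) G h M g) :
    ∃ Ls : List (List Ev), List.Forall₂ (fun (L : List Ev) (m : Multiset Ev) => (L : Multiset Ev) = m) Ls M ∧
      EP c h Ls.flatten g := by
  induction hw with
  | @nil h g h1 =>
    obtain ⟨L, h2, h3⟩ := ep_of_reach (x := (h, 0)) (y := (g, 0)) hG h1
    have h3' : (0 : Multiset Ev) = 0 + (L : Multiset Ev) := h3
    rw [zero_add] at h3'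
    have : L = [] := Multiset.coe_eq_zero L |>.mp h3'.symm
    subst this
    exact ⟨[], List.Forall₂.nil, h2⟩
  | @cons h h' g m M h1 _ ih =>
    obtain ⟨L, h2, h3⟩ := ep_of_reach (x := (h, 0)) (y := (h', m)) hG h1
    obtain ⟨Ls, h4, h5⟩ := ih
    have h3' : m = 0 + (L : Multiset Ev) := h3
    rw [zero_add] at h3'
    refine ⟨L :: Ls, List.Forall₂.cons h3'.symm h4, ?_⟩
    rw [List.flatten_cons]
    exact EP.trans h2 h5

/-- the palettes of one circle -/
def palX (X : Fin 4 → Set ℝ) (u : ℝ) (k : Fin 6) : Set (Fin 4) := {l | u + (k.val : ℝ) ∈ X l}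

open Classical in
/-- the marks at the time `t` -/
noncomputable def evT (F : Set ℝ) (lf rt : ℝ → Fin 4) (t : ℝ) : Multiset Ev :=
  ∑ k : Fin 6, if t + (k.val : ℝ) ∈ F then {(k, lf (t + (k.val : ℝ)), rt (t + (k.val : ℝ)))} else 0

theorem palX_near {X : Fin 4 → Set ℝ} (hc : ∀ l, IsClosed (X l)) (u : ℝ) :
    ∀ᶠ v in 𝓝 u, ∀ p, palX X v p ⊆ palX X u p := by
  rw [eventually_all]
  intro k
  have : ∀ l, ∀ᶠ v in 𝓝 u, v + (k.val : ℝ) ∈ X l → u + (k.val : ℝ) ∈ X l := by
    intro l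
    by_cases h : u + (k.val : ℝ) ∈ X l
    · exact Eventually.of_forall fun v _ => h
    · have hcc : Continuous fun v : ℝ => v + (k.val : ℝ) := by fun_prop
      have := (hcc.tendsto u).eventually ((hc l).isOpen_compl.mem_nhds h)
      filter_upwards [this] with v hv hv'
      exact absurd hv' hv
  filter_upwards [eventually_all.mpr this] with v hv l hl
  exact hv l hl

theorem palX_add_one {X : Fin 4 → Set ℝ} (per : ∀ l u, u + 6 ∈ X l ↔ u ∈ X l) (u : ℝ) (k : Fin 6) :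
    palX X (u + 1) k = palX X u (k + 1) := by
  ext l
  show u + 1 + (k.val : ℝ) ∈ X l ↔ u + ((k + 1).val : ℝ) ∈ X l
  by_cases hk : k = 5
  · subst hk
    have h1 : ((5 : Fin 6) + 1).val = 0 := rfl
    have h2 : (5 : Fin 6).val = 5 := rfl
    rw [h1, h2]
    have : u + 1 + ((5 : ℕ) : ℝ) = (u + ((0 : ℕ) : ℝ)) + 6 := by push_cast; ring
    rw [this, per]
  · have h1 : (k + 1).val = k.val + 1 := by
      have : k.val ≠ 5 := fun h => hk (Fin.ext h)
      have h6 := k.isLt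
      rw [Fin.val_add_one_of_lt]
      rw [Fin.lt_def]
      show k.val < 5
      omega
    rw [h1]
    have : u + 1 + (k.val : ℝ) = u + ((k.val + 1 : ℕ) : ℝ) := by push_cast; ring
    rw [this]

/-- The counter at a time: at a position in `F` there is a mark, at the others nothing is counted. -/
theorem cross_marks {X : Fin 4 → Set ℝ} (hcl : ∀ l, IsClosed (X l)) {F : Set ℝ} {lf rt : ℝ → Fin 4}
    {t : ℝ} (hF : ∀ k : Fin 6, t + (k.val : ℝ) ∈ F →
      Mark X (lf (t + (k.val : ℝ))) (rt (t + (k.val : ℝ))) (t + (k.val : ℝ)) ∧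
      lf (t + (k.val : ℝ)) ≠ rt (t + (k.val : ℝ)) ∧ c (lf (t + (k.val : ℝ))) (rt (t + (k.val : ℝ))))
    (hN : ∀ k : Fin 6, t + (k.val : ℝ) ∉ F → ∀ x ∈ palX X t k, ∀ y ∈ palX X t k, x ≠ y → ¬ c x y) :
    Cross R4 (tauE c) (palX X) t (evT F lf rt t) := by
  classical
  have hnear := palX_near hcl t
  have hl : ∀ᶠ v in 𝓝[<] t, ∀ k : Fin 6, t + (k.val : ℝ) ∈ F →
      v + (k.val : ℝ) ∉ X (rt (t + (k.val : ℝ))) := by
    rw [eventually_all]
    intro k
    by_cases hk : t + (k.val : ℝ) ∈ F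
    · have := (tendsto_add_left t (k.val : ℝ)).eventually (hF k hk).1.left
      filter_upwards [this] with v hv _
      exact hv
    · exact Eventually.of_forall fun v h => absurd h hk
  have hr : ∀ᶠ v in 𝓝[>] t, ∀ k : Fin 6, t + (k.val : ℝ) ∈ F →
      v + (k.val : ℝ) ∉ X (lf (t + (k.val : ℝ))) := by
    rw [eventually_all]
    intro k
    by_cases hk : t + (k.val : ℝ) ∈ F
    · have := (tendsto_add_right t (k.val : ℝ)).eventually (hF k hk).1.right
      filter_upwards [this] with v hv _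
      exact hv
    · exact Eventually.of_forall fun v h => absurd h hk
  unfold Cross
  filter_upwards [hl, nhdsWithin_le_nhds hnear] with v hv hvn
  filter_upwards [hr, nhdsWithin_le_nhds hnear] with v' hv' hvn' h h' hh hh'
  unfold evT
  refine Finset.sum_congr rfl fun k _ => ?_
  have m1 := hvn k (hh.1 k)
  have m2 := hvn' k (hh'.1 k)
  by_cases hk : t + (k.val : ℝ) ∈ F
  · rw [if_pos hk]
    obtain ⟨mk, hne, hc⟩ := hF k hk
    have e1 : h k = lf (t + (k.val : ℝ)) := by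
      rcases mk.only _ m1 with e | e
      · exact e
      · exact absurd (e ▸ hh.1 k) (hv k hk)
    have e2 : h' k = rt (t + (k.val : ℝ)) := by
      rcases mk.only _ m2 with e | e
      · exact absurd (e ▸ hh'.1 k) (hv' k hk)
      · exact e
    rw [e1, e2, tauE, if_pos ⟨hne, hc⟩]
  · rw [if_neg hk, tauE, if_neg]
    rintro ⟨hne, hc⟩
    exact hN k hk _ m1 _ m2 hne hc

/-- **One circle with any number of marks.**  `F` is the set of all marks (in the positions
`t + k`, `a < t < a + 1`), `L` their times; the time `a` may be special. -/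
theorem one_circle {X : Fin 4 → Set ℝ} (hcl : ∀ l, IsClosed (X l))
    (per : ∀ l u, u + 6 ∈ X l ↔ u ∈ X l) (ex : ∀ u, ∃ h, Sel R4 (palX X u) h) (a : ℝ)
    (hG : ∀ u ∈ Ioo a (a + 1), palX X u ∈ G4) (F : Set ℝ) (lf rt : ℝ → Fin 4)
    (hF : ∀ t ∈ Ioo a (a + 1), ∀ k : Fin 6, t + (k.val : ℝ) ∈ F →
      Mark X (lf (t + (k.val : ℝ))) (rt (t + (k.val : ℝ))) (t + (k.val : ℝ)) ∧
      lf (t + (k.val : ℝ)) ≠ rt (t + (k.val : ℝ)) ∧ c (lf (t + (k.val : ℝ))) (rt (t + (k.val : ℝ))))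
    (hN : ∀ t ∈ Ioo a (a + 1), ∀ k : Fin 6, t + (k.val : ℝ) ∉ F → ∀ x ∈ palX X t k,
      ∀ y ∈ palX X t k, x ≠ y → ¬ c x y)
    (L : List ℝ) (hL : L.Pairwise (· < ·)) (hLa : ∀ t ∈ L, a < t ∧ t < a + 1)
    (hLF : ∀ t ∈ Ioo a (a + 1), ∀ k : Fin 6, t + (k.val : ℝ) ∈ F → t ∈ L)
    {Bp Bm : Hx → Prop} (hBp : ∀ᶠ v in 𝓝[>] a, ∀ h, Sel R4 (palX X v) h → Bp h)
    (hBm : ∀ᶠ v in 𝓝[<] a, ∀ h, Sel R4 (palX X v) h → Bm h) :
    ∃ h g : Hx, Bp h ∧ Bm g ∧ Sel R4 (palX X a) h ∧ Sel R4 (palX X a) g ∧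
      ∃ Ls : List (List Ev), List.Forall₂ (fun (E : List Ev) (t : ℝ) =>
        (E : Multiset Ev) = evT F lf rt t) Ls L ∧ EP c h Ls.flatten (rot g) := by
  have w : Wd R4 (palX X) := ⟨palX_near hcl, ex⟩
  have hq : ∀ u ∈ Ioo a (a + 1), u ∉ L → Quiet (tauE c) (palX X u) := by
    intro u hu huL p x hx y hy
    unfold tauE
    rw [if_neg]
    rintro ⟨hne, hc⟩
    exact hN u hu p (fun hF' => huL (hLF u hu p hF')) x hx y hy hne hc
  have hx : ∀ u ∈ L, Cross R4 (tauE c) (palX X) u (evT F lf rt u) := fun t ht =>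
    cross_marks hcl (hF t (hLa t ht)) (hN t (hLa t ht))
  obtain ⟨h, g, h1, h2, h3, h4, h5⟩ := w.cycle_walk (τ := tauE c) (G := G4) tauE_self
    (Equiv.addRight (1 : Fin 6)) (fun u p => palX_add_one per u p) (fun p q a b => R4_rot p q a b)
    L hL (evT F lf rt) a hLa hG hq hx hBp hBm
  obtain ⟨Ls, h6, h7⟩ := ep_of_walk (le_refl _) h5
  refine ⟨h, g, h1, h2, h3, h4, Ls, ?_, h7⟩
  rw [List.forall₂_map_right_iff] at h6
  exact h6

/-- the palettes of `RawT` -/
theorem RawT.g4 {X : Fin 4 → Set ℝ} (w : RawT X) (u : ℝ) : palX X u ∈ G4 :=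
  ⟨w.palT u, fun k h2 h3 => w.anti _ h2 ((w.mem_add3 u k 3).mp h3)⟩

theorem RawT.exSel {X : Fin 4 → Set ℝ} (w : RawT X) (u : ℝ) : ∃ h, Sel R4 (palX X u) h :=
  ⟨stT X u, fun k => w.st_mem u k, legR_iff.mpr (w.leg_st u)⟩

end Vale.Agent.P032.Words
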