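import Vale.Agent.P032.Words.H984.Sep22

/-!
# One circle with a single special end: the two facts for the BETA row

Letters `0 = e`, `1 = f`, `2 = A`, `3 = C`; angles in units of 60 degrees, modulo 6.
-/

namespace Vale.Agent.P032.Words.Pot

open Set Filter Topology Scc

variable {X : Fin 4 → Set ℝ}

/-- **Counts**: two ends `A|e`, two ends `C|f` and at most two ends of each other type: then exactly
two of each other type. -/
theorem two_two (R : Wrd X) {V v q q' w w' r r' : ℝ} (hV : End X 0 2 V) (hv : End X 0 2 v)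
    (hvV : ¬ E6 v V) (h02 : ∀ u, u ∈ X 0 → u ∈ X 2 → E6 u V ∨ E6 u v)
    (hVq : V < q) (hqq : q < q') (hqV : q' < V + 6)
    (h13 : Two X 1 3 q q') (h12 : Two X 1 2 w w') (h03 : Two X 0 3 r r') :
    ¬ E6 w w' ∧ ¬ E6 r r' := by
  obtain ⟨v₁, w₁, w₁', r₁, r₁', e1, e2, e3, e4, e5, f1, f2, f3, f4, M⟩ :=
    marks_of R hV hv h02 h13 h12 h03 ⟨hVq.le, by linarith⟩ ⟨by linarith, hqV⟩
  have hVv : V ≠ v₁ := fun h => hvV (h ▸ e1.symm)
  have hcA : ({V, v₁} : Finset ℝ).card = 2 := Finset.card_pair hVv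
  have hcB : ({q, q'} : Finset ℝ).card = 2 := Finset.card_pair hqq.ne
  rw [← not_or]
  intro hcon
  have hsum : ({w₁, w₁'} : Finset ℝ).card + ({r₁, r₁'} : Finset ℝ).card < 4 := by
    rcases hcon with h | h
    · have : w₁ = w₁' := ((e2.trans h).trans e3.symm).eq f1.1 f1.2 f2.1 f2.2
      rw [this, Finset.pair_eq_singleton, Finset.card_singleton]
      have := card_pair (a := r₁) (b := r₁')
      omega
    · have : r₁ = r₁' := ((e4.trans h).trans e5.symm).eq f3.1 f3.2 f4.1 f4.2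
      rw [this, Finset.pair_eq_singleton, Finset.card_singleton]
      have := card_pair (a := w₁) (b := w₁')
      omega
  refine no_word R M (by simp) (tA := 0) (tB := 1) (nA := 1) cnt22_mv cnt22_cl (by decide)
    (by decide) (fun _ _ => rfl) (fun _ _ => rfl) hcA le_rfl (by simp) hcB ?_
  intro g hg
  have := List.all_eq_true.mp c22_w g hg
  simp only [Bool.and_eq_true, beq_iff_eq] at this
  obtain ⟨⟨h1, h2⟩, h3⟩ := this
  rw [h3, Fin.sum_univ_four]
  have e2' : (2 : Fin 4).val = 2 := rfl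
  have e3' : (3 : Fin 4).val = 3 := rfl
  have n2 : ¬ ((2 : Fin 4).val = (0 : Fin 4).val ∨ (2 : Fin 4).val = (1 : Fin 4).val) := by decide
  have n3 : ¬ ((3 : Fin 4).val = (0 : Fin 4).val ∨ (3 : Fin 4).val = (1 : Fin 4).val) := by decide
  rw [if_pos (Or.inl rfl), if_pos (Or.inr rfl), if_neg n2, if_neg n3, e2', e3', h1, h2]
  simp only [zero_mul, zero_add, one_mul]
  exact hsum

/-- **Counts**: not exactly one end `A|e`, exactly three ends `C|f` and at most two ends of each other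
type. -/
theorem one_three (R : Wrd X) {V a b c w w' r r' : ℝ} (hV : End X 0 2 V)
    (h02 : ∀ u, u ∈ X 0 → u ∈ X 2 → E6 u V) (ha : End X 1 3 a) (hb : End X 1 3 b)
    (hc : End X 1 3 c) (hab : ¬ E6 a b) (hac : ¬ E6 a c) (hbc : ¬ E6 b c)
    (h13 : ∀ u, u ∈ X 1 → u ∈ X 3 → E6 u a ∨ E6 u b ∨ E6 u c)
    (h12 : Two X 1 2 w w') (h03 : Two X 0 3 r r') : False := by
  obtain ⟨a₁, a1, a2⟩ := norm_ex V a
  obtain ⟨b₁, b1, b2⟩ := norm_ex V b
  obtain ⟨c₁, c1, c2⟩ := norm_ex V c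
  obtain ⟨w₁, w₁', -, -, w3, w4, w5, w6, w7⟩ := h12.norm R V
  obtain ⟨r₁, r₁', -, -, r3, r4, r5, r6, r7⟩ := h03.norm R V
  have a3 := end_E6 R ha a1
  have b3 := end_E6 R hb b1
  have c3 := end_E6 R hc c1
  have nab : a₁ ≠ b₁ := fun h => hab ((h ▸ a1.symm).trans b1)
  have nac : a₁ ≠ c₁ := fun h => hac ((h ▸ a1.symm).trans c1)
  have nbc : b₁ ≠ c₁ := fun h => hbc ((h ▸ b1.symm).trans c1)
  have M : Marks X V ![{V}, {a₁, b₁, c₁}, {w₁, w₁'}, {r₁, r₁'}] := by
    refine ⟨?_, ?_, ?_⟩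
    · intro t
      fin_cases t
      · intro P hP
        have hP' : P = V := by simpa using hP
        rcases hP' with rfl
        exact hV
      · intro P hP
        have hP' : P = a₁ ∨ P = b₁ ∨ P = c₁ := by simpa using hP
        rcases hP' with rfl | rfl | rfl
        exacts [a3, b3, c3]
      · intro P hP
        have hP' : P = w₁ ∨ P = w₁' := by simpa using hP
        rcases hP' with rfl | rfl
        exacts [w3, w4]
      · intro P hP
        have hP' : P = r₁ ∨ P = r₁' := by simpa using hP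
        rcases hP' with rfl | rfl
        exacts [r3, r4]
    · intro t
      fin_cases t
      · intro P hP
        have hP' : P = V := by simpa using hP
        rcases hP' with rfl
        exact ⟨le_rfl, by linarith⟩
      · intro P hP
        have hP' : P = a₁ ∨ P = b₁ ∨ P = c₁ := by simpa using hP
        rcases hP' with rfl | rfl | rfl
        exacts [a2, b2, c2]
      · intro P hP
        have hP' : P = w₁ ∨ P = w₁' := by simpa using hP
        rcases hP' with rfl | rfl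
        exacts [w5, w6]
      · intro P hP
        have hP' : P = r₁ ∨ P = r₁' := by simpa using hP
        rcases hP' with rfl | rfl
        exacts [r5, r6]
    · intro t
      fin_cases t
      · intro u hx hy
        obtain ⟨n, hn⟩ := h02 u hx hy
        exact ⟨V, by simp, n, hn⟩
      · intro u hx hy
        rcases h13 u hx hy with h | h | h
        · obtain ⟨n, hn⟩ := h.trans a1.symm
          exact ⟨a₁, by simp, n, hn⟩
        · obtain ⟨n, hn⟩ := h.trans b1.symm
          exact ⟨b₁, by simp, n, hn⟩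
        · obtain ⟨n, hn⟩ := h.trans c1.symm
          exact ⟨c₁, by simp, n, hn⟩
      · intro u hx hy
        rcases w7 u hx hy with ⟨n, hn⟩ | ⟨n, hn⟩
        · exact ⟨w₁, by simp, n, hn⟩
        · exact ⟨w₁', by simp, n, hn⟩
      · intro u hx hy
        rcases r7 u hx hy with ⟨n, hn⟩ | ⟨n, hn⟩
        · exact ⟨r₁, by simp, n, hn⟩
        · exact ⟨r₁', by simp, n, hn⟩
  have hcB : ({a₁, b₁, c₁} : Finset ℝ).card = 3 := by
    rw [Finset.card_insert_of_notMem (by simp [nab, nac]), Finset.card_pair nbc]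
  have hcA := card_pair (a := w₁) (b := w₁')
  have hcR := card_pair (a := r₁) (b := r₁')
  refine no_word R M (by simp) (tA := 2) (tB := 1) (nA := ({w₁, w₁'} : Finset ℝ).card) cnt13_mv
    cnt13_cl (by decide) (by decide) (fun _ _ => rfl) (fun _ _ => rfl) ?_ hcA ?_ hcB ?_
  · rw [if_neg (by decide)]; rfl
  · have : ∀ n : ℕ, n ≤ 2 → n ∈ [0, 1, 2] := by
      intro n hn
      interval_cases n <;> simp
    exact this _ hcA
  intro g hg
  have := List.all_eq_true.mp c13_w g hg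
  simp only [Bool.and_eq_true, beq_iff_eq] at this
  obtain ⟨h1, h3⟩ := this
  rw [h3, Fin.sum_univ_four]
  have e3' : (3 : Fin 4).val = 3 := rfl
  have n0 : ¬ ((0 : Fin 4).val = (2 : Fin 4).val ∨ (0 : Fin 4).val = (1 : Fin 4).val) := by decide
  have n3 : ¬ ((3 : Fin 4).val = (2 : Fin 4).val ∨ (3 : Fin 4).val = (1 : Fin 4).val) := by decide
  rw [if_neg n0, if_pos (Or.inr rfl), if_pos (Or.inl rfl), if_neg n3, e3', h1]
  have c0 : (![{V}, {a₁, b₁, c₁}, {w₁, w₁'}, {r₁, r₁'}] (0 : Fin 4) : Finset ℝ).card = 1 :=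
    Finset.card_singleton V
  rw [c0]
  simp only [zero_mul, zero_add, one_mul, add_zero, if_true, Nat.sub_self, mul_zero]
  show ({r₁, r₁'} : Finset ℝ).card - 0 < 3
  omega

theorem Two.sym {l m : Fin 4} {s t : ℝ} (h : Two X l m s t) : Two X l m t s :=
  ⟨h.2.1, h.1, fun u hl hm => (h.2.2 u hl hm).symm⟩

theorem mark_perm (σ : Equiv.Perm (Fin 4)) {x y : Fin 4} {P : ℝ} (h : Mark X (σ x) (σ y) P) :
    Mark (fun l => X (σ l)) x y P :=
  ⟨h.mem_a, h.mem_b, fun _ hl => (h.only _ hl).imp (fun e => σ.injective e) fun e => σ.injective e,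
    h.left, h.right⟩

theorem end_perm (σ : Equiv.Perm (Fin 4)) {x y : Fin 4} {P : ℝ} (h : End X (σ x) (σ y) P) :
    End (fun l => X (σ l)) x y P := h.imp (mark_perm σ) (mark_perm σ)

theorem two_perm (σ : Equiv.Perm (Fin 4)) {x y : Fin 4} {s t : ℝ} (h : Two X (σ x) (σ y) s t) :
    Two (fun l => X (σ l)) x y s t := ⟨end_perm σ h.1, end_perm σ h.2.1, h.2.2⟩

/-- exchange of `A` and `C` -/
def pAC : Equiv.Perm (Fin 4) := Equiv.swap 2 3

/-- exchange of `e` and `f` -/
def pEF : Equiv.Perm (Fin 4) := Equiv.swap 0 1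

/-- both exchanges -/
def pB : Equiv.Perm (Fin 4) := pAC * pEF

theorem wrd_pAC (R : Wrd X) : Wrd fun l => X (pAC l) :=
  R.perm pAC (Or.inr ⟨by decide, by decide⟩)

theorem wrd_pEF (R : Wrd X) : Wrd fun l => X (pEF l) :=
  R.perm pEF (Or.inl ⟨by decide, by decide⟩)

theorem wrd_pB (R : Wrd X) : Wrd fun l => X (pB l) :=
  R.perm pB (Or.inr ⟨by decide, by decide⟩)

/-- **OneB21**: the special end and two clean ends `A|e`, one end `C|f`. -/
theorem oneB21 (X : Fin 4 → Set ℝ) (V v v' q w w' r r' : ℝ) (R : Wrd X) (hV : End X 0 2 V)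
    (h02 : TwoV X V v v') (hvv : ¬ E6 v v') (h13 : Two X 1 3 q q) (h12 : Two X 1 2 w w')
    (h03 : Two X 0 3 r r') : False := by
  obtain ⟨hv, hv', hvV, hv'V, hall⟩ := h02
  exact one_three (V := q) (a := V) (b := v) (c := v') (w := r) (w' := r') (r := w) (r' := w')
    (wrd_pB R) (end_perm pB h13.1) (fun u h1 h3 => (h13.2.2 u h1 h3).elim id id) (end_perm pB hV)
    (end_perm pB hv) (end_perm pB hv') (fun h => hvV h.symm) (fun h => hv'V h.symm) hvv hall
    (two_perm pB h03) (two_perm pB h12)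

/-- the two ends `Q`, `Q'` of the complementary type are not on one side of the end `V` -/
theorem sep_side (R : Wrd X) {V v q q' w w' r r' : ℝ} (hV : End X 0 2 V) (hv : End X 0 2 v)
    (hvV : ¬ E6 v V) (h02 : ∀ u, u ∈ X 0 → u ∈ X 2 → E6 u V ∨ E6 u v)
    (h13 : Two X 1 3 q q') (hqq : ¬ E6 q q') (h12 : Two X 1 2 w w') (h03 : Two X 0 3 r r')
    {i j : ℤ} (h1 : V < q + 6 * i) (h2 : q + 6 * i < V + 3) (h3 : V < q' + 6 * j)
    (h4 : q' + 6 * j < V + 3) : False := by
  have key : ∀ {q q' : ℝ} {i j : ℤ}, Two X 1 3 q q' → V < q + 6 * i → q' + 6 * j < V + 3 →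
      q + 6 * i < q' + 6 * j → False := by
    intro q q' i j h13 h1 h4 h5
    obtain ⟨a, b, c⟩ := h13
    have h13' : Two X 1 3 (q + 6 * i) (q' + 6 * j) :=
      ⟨end_E6 R a ⟨i, rfl⟩, end_E6 R b ⟨j, rfl⟩, fun u hl hm => (c u hl hm).imp
        (fun h => h.trans (E6.symm ⟨i, rfl⟩)) fun h => h.trans (E6.symm ⟨j, rfl⟩)⟩
    have := sep_gen R hV hv hvV h02 h1 h5 (by linarith) h13' h12 h03
    linarith [this.2]
  rcases lt_trichotomy (q + 6 * (i : ℝ)) (q' + 6 * (j : ℝ)) with h | h | h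
  · exact key h13 h1 h4 h
  · exact hqq ⟨j - i, by push_cast; linarith⟩
  · exact key h13.sym h3 h2 h

/-- `Bt` for two points: both strictly between, then both on one side of one of the two ends -/
theorem bt_bt {m m' k l : ℝ} (h : Bt m k l) (h' : Bt m' k l) :
    (∃ i i' : ℤ, k < m + 6 * i ∧ m + 6 * i < k + 3 ∧ k < m' + 6 * i' ∧ m' + 6 * i' < k + 3) ∨
    (∃ i i' : ℤ, l < m + 6 * i ∧ m + 6 * i < l + 3 ∧ l < m' + 6 * i' ∧ m' + 6 * i' < l + 3) := by
  obtain ⟨i, j, h | h⟩ := h <;> obtain ⟨i', j', h' | h'⟩ := h'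
  · exact Or.inl ⟨i, i', h.1, by linarith [h.2.1, h.2.2], h'.1, by linarith [h'.2.1, h'.2.2]⟩
  · exfalso
    have a : (0 : ℝ) < 6 * (((j + j' : ℤ)) : ℝ) := by
      push_cast; linarith [h.1, h.2.1, h'.1, h'.2.1]
    have b : 6 * (((j + j' : ℤ)) : ℝ) < 6 := by
      push_cast; linarith [h.2.2, h'.2.2]
    have a' : (0 : ℝ) < (((j + j' : ℤ)) : ℝ) := by linarith
    have b' : (((j + j' : ℤ)) : ℝ) < 1 := by linarith
    have a2 : 0 < j + j' := by exact_mod_cast a'
    have b2 : j + j' < 1 := by exact_mod_cast b'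
    omega
  · exfalso
    have a : (0 : ℝ) < 6 * (((j + j' : ℤ)) : ℝ) := by
      push_cast; linarith [h.1, h.2.1, h'.1, h'.2.1]
    have b : 6 * (((j + j' : ℤ)) : ℝ) < 6 := by
      push_cast; linarith [h.2.2, h'.2.2]
    have a' : (0 : ℝ) < (((j + j' : ℤ)) : ℝ) := by linarith
    have b' : (((j + j' : ℤ)) : ℝ) < 1 := by linarith
    have a2 : 0 < j + j' := by exact_mod_cast a'
    have b2 : j + j' < 1 := by exact_mod_cast b'
    omega
  · exact Or.inr ⟨i, i', h.1, by linarith [h.2.1, h.2.2], h'.1, by linarith [h'.2.1, h'.2.2]⟩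

/-- **OneB12**: the special end and one clean end `A|e`, two ends `C|f`. -/
theorem oneB12 (X : Fin 4 → Set ℝ) (V v q q' w w' r r' : ℝ) (R : Wrd X) (hV : End X 0 2 V)
    (h02 : TwoV X V v v) (hVq : V < q) (hqq : q < q') (hqV : q' < V + 6) (h13 : Two X 1 3 q q')
    (h12 : Two X 1 2 w w') (h03 : Two X 0 3 r r') :
    (q < V + 3 ∧ V + 3 < q') ∧ ¬ E6 w w' ∧ ¬ E6 r r' ∧ ¬ (Bt w r r' ∧ Bt w' r r') ∧
      ¬ (Bt r w w' ∧ Bt r' w w') := by
  obtain ⟨hv, -, hvV, -, hall⟩ := h02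
  have hall' : ∀ u, u ∈ X 0 → u ∈ X 2 → E6 u V ∨ E6 u v := fun u h0 h2 =>
    (hall u h0 h2).imp id fun h => h.elim id id
  obtain ⟨hww, hrr⟩ := two_two R hV hv hvV hall' hVq hqq hqV h13 h12 h03
  have h02' : Two X 0 2 V v := ⟨hV, hv, hall'⟩
  refine ⟨sep_gen R hV hv hvV hall' hVq hqq hqV h13 h12 h03, hww, hrr, ?_, ?_⟩
  · rintro ⟨h1, h2⟩
    rcases bt_bt h1 h2 with ⟨i, i', a1, a2, a3, a4⟩ | ⟨i, i', a1, a2, a3, a4⟩
    · exact sep_side (V := r) (v := r') (wrd_pAC R) (end_perm pAC h03.1) (end_perm pAC h03.2.1)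
        (fun h => hrr h.symm) h03.2.2 (two_perm pAC h12) hww (two_perm pAC h13)
        (two_perm pAC h02') a1 a2 a3 a4
    · exact sep_side (V := r') (v := r) (wrd_pAC R) (end_perm pAC h03.2.1) (end_perm pAC h03.1)
        hrr (fun u h0 h2 => (h03.2.2 u h0 h2).symm) (two_perm pAC h12) hww (two_perm pAC h13)
        (two_perm pAC h02') a1 a2 a3 a4
  · rintro ⟨h1, h2⟩
    rcases bt_bt h1 h2 with ⟨i, i', a1, a2, a3, a4⟩ | ⟨i, i', a1, a2, a3, a4⟩
    · exact sep_side (V := w) (v := w') (wrd_pEF R) (end_perm pEF h12.1) (end_perm pEF h12.2.1)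
        (fun h => hww h.symm) h12.2.2 (two_perm pEF h03) hrr (two_perm pEF h02')
        (two_perm pEF h13) a1 a2 a3 a4
    · exact sep_side (V := w') (v := w) (wrd_pEF R) (end_perm pEF h12.2.1) (end_perm pEF h12.1)
        hww (fun u h0 h2 => (h12.2.2 u h0 h2).symm) (two_perm pEF h03) hrr (two_perm pEF h02')
        (two_perm pEF h13) a1 a2 a3 a4

end Vale.Agent.P032.Words.Pot
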