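import Vale.Agent.P032.Words.H984.Loop

/-!
# The closed path of one circle with the marks in their order in time
-/

namespace Vale.Agent.P032.Words

open Set Filter Topology Scc

variable {c : Fin 4 → Fin 4 → Prop}

theorem lift_map {α β : Type*} (f : α → β) : ∀ (E : List β) (s : Multiset α),
    (E : Multiset β) = s.map f → ∃ l : List α, (l : Multiset α) = s ∧ l.map f = E := by
  intro E
  induction E with
  | nil =>
    intro s hs
    have : s = 0 := by
      rw [Multiset.coe_nil] at hs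
      exact Multiset.map_eq_zero.mp hs.symm
    exact ⟨[], by rw [this]; rfl, rfl⟩
  | cons e E ih =>
    intro s hs
    have he : e ∈ s.map f := by rw [← hs]; simp
    obtain ⟨a, ha, rfl⟩ := Multiset.mem_map.mp he
    obtain ⟨t, rfl⟩ := Multiset.exists_cons_of_mem ha
    rw [Multiset.map_cons, ← Multiset.cons_coe, Multiset.cons_inj_right] at hs
    obtain ⟨l, h1, h2⟩ := ih t hs
    exact ⟨a :: l, by rw [← Multiset.cons_coe, h1], by rw [List.map_cons, h2]⟩

theorem blocks {V : ℝ} {F : Finset ℝ} {lf rt : ℝ → Fin 4} {Ls : List (List Ev)} {L : List ℝ}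
    (h : List.Forall₂ (fun (E : List Ev) (t : ℝ) => (E : Multiset Ev) = evT (F : Set ℝ) lf rt t) Ls L)
    (hL : ∀ t ∈ L, V ≤ t ∧ t < V + 1) :
    ∃ Pss : List (List ℝ), List.Forall₂ (fun (Ps : List ℝ) (t : ℝ) => (Ps : Multiset ℝ) =
      (F.filter (fun P => tP V P = t)).val) Pss L ∧ Ls.flatten = Pss.flatten.map (evP V lf rt) := by
  induction h with
  | nil => exact ⟨[], List.Forall₂.nil, rfl⟩
  | @cons E t Ls L h1 _ ih =>
    obtain ⟨Pss, h2, h3⟩ := ih (fun t ht => hL t (List.mem_cons_of_mem _ ht))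
    have h4 := hL t (by simp)
    rw [evT_eq F lf rt h4.1 h4.2] at h1
    have h5 : ∑ P ∈ F.filter (fun P => tP V P = t), ({evP V lf rt P} : Multiset Ev) =
        (F.filter (fun P => tP V P = t)).val.map (evP V lf rt) := by
      have e4 : (F.filter (fun P => tP V P = t)).val.map (fun P => ({evP V lf rt P} : Multiset Ev)) =
        ((F.filter (fun P => tP V P = t)).val.map (evP V lf rt)).map (fun a => {a}) := by
        rw [Multiset.map_map]; rfl
      show ((F.filter (fun P => tP V P = t)).val.map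
        (fun P => ({evP V lf rt P} : Multiset Ev))).sum = _
      rw [e4, Multiset.sum_map_singleton]
    rw [h5] at h1
    obtain ⟨l, h6, h7⟩ := lift_map _ _ _ h1
    refine ⟨l :: Pss, List.Forall₂.cons h6 h2, ?_⟩
    rw [List.flatten_cons, List.flatten_cons, List.map_append, h7, h3]

theorem blocks_sorted {V : ℝ} {F : Finset ℝ} {Pss : List (List ℝ)} {L : List ℝ}
    (h : List.Forall₂ (fun (Ps : List ℝ) (t : ℝ) => (Ps : Multiset ℝ) =
      (F.filter (fun P => tP V P = t)).val) Pss L) (hL : L.Pairwise (· < ·)) :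
    Pss.flatten.Pairwise (fun P P' => tP V P ≤ tP V P') ∧
      (Pss.flatten : Multiset ℝ) = (L.map fun t => (F.filter (fun P => tP V P = t)).val).sum ∧
      ∀ P ∈ Pss.flatten, tP V P ∈ L := by
  induction h with
  | nil => simp
  | @cons Ps t Pss L h1 _ ih =>
    obtain ⟨p1, p2⟩ := List.pairwise_cons.mp hL
    obtain ⟨i1, i2, i3⟩ := ih p2
    have hPs : ∀ P ∈ Ps, tP V P = t := by
      intro P hP
      have : P ∈ (Ps : Multiset ℝ) := hP
      rw [h1] at this
      exact (Finset.mem_filter.mp this).2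
    refine ⟨?_, ?_, ?_⟩
    · rw [List.flatten_cons, List.pairwise_append]
      refine ⟨?_, i1, ?_⟩
      · rw [List.pairwise_iff_forall_sublist]
        intro P P' hsub
        have m1 : P ∈ Ps := hsub.subset (by simp)
        have m2 : P' ∈ Ps := hsub.subset (by simp)
        rw [hPs P m1, hPs P' m2]
      · intro P hP P' hP'
        rw [hPs P hP]
        exact (p1 _ (i3 P' hP')).le
    · rw [List.flatten_cons, List.map_cons, List.sum_cons, ← i2, ← h1, Multiset.coe_add]
    · intro P hP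
      rw [List.flatten_cons, List.mem_append] at hP
      rcases hP with hP | hP
      · rw [hPs P hP]; simp
      · exact List.mem_cons_of_mem _ (i3 P hP)

/-- **The closed path with the marks in their order in time.** -/
theorem Wrd.loopP {X : Fin 4 → Set ℝ} (R : Wrd X) {V : ℝ} {F : Finset ℝ} {lf rt : ℝ → Fin 4}
    (hVF : V ∈ F) (hw : ∀ P ∈ F, V ≤ P ∧ P < V + 6)
    (hF : ∀ P ∈ F, Mark X (lf P) (rt P) P ∧ lf P ≠ rt P ∧ c (lf P) (rt P))
    (hN : ∀ u, (∀ P ∈ F, ∀ n : ℤ, u ≠ P + 6 * n) → ∀ x y, u ∈ X x → u ∈ X y → x ≠ y → ¬ c x y) :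
    ∃ (h : Hx) (Ps : List ℝ), (Ps : Multiset ℝ) = F.val ∧
      Ps.Pairwise (fun P P' => tP V P ≤ tP V P') ∧ EP c h (Ps.map (evP V lf rt)) (rot h) := by
  classical
  -- the base
  obtain ⟨a, ha, haV⟩ : ∃ a, (∀ P ∈ F, tP V P - 1 < a) ∧ a < V := by
    have h1 : ∀ᶠ a in 𝓝[<] V, ∀ P ∈ F, tP V P - 1 < a := by
      refine (Finset.eventually_all F).mpr fun P hP => ?_
      have := (tP_mem (hw P hP).1 (hw P hP).2).2
      exact nhdsWithin_le_nhds (Ioi_mem_nhds (by linarith))
    exact (h1.and self_mem_nhdsWithin).exists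
  have hkV : kP V V = 0 := by
    have := kP_add (V := V) (t := V) 0 le_rfl (by linarith)
    simpa using this
  have htV : tP V V = V := by rw [tP, hkV]; simp
  have haV1 : V - 1 < a := by have := ha V hVF; rwa [htV] at this
  -- the times
  set T : Finset ℝ := F.image (tP V) with hT
  set L' : List ℝ := (T.erase V).sort with hL'
  have hVT : V ∈ T := by rw [hT, Finset.mem_image]; exact ⟨V, hVF, htV⟩
  have hTm : ∀ t ∈ T, V ≤ t ∧ t < V + 1 ∧ t < a + 1 := by
    intro t ht
    rw [hT, Finset.mem_image] at ht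
    obtain ⟨P, hP, rfl⟩ := ht
    have := tP_mem (hw P hP).1 (hw P hP).2
    exact ⟨this.1, this.2, by have := ha P hP; linarith⟩
  have hmemL' : ∀ t, t ∈ L' ↔ t ∈ T ∧ t ≠ V := by
    intro t
    rw [hL', Finset.mem_sort, Finset.mem_erase, and_comm]
  have hpw : (V :: L').Pairwise (· < ·) := by
    rw [List.pairwise_cons]
    constructor
    · intro t ht
      rw [hmemL'] at ht
      exact lt_of_le_of_ne (hTm t ht.1).1 ht.2.symm
    · exact Finset.sortedLT_sort _ |>.pairwise
  have hmemL : ∀ t, t ∈ V :: L' ↔ t ∈ T := by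
    intro t
    rw [List.mem_cons, hmemL']
    constructor
    · rintro (rfl | h)
      · exact hVT
      · exact h.1
    · intro h
      by_cases e : t = V
      · exact Or.inl e
      · exact Or.inr ⟨h, e⟩
  -- marks in the window are seen at their times
  have hpos : ∀ t ∈ Ioo a (a + 1), ∀ k : Fin 6, ∀ P ∈ F, ∀ n : ℤ, t + (k.val : ℝ) = P + 6 * n →
      n = 0 := by
    intro t ht k P hP n he
    have hk : (k.val : ℝ) + 1 ≤ 6 := by exact_mod_cast k.isLt
    have hk0 : (0 : ℝ) ≤ (k.val : ℝ) := Nat.cast_nonneg _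
    have h1 := hw P hP
    have h2 := ha P hP
    have h3 : P = tP V P + ((kP V P).val : ℝ) := by rw [tP]; ring
    have h4 : ((kP V P).val : ℝ) + 1 ≤ 6 := by exact_mod_cast (kP V P).isLt
    have h5 : (n : ℝ) < 1 := by linarith [ht.1, ht.2]
    have h6 : (-1 : ℝ) < (n : ℝ) := by linarith [ht.1, ht.2]
    have h7 : n < 1 := by exact_mod_cast h5
    have h8 : -1 < n := by exact_mod_cast h6
    omega
  have hint : ∀ t ∈ Ioo a (a + 1), ∀ k : Fin 6, t + (k.val : ℝ) ∈ F →
      tP V (t + (k.val : ℝ)) = t := by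
    intro t ht k hP
    have h1 := hw _ hP
    have h2 := ha _ hP
    have h3 := tP_mem h1.1 h1.2
    have h4 : t + (k.val : ℝ) = tP V (t + (k.val : ℝ)) + ((kP V (t + (k.val : ℝ))).val : ℝ) := by
      rw [tP]; ring
    have h5 : ((k.val : ℤ) : ℝ) - ((kP V (t + (k.val : ℝ))).val : ℤ) =
        tP V (t + (k.val : ℝ)) - t := by push_cast; linarith
    have h6 : (((k.val : ℤ) - ((kP V (t + (k.val : ℝ))).val : ℤ) : ℤ) : ℝ) < 1 := by
      push_cast
      push_cast at h5
      linarith [ht.1, ht.2]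
    have h7 : (-1 : ℝ) < (((k.val : ℤ) - ((kP V (t + (k.val : ℝ))).val : ℤ) : ℤ) : ℝ) := by
      push_cast
      push_cast at h5
      linarith [ht.1, ht.2]
    have h8 : ((k.val : ℤ) - ((kP V (t + (k.val : ℝ))).val : ℤ) : ℤ) = 0 := by
      have a1 : ((k.val : ℤ) - ((kP V (t + (k.val : ℝ))).val : ℤ) : ℤ) < 1 := by exact_mod_cast h6
      have a2 : -1 < ((k.val : ℤ) - ((kP V (t + (k.val : ℝ))).val : ℤ) : ℤ) := by exact_mod_cast h7
      omega
    have h9 : ((k.val : ℤ) : ℝ) - ((kP V (t + (k.val : ℝ))).val : ℤ) = 0 := by exact_mod_cast h8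
    linarith
  obtain ⟨h, g, -, -, hh, hg, Ls, hLs, hEP⟩ := one_circleS (c := c) R.closed R.per R.ex a
    (fun u _ => R.sing u) (F : Set ℝ) lf rt (fun t _ k hk => hF _ (Finset.mem_coe.mp hk))
    (by
      intro t ht k hk x hx y hy hne hc
      refine hN (t + (k.val : ℝ)) ?_ x y hx hy hne hc
      intro P hP n he
      have h0 := hpos t ht k P hP n he
      subst h0
      apply hk
      have : t + (k.val : ℝ) = P := by rw [he]; push_cast; ring
      rw [this]
      exact hP)
    (V :: L') hpw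
    (by
      intro t ht
      rw [hmemL] at ht
      have := hTm t ht
      exact ⟨by linarith, this.2.2⟩)
    (by
      intro t ht k hk
      rw [hmemL, hT, Finset.mem_image]
      exact ⟨_, Finset.mem_coe.mp hk, hint t ht k (Finset.mem_coe.mp hk)⟩)
    (Bp := fun _ => True) (Bm := fun _ => True) (by simp) (by simp)
  -- the closing at the quiet time `a`
  have hqa : ∀ k : Fin 6, ∀ P ∈ F, ∀ n : ℤ, a + (k.val : ℝ) ≠ P + 6 * n := by
    intro k P hP n he
    have h1 := hw P hP
    have h2 := ha P hP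
    have h3 := tP_mem h1.1 h1.2
    have h4 : P = tP V P + ((kP V P).val : ℝ) := by rw [tP]; ring
    have h5 : ((((kP V P).val : ℤ) + 6 * n - (k.val : ℤ) : ℤ) : ℝ) = a - tP V P := by
      push_cast; linarith
    have h6 : ((((kP V P).val : ℤ) + 6 * n - (k.val : ℤ) : ℤ) : ℝ) < 0 := by
      rw [h5]; linarith
    have h7 : (-1 : ℝ) < ((((kP V P).val : ℤ) + 6 * n - (k.val : ℤ) : ℤ) : ℝ) := by
      rw [h5]; linarith
    have a1 : (((kP V P).val : ℤ) + 6 * n - (k.val : ℤ) : ℤ) < 0 := by exact_mod_cast h6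
    have a2 : -1 < (((kP V P).val : ℤ) + 6 * n - (k.val : ℤ) : ℤ) := by exact_mod_cast h7
    omega
  have hclose : EP c g [] h := by
    have h1 := reach_of_sel (R := R4) (τ := tauE c) (G := GS) tauE_self (R.sing a) hg hh 0
    obtain ⟨L0, h2, h3⟩ := ep_of_reachS (le_refl _) h1
    have h4 : ∑ p, tauE c p (g p) (h p) = 0 := by
      refine Finset.sum_eq_zero fun p _ => ?_
      unfold tauE
      rw [if_neg]
      rintro ⟨hne, hc⟩
      exact hN _ (hqa p) _ _ (hg.1 p) (hh.1 p) hne hc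
    rw [h4] at h3
    have h5 : (0 : Multiset Ev) + 0 = 0 + (L0 : Multiset Ev) := h3
    rw [zero_add, zero_add] at h5
    have : L0 = [] := Multiset.coe_eq_zero L0 |>.mp h5.symm
    rw [this] at h2
    exact h2
  have hloop : EP c h Ls.flatten (rot h) := by
    have := EP.trans hEP hclose.rot
    simpa using this
  obtain ⟨Pss, hP1, hP2⟩ := blocks (V := V) hLs (fun t ht => by
    rw [hmemL] at ht
    exact ⟨(hTm t ht).1, (hTm t ht).2.1⟩)
  obtain ⟨q1, q2, -⟩ := blocks_sorted hP1 hpw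
  refine ⟨h, Pss.flatten, ?_, q1, ?_⟩
  · have hnd : List.Nodup (V :: L') := hpw.imp (fun h => ne_of_lt h)
    have e2 : (V :: L').toFinset = T := by
      ext t
      rw [List.mem_toFinset, hmemL]
    rw [q2, ← List.sum_toFinset _ hnd, e2]
    have e3 : ∑ t ∈ T, (F.filter (fun P => tP V P = t)).val = F.val := by
      have e5 : ∀ t ∈ T, (F.filter (fun P => tP V P = t)).val =
          ∑ P ∈ F.filter (fun P => tP V P = t), ({P} : Multiset ℝ) := by
        intro t _
        rw [Finset.sum_multiset_singleton]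
      rw [Finset.sum_congr rfl e5,
        Finset.sum_fiberwise_of_maps_to (fun P hP => Finset.mem_image_of_mem _ hP),
        Finset.sum_multiset_singleton]
    exact e3
  · rw [← hP2]
    exact hloop

/-- **Seen from the mark `V`**, with the order in time. -/
theorem Wrd.turnP {X : Fin 4 → Set ℝ} (R : Wrd X) {V : ℝ} {F : Finset ℝ} {lf rt : ℝ → Fin 4}
    (hVF : V ∈ F) (hw : ∀ P ∈ F, V ≤ P ∧ P < V + 6)
    (hF : ∀ P ∈ F, Mark X (lf P) (rt P) P ∧ lf P ≠ rt P ∧ c (lf P) (rt P))
    (hN : ∀ u, (∀ P ∈ F, ∀ n : ℤ, u ≠ P + 6 * n) → ∀ x y, u ∈ X x → u ∈ X y → x ≠ y → ¬ c x y) :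
    ∃ (h : Hx) (P1 P2 : List ℝ), h 0 = lf V ∧ Leg4 h ∧ Leg4 (Function.update h 0 (rt V)) ∧
      EP c (Function.update h 0 (rt V)) (P2.map (evP V lf rt) ++ (P1.map (evP V lf rt)).map sh)
        (rot h) ∧ ((P1 ++ V :: P2 : List ℝ) : Multiset ℝ) = F.val ∧
      (P1 ++ V :: P2).Pairwise (fun P P' => tP V P ≤ tP V P') := by
  obtain ⟨h, Ps, h1, h2, h3⟩ := R.loopP hVF hw hF hN
  have hV : V ∈ Ps := by
    have : V ∈ (Ps : Multiset ℝ) := by rw [h1]; exact hVF
    exact this
  obtain ⟨P1, P2, rfl⟩ := List.append_of_mem hV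
  have hkV : kP V V = 0 := by
    have := kP_add (V := V) (t := V) 0 le_rfl (by linarith)
    simpa using this
  have e : (P1 ++ V :: P2).map (evP V lf rt) =
      P1.map (evP V lf rt) ++ (0, lf V, rt V) :: P2.map (evP V lf rt) := by
    rw [List.map_append, List.map_cons, evP, hkV]
  rw [e] at h3
  obtain ⟨m, a1, a2, a3, a4, a5⟩ := h3.split_at rfl
  exact ⟨m, P1, P2, a2, a3, a4, EP.trans a5 a1.rot, h1, h2⟩

end Vale.Agent.P032.Words
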