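import Vale.Agent.P032.Words.L12

/-!
# Potentials for closed paths of hexagons with counted changes

Letters `0 = e`, `1 = f`, `2 = A`, `3 = C`.  Types of changes: `0 : A|e`, `1 : C|f`, `2 : A|f`,
`3 : C|e`, `4 : e|f` (free), `5 : A|C`.  `labT`: the components of the 490 legal hexagons under the free
changes.  A group `(w, m, G)` is a potential `G` on (label, number of changes of type `tA`, number of
changes of type `tB`) with increments at most `w` and total gain at least `m` for its closings.
-/

namespace Vale.Agent.P032.Words.Pot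

/-- type of a change -/
def ty (x y : ℕ) : ℕ := (233902042727974 >>> (3 * (4 * x + y))) % 8

/-- label of a code -/
def lab (T n : ℕ) : ℕ := (T >>> (8 * n)) % 256

/-- weight of a type -/
def wt (w t : ℕ) : ℕ := (w >>> (5 * t)) % 32

/-- value of a potential, `A`, `B`: the ranges of the two numbers -/
def fv (A B T G n a l : ℕ) : ℕ := (G >>> (4 * (lab T n * (A * B) + (a * B + l)))) % 16

/-- check of one change for one group -/
def mvG (NA NL tA tB : ℕ) (s : Bool) (T w G t n n' : ℕ) : Bool :=
  bif t == tA then (List.range NA).all fun a => (List.range (NL + 1)).all fun l =>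
    Nat.ble (fv (NA + 1) (NL + 1) T G n' (a + 1) l) (fv (NA + 1) (NL + 1) T G n a l)
  else bif t == tB then !s || (List.range (NA + 1)).all fun a => (List.range NL).all fun l =>
    Nat.ble (fv (NA + 1) (NL + 1) T G n' a (l + 1)) (fv (NA + 1) (NL + 1) T G n a l)
  else (List.range (NA + 1)).all fun a => (List.range (NL + 1)).all fun l =>
    Nat.ble (fv (NA + 1) (NL + 1) T G n' a l) (fv (NA + 1) (NL + 1) T G n a l + wt w t)

/-- check of one change -/
def mv (NA NL tA tB : ℕ) (s : Bool) (T : ℕ) (gs : List (ℕ × ℕ × ℕ)) (t n n' : ℕ) : Bool :=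
  bif t == 4 then lab T n' == lab T n
  else bif Nat.ble 4 t then true
  else gs.all fun g => mvG NA NL tA tB s T g.1 g.2.2 t n n'

/-- check of all changes -/
def chkMv (NA NL tA tB : ℕ) (sd : ℕ → Bool) (T : ℕ) (gs : List (ℕ × ℕ × ℕ)) : Bool :=
  (List.range 4096).all fun n => !legN n || (List.range 6).all fun k => (List.range 4).all fun y =>
    !legN (upd n k y) || mv NA NL tA tB (sd k) T gs (ty (dg n k) y) n (upd n k y)

/-- check of the closings: before the change at position 0 the code is `n`, after it `upd n 0 y` -/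
def chkCl (NA NL : ℕ) (fin : List ℕ) (T : ℕ) (gs : List (ℕ × ℕ × ℕ)) : Bool :=
  (List.range 4096).all fun n => !legN n || (List.range 4).all fun y =>
    !(ty (dg n 0) y == 0) || !legN (upd n 0 y) || gs.any fun g => fin.all fun a =>
      Nat.ble (fv (NA + 1) (NL + 1) T g.2.2 (upd n 0 y) 0 0 + g.2.1)
        (fv (NA + 1) (NL + 1) T g.2.2 (rotN n) a NL)

end Vale.Agent.P032.Words.Pot
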