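import Vale.Agent.P032.Words.H984.Loop
import Vale.Agent.P032.Words.H984.PotDef

/-!
# Potentials exclude closed paths
-/

namespace Vale.Agent.P032.Words.Pot

open Set Filter Topology Scc

/-- the counted changes: all but `e|f` -/
def cc (x y : Fin 4) : Prop := ¬ (x.val < 2 ∧ y.val < 2)

/-- type of an event -/
def tyE (e : Ev) : ℕ := ty e.2.1.val e.2.2.val

/-- number of the changes of type `t` -/
def cnt (t : ℕ) (L : List Ev) : ℕ := L.countP fun e => tyE e == t

/-- total weight -/
def ws (w tA tB : ℕ) (L : List Ev) : ℕ :=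
  (L.map fun e => if tyE e = tA ∨ tyE e = tB then 0 else wt w (tyE e)).sum

theorem ty_free : ∀ x y : Fin 4, x ≠ y → ¬ cc x y → ty x.val y.val = 4 := by
  unfold cc
  decide

theorem mv_of {NA NL tA tB : ℕ} {sd : ℕ → Bool} {T : ℕ} {gs : List (ℕ × ℕ × ℕ)}
    (H : chkMv NA NL tA tB sd T gs = true) {h : Hx} {k : Fin 6} {l : Fin 4} (h1 : Leg4 h)
    (h2 : Leg4 (Function.update h k l)) :
    mv NA NL tA tB (sd k.val) T gs (ty (h k).val l.val) (code h)
      (code (Function.update h k l)) = true := by
  have a := all_range H (code_lt h)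
  rw [legN_code h1, Bool.not_true, Bool.false_or] at a
  have b := all_range (all_range a k.isLt) l.isLt
  rw [← code_update, legN_code h2, dg_code, Bool.not_true, Bool.false_or] at b
  exact b

theorem cnt_append (t : ℕ) (L : List Ev) (e : Ev) :
    cnt t (L ++ [e]) = cnt t L + if tyE e = t then 1 else 0 := by
  unfold cnt
  rw [List.countP_append, List.countP_singleton]
  by_cases h : tyE e = t
  · simp [h]
  · simp [h]

theorem ws_append (w tA tB : ℕ) (L : List Ev) (e : Ev) :
    ws w tA tB (L ++ [e]) = ws w tA tB L +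
      if tyE e = tA ∨ tyE e = tB then 0 else wt w (tyE e) := by
  unfold ws
  rw [List.map_append, List.sum_append]
  simp

theorem mono {NA NL tA tB : ℕ} {sd : ℕ → Bool} {T : ℕ} {gs : List (ℕ × ℕ × ℕ)}
    (H : chkMv NA NL tA tB sd T gs = true) (hne : tA ≠ tB) {g : ℕ × ℕ × ℕ} (hg : g ∈ gs)
    {h k : Hx} {L : List Ev} (hE : EP cc h L k) :
    (∀ e ∈ L, tyE e < 4 ∧ (tyE e = tB → sd e.1.val = true)) → cnt tA L ≤ NA → cnt tB L ≤ NL →
    fv (NA + 1) (NL + 1) T g.2.2 (code k) (cnt tA L) (cnt tB L) ≤
      fv (NA + 1) (NL + 1) T g.2.2 (code h) 0 0 + ws g.1 tA tB L := by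
  induction hE with
  | refl => intro _ _ _; simp [cnt, ws]
  | @free m L k l _ a b d e ih =>
    intro c1 c2 c3
    have h1 := mv_of H a b
    rw [ty_free _ _ d e] at h1
    have h2 : lab T (code (Function.update m k l)) = lab T (code m) := by
      simpa [mv] using h1
    have h3 := ih c1 c2 c3
    unfold fv at h3 ⊢
    rw [h2]
    exact h3
  | @mark m L k l _ a b d e ih =>
    intro c1 c2 c3
    have h1 := mv_of H a b
    obtain ⟨h4, h5⟩ := c1 (k, m k, l) (by simp)
    have h4' : ty (m k).val l.val < 4 := h4
    have ete : tyE (k, m k, l) = ty (m k).val l.val := rfl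
    rw [cnt_append] at c2 c3
    rw [cnt_append, cnt_append, ws_append]
    have h3 := ih (fun e' he' => c1 e' (List.mem_append_left _ he')) (by omega) (by omega)
    -- the check for the group
    have h6 : mvG NA NL tA tB (sd k.val) T g.1 g.2.2 (ty (m k).val l.val) (code m)
        (code (Function.update m k l)) = true := by
      unfold mv at h1
      rw [show (ty (m k).val l.val == 4) = false from beq_eq_false_iff_ne.mpr (by omega),
        cond_false, show Nat.ble 4 (ty (m k).val l.val) = false from by
          rw [Bool.eq_false_iff]; intro h'; exact absurd (Nat.le_of_ble_eq_true h') (by omega),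
        cond_false] at h1
      exact List.all_eq_true.mp h1 g hg
    unfold mvG at h6
    rw [ete] at c2 c3 ⊢
    by_cases e1 : ty (m k).val l.val = tA
    · rw [show (ty (m k).val l.val == tA) = true from beq_iff_eq.mpr e1, cond_true] at h6
      rw [if_pos e1] at c2
      have e2 : ¬ ty (m k).val l.val = tB := fun h' => hne (e1.symm.trans h')
      rw [if_neg e2] at c3
      rw [if_pos e1, if_neg e2, if_pos (Or.inl e1)]
      have h7 := Nat.le_of_ble_eq_true (all_range (all_range h6 (show cnt tA L < NA by omega))
        (show cnt tB L < NL + 1 by omega))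
      simpa using h7.trans h3
    · rw [show (ty (m k).val l.val == tA) = false from beq_eq_false_iff_ne.mpr e1,
        cond_false] at h6
      rw [if_neg e1] at c2
      by_cases e2 : ty (m k).val l.val = tB
      · rw [show (ty (m k).val l.val == tB) = true from beq_iff_eq.mpr e2, cond_true,
          h5 e2, Bool.not_true, Bool.false_or] at h6
        rw [if_pos e2] at c3
        rw [if_neg e1, if_pos e2, if_pos (Or.inr e2)]
        have h7 := Nat.le_of_ble_eq_true (all_range (all_range h6
          (show cnt tA L < NA + 1 by omega)) (show cnt tB L < NL by omega))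
        simpa using h7.trans h3
      · rw [show (ty (m k).val l.val == tB) = false from beq_eq_false_iff_ne.mpr e2,
          cond_false] at h6
        rw [if_neg e2] at c3
        rw [if_neg e1, if_neg e2, if_neg (not_or.mpr ⟨e1, e2⟩)]
        have h7 := Nat.le_of_ble_eq_true (all_range (all_range h6
          (show cnt tA L < NA + 1 by omega)) (show cnt tB L < NL + 1 by omega))
        rw [add_zero, add_zero]
        omega

/-- **No closed path.** -/
theorem no_loop {NA NL tA tB : ℕ} {sd : ℕ → Bool} {fin : List ℕ} {T : ℕ}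
    {gs : List (ℕ × ℕ × ℕ)} (H : chkMv NA NL tA tB sd T gs = true)
    (HC : chkCl NA NL fin T gs = true) (hne : tA ≠ tB)
    {h : Hx} {y : Fin 4} {L : List Ev} (h0 : ty (h 0).val y.val = 0) (h1 : Leg4 h)
    (h2 : Leg4 (Function.update h 0 y)) (hE : EP cc (Function.update h 0 y) L (rot h))
    (hL : ∀ e ∈ L, tyE e < 4 ∧ (tyE e = tB → sd e.1.val = true))
    (hA : cnt tA L ≤ NA) (hf : cnt tA L ∈ fin) (hB : cnt tB L = NL)
    (hw : ∀ g ∈ gs, ws g.1 tA tB L < g.2.1) : False := by
  have a := all_range HC (code_lt h)
  rw [legN_code h1, Bool.not_true, Bool.false_or] at a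
  have b := all_range a y.isLt
  have hd : dg (code h) 0 = (h 0).val := dg_code h 0
  have hu : upd (code h) 0 y.val = code (Function.update h 0 y) := (code_update h 0 y).symm
  rw [hd, h0, hu, legN_code h2] at b
  rw [show ((0 : ℕ) == 0) = true from rfl, Bool.not_true, Bool.false_or, Bool.false_or,
    List.any_eq_true] at b
  obtain ⟨g, hg, b⟩ := b
  have b' := Nat.le_of_ble_eq_true (List.all_eq_true.mp b _ hf)
  have h3 := mono H hne hg hE hL hA hB.le
  rw [← code_rot, ← hB] at b'
  have h4 := hw g hg
  rw [hB] at h3 b'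
  omega

end Vale.Agent.P032.Words.Pot
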