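import Mathlib

/-!
# Legal selections are joined by simultaneous changes of strongly connected sets

Positions `ι`, letters `Λ`, legality is pairwise (`LegR R`).  Two legal selections of the same palettes
are joined by legal simultaneous changes; each position changes at most once; the positions which
change at the same time form a strongly connected set for the relation `q requires p`
(`h' q` is not compatible with `h p`).  With counters.
-/

namespace Vale.Agent.P032.Words.Scc

variable {ι Λ : Type*}

/-- pairwise legality -/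
def LegR (R : ι → ι → Λ → Λ → Prop) (h : ι → Λ) : Prop := ∀ p q, R p q (h p) (h q)

/-- `q` can be changed from `h q` to `h' q` only if `p` is changed too (or before) -/
def Req (R : ι → ι → Λ → Λ → Prop) (h h' : ι → Λ) (q p : ι) : Prop :=
  ¬ (R p q (h p) (h' q) ∧ R q p (h' q) (h p))

/-- the set of positions where `h` and `h'` differ is strongly connected for `Req` -/
def SC (R : ι → ι → Λ → Λ → Prop) (h h' : ι → Λ) : Prop :=
  ∀ A : Set ι, A.Nonempty → (∀ q ∈ A, h q ≠ h' q) → (∃ p, p ∉ A ∧ h p ≠ h' p) →
    ∃ q ∈ A, ∃ p, p ∉ A ∧ h p ≠ h' p ∧ Req R h h' q p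

variable {R : ι → ι → Λ → Λ → Prop}

/-- a single change is strongly connected -/
theorem SC.single {h h' : ι → Λ} {k : ι} (hk : ∀ p, h p ≠ h' p → p = k) : SC R h h' := by
  rintro A ⟨q, hq⟩ hA ⟨p, hp, hpd⟩
  exact absurd (hk p hpd ▸ (hk q (hA q hq)) ▸ hq) hp

/-- **SCC lemma**: two different legal selections are joined by a legal strongly connected change
inside the difference set. -/
theorem exists_sc [Finite ι] {h h' : ι → Λ} (hl : LegR R h) (hl' : LegR R h') (hne : h ≠ h') :
    ∃ h₁ : ι → Λ, h₁ ≠ h ∧ (∀ p, h₁ p = h p ∨ h₁ p = h' p) ∧ LegR R h₁ ∧ SC R h h₁ := by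
  classical
  have hfin : Fintype ι := Fintype.ofFinite ι
  -- closed subsets of the difference set
  let good : Finset ι → Prop := fun S => S.Nonempty ∧ (∀ q ∈ S, h q ≠ h' q) ∧
    ∀ q ∈ S, ∀ p, h p ≠ h' p → Req R h h' q p → p ∈ S
  obtain ⟨k, hk⟩ : ∃ k, h k ≠ h' k := by
    by_contra hcon
    push Not at hcon
    exact hne (funext hcon)
  have h0 : good (Finset.univ.filter fun p => h p ≠ h' p) :=
    ⟨⟨k, by simpa using hk⟩, fun q hq => (Finset.mem_filter.mp hq).2,
      fun q _ p hp _ => Finset.mem_filter.mpr ⟨Finset.mem_univ p, hp⟩⟩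
  have hex : ∃ n, ∃ S : Finset ι, good S ∧ S.card = n := ⟨_, _, h0, rfl⟩
  obtain ⟨S, hS, hcard⟩ := Nat.find_spec hex
  have hmin : ∀ S', good S' → S.card ≤ S'.card := by
    intro S' hS'
    rw [hcard]
    exact Nat.find_min' hex ⟨S', hS', rfl⟩
  obtain ⟨⟨s, hs⟩, hSd, hSc⟩ := hS
  have hv : ∀ p, S.piecewise h' h p = if p ∈ S then h' p else h p := fun p => rfl
  have hin : ∀ p, p ∈ S → S.piecewise h' h p = h' p := fun p hp => by rw [hv, if_pos hp]
  have hout : ∀ p, p ∉ S → S.piecewise h' h p = h p := fun p hp => by rw [hv, if_neg hp]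
  have hdiff : ∀ p, h p ≠ S.piecewise h' h p ↔ p ∈ S := by
    intro p
    by_cases hp : p ∈ S
    · simp only [hp, iff_true]; rw [hin p hp]; exact hSd p hp
    · simp only [hp, iff_false]; rw [hout p hp]; simp
  refine ⟨S.piecewise h' h, ?_, ?_, ?_, ?_⟩
  · intro he
    have := (hdiff s).mpr hs
    exact this (congrFun he s).symm
  · intro p
    by_cases hp : p ∈ S
    · exact Or.inr (hin p hp)
    · exact Or.inl (hout p hp)
  · -- legality
    have key : ∀ p q, p ∉ S → q ∈ S → R p q (h p) (h' q) ∧ R q p (h' q) (h p) := by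
      intro p q hp hq
      by_cases hd : h p = h' p
      · rw [hd]; exact ⟨hl' p q, hl' q p⟩
      · by_contra hcon
        exact hp (hSc q hq p hd hcon)
    intro p q
    by_cases hp : p ∈ S <;> by_cases hq : q ∈ S
    · rw [hin p hp, hin q hq]; exact hl' p q
    · rw [hin p hp, hout q hq]; exact (key q p hq hp).2
    · rw [hout p hp, hin q hq]; exact (key p q hp hq).1
    · rw [hout p hp, hout q hq]; exact hl p q
  · -- strong connectedness
    rintro A ⟨a, ha⟩ hA ⟨b, hb, hbd⟩
    have hAS : ∀ q ∈ A, q ∈ S := fun q hq => (hdiff q).mp (hA q hq)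
    have hbS : b ∈ S := (hdiff b).mp hbd
    by_contra hcon
    push Not at hcon
    have hg : good (S.filter fun q => q ∈ A) := by
      refine ⟨⟨a, Finset.mem_filter.mpr ⟨hAS a ha, ha⟩⟩, fun q hq => hSd q (Finset.mem_filter.mp hq).1,
        ?_⟩
      intro q hq p hp hreq
      obtain ⟨hqS, hqA⟩ := Finset.mem_filter.mp hq
      have hpS := hSc q hqS p hp hreq
      refine Finset.mem_filter.mpr ⟨hpS, ?_⟩
      by_contra hpA
      have := hcon q hqA p hpA ((hdiff p).mpr hpS)
      unfold Req at this hreq
      rw [hin q hqS] at this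
      exact this hreq
    have h1 := hmin _ hg
    have h2 : (S.filter fun q => q ∈ A).card < S.card := by
      refine Finset.card_lt_card ⟨Finset.filter_subset _ _, fun hsub => ?_⟩
      exact hb (Finset.mem_filter.mp (hsub hbS)).2
    omega

/-- **Path lemma with counters**: a predicate on (selection, counter) which is closed under legal
strongly connected changes inside the palettes `P` is closed under every change between two legal
selections of `P`. -/
theorem sc_path [Fintype ι] {M : Type*} [AddCommMonoid M] {τ : ι → Λ → Λ → M}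
    (hτ : ∀ p a, τ p a a = 0) (P : ι → Set Λ) (Inv : (ι → Λ) → M → Prop)
    (hmove : ∀ h h' : ι → Λ, (∀ p, h p ∈ P p) → (∀ p, h' p ∈ P p) → LegR R h → LegR R h' →
      h ≠ h' → SC R h h' → ∀ n, Inv h n → Inv h' (n + ∑ p, τ p (h p) (h' p)))
    {h h' : ι → Λ} (hh : ∀ p, h p ∈ P p) (hh' : ∀ p, h' p ∈ P p) (hl : LegR R h)
    (hl' : LegR R h') {n : M} (hn : Inv h n) : Inv h' (n + ∑ p, τ p (h p) (h' p)) := by
  classical
  have key : ∀ m : ℕ, ∀ h : ι → Λ, (Finset.univ.filter fun p => h p ≠ h' p).card = m →
      (∀ p, h p ∈ P p) → LegR R h → ∀ n, Inv h n → Inv h' (n + ∑ p, τ p (h p) (h' p)) := by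
    intro m
    induction m using Nat.strong_induction_on with
    | _ m ih =>
      intro h hm hh hl n hn
      by_cases hne : h = h'
      · subst hne
        simpa [hτ] using hn
      · obtain ⟨h₁, h1, h2, h3, h4⟩ := exists_sc hl hl' hne
        have hh1 : ∀ p, h₁ p ∈ P p := by
          intro p
          rcases h2 p with e | e
          · rw [e]; exact hh p
          · rw [e]; exact hh' p
        have hi := hmove h h₁ hh hh1 hl h3 (Ne.symm h1) h4 n hn
        have hc : (Finset.univ.filter fun p => h₁ p ≠ h' p).card < m := by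
          rw [← hm]
          refine Finset.card_lt_card ⟨?_, ?_⟩
          · intro p hp
            have hp' := (Finset.mem_filter.mp hp).2
            refine Finset.mem_filter.mpr ⟨Finset.mem_univ p, ?_⟩
            rcases h2 p with e | e
            · rwa [e] at hp'
            · exact absurd e hp'
          · intro hsub
            obtain ⟨p, hp⟩ : ∃ p, h₁ p ≠ h p := by
              by_contra hcon
              push Not at hcon
              exact h1 (funext hcon)
            have hp1 : h₁ p = h' p := by
              rcases h2 p with e | e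
              · exact absurd e hp
              · exact e
            have : p ∈ Finset.univ.filter fun p => h p ≠ h' p :=
              Finset.mem_filter.mpr ⟨Finset.mem_univ p, fun e => hp (by rw [hp1, e])⟩
            exact (Finset.mem_filter.mp (hsub this)).2 hp1
        have hf := ih _ hc h₁ rfl hh1 h3 _ hi
        have hs : (∑ p, τ p (h p) (h₁ p)) + ∑ p, τ p (h₁ p) (h' p) = ∑ p, τ p (h p) (h' p) := by
          rw [← Finset.sum_add_distrib]
          refine Finset.sum_congr rfl fun p _ => ?_
          rcases h2 p with e | e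
          · rw [e, hτ, zero_add]
          · rw [e, hτ, add_zero]
        rw [add_assoc, hs] at hf
        exact hf
  exact key _ h rfl hh hl n hn

end Vale.Agent.P032.Words.Scc
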