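import Vale.Agent.P032.Words.H984.Cycle

/-!
# Walks: the marks in their order in time

`Walk R τ G h [m₁, ..., mᵣ] g`: from `h` to `g` by legal strongly connected changes; the counter gains
`m₁`, then `m₂`, ... (marks at the same time are one block).
-/

namespace Vale.Agent.P032.Words.Scc

open Set Filter Topology

variable {ι Λ : Type*} [Fintype ι] {M : Type*} [AddCommMonoid M]

/-- from `h` to `g` with the blocks of marks `L` in this order -/
inductive Walk (R : ι → ι → Λ → Λ → Prop) (τ : ι → Λ → Λ → M) (G : Set (ι → Set Λ)) :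
    (ι → Λ) → List M → (ι → Λ) → Prop
  | nil {h g : ι → Λ} : Reach R τ G (h, 0) (g, 0) → Walk R τ G h [] g
  | cons {h h' g : ι → Λ} {m : M} {L : List M} : Reach R τ G (h, 0) (h', m) → Walk R τ G h' L g →
      Walk R τ G h (m :: L) g

variable {R : ι → ι → Λ → Λ → Prop} {τ : ι → Λ → Λ → M} {G : Set (ι → Set Λ)}
  {P : ι → Set Λ} {Pal : ℝ → ι → Set Λ}

theorem Reach.shift {x y : (ι → Λ) × M} (h : Reach R τ G x y) (c : M) :
    Reach R τ G (x.1, c + x.2) (y.1, c + y.2) := by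
  unfold Reach at h ⊢
  induction h with
  | refl => exact Relation.ReflTransGen.refl
  | tail _ hs ih =>
    refine ih.tail ?_
    obtain ⟨P, hP, h1, h2, h3, h4, h5⟩ := hs
    exact ⟨P, hP, h1, h2, h3, h4, by rw [h5, add_assoc]⟩

theorem Reach.trans' {h h' g : ι → Λ} {m n : M} (h1 : Reach R τ G (h, 0) (h', m))
    (h2 : Reach R τ G (h', 0) (g, n)) : Reach R τ G (h, 0) (g, m + n) := by
  have := h2.shift m
  rw [add_zero] at this
  exact Relation.ReflTransGen.trans h1 this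

theorem Walk.pre {h h' g : ι → Λ} {L : List M} (h1 : Reach R τ G (h, 0) (h', 0))
    (h2 : Walk R τ G h' L g) : Walk R τ G h L g := by
  cases h2 with
  | nil h3 => exact Walk.nil (by simpa using h1.trans' h3)
  | cons h3 h4 => exact Walk.cons (by simpa using h1.trans' h3) h4

theorem Walk.post {h h' g : ι → Λ} {L : List M} (h1 : Walk R τ G h L h')
    (h2 : Reach R τ G (h', 0) (g, 0)) : Walk R τ G h L g := by
  induction h1 with
  | nil h3 => exact Walk.nil (by simpa using h3.trans' h2)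
  | cons h3 _ ih => exact Walk.cons h3 (ih h2)

/-- a walk forgets to a reachability with the total -/
theorem Walk.reach {h g : ι → Λ} {L : List M} (h1 : Walk R τ G h L g) :
    Reach R τ G (h, 0) (g, L.sum) := by
  induction h1 with
  | nil h3 => simpa using h3
  | cons h3 _ ih => rw [List.sum_cons]; exact h3.trans' ih

/-- no marks -/
theorem Wd.reach_quiet (w : Wd R Pal) (hτ : ∀ p a, τ p a a = 0) {a b : ℝ} (hab : a ≤ b)
    (hG : ∀ u ∈ Icc a b, Pal u ∈ G) (hq : ∀ u ∈ Icc a b, Quiet τ (Pal u))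
    {h g : ι → Λ} (hh : Sel R (Pal a) h) (hg : Sel R (Pal b) g) : Reach R τ G (h, 0) (g, 0) :=
  (w.path_quiet (Inv := fun g n => Reach R τ G (h, 0) (g, n)) hτ hab
    (fun u hu => cl_reach (hG u hu) _) hq hh hg 0).mp Relation.ReflTransGen.refl

/-- **Walk lemma**: the marks at the times `L` (in increasing order). -/
theorem Wd.walk (w : Wd R Pal) (hτ : ∀ p a, τ p a a = 0) (m : ℝ → M) {b : ℝ} :
    ∀ (L : List ℝ) (a : ℝ), L.Pairwise (· < ·) → (∀ t ∈ L, a < t ∧ t < b) → a < b →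
    (∀ u ∈ Icc a b, Pal u ∈ G) → (∀ u ∈ Icc a b, u ∉ L → Quiet τ (Pal u)) →
    (∀ u ∈ L, Cross R τ Pal u (m u)) →
    ∀ {h g : ι → Λ}, Sel R (Pal a) h → Sel R (Pal b) g → Walk R τ G h (L.map m) g := by
  intro L
  induction L with
  | nil =>
    intro a _ _ hab hG hq _ h g hh hg
    exact Walk.nil (w.reach_quiet hτ hab.le hG (fun u hu => hq u hu (by simp)) hh hg)
  | cons t L ih =>
    intro a hs ht hab hG hq hx h g hh hg
    obtain ⟨hs1, hs2⟩ := List.pairwise_cons.mp hs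
    have hat := (ht t (by simp)).1
    have htb := (ht t (by simp)).2
    have hcross := hx t (by simp)
    have hnear := w.sel_near t
    have hLn : ∀ᶠ v in 𝓝[>] t, ∀ u ∈ L, v < u := by
      have h1 : ∀ᶠ v in 𝓝[>] t, ∀ u ∈ L.toFinset, v < u := by
        refine (Finset.eventually_all _).mpr fun u hu => ?_
        exact nhdsWithin_le_nhds (Iio_mem_nhds (hs1 u (List.mem_toFinset.mp hu)))
      filter_upwards [h1] with v hv u hu
      exact hv u (List.mem_toFinset.mpr hu)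
    obtain ⟨v, ⟨hv1, hv2⟩, hv3⟩ := ((hcross.and (nhdsWithin_le_nhds hnear)).and
      (Ioo_mem_nhdsLT hat)).exists
    obtain ⟨v', ⟨⟨hw1, hw2⟩, hw3⟩, hw4⟩ := (((hv1.and (nhdsWithin_le_nhds hnear)).and
      (Ioo_mem_nhdsGT htb)).and hLn).exists
    obtain ⟨k, hk⟩ := w.ex v
    obtain ⟨k', hk'⟩ := w.ex v'
    have n1 : Reach R τ G (h, 0) (k, 0) := by
      refine w.reach_quiet hτ hv3.1.le (fun u hu => hG u ⟨hu.1, by linarith [hu.2, hv3.2]⟩)
        (fun u hu => hq u ⟨hu.1, by linarith [hu.2, hv3.2]⟩ ?_) hh hk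
      intro huL
      rcases List.mem_cons.mp huL with e | e
      · rw [e] at hu; linarith [hu.2, hv3.2]
      · have := hs1 u e; linarith [hu.2, hv3.2]
    have n2 := reach_of_sel (τ := τ) hτ (hG t ⟨hat.le, htb.le⟩) (hv2 k hk) (hw2 k' hk') 0
    rw [hw1 k k' hk hk', zero_add] at n2
    have n3 := ih v' hs2 (fun u hu => ⟨hw4 u hu, (ht u (by simp [hu])).2⟩) hw3.2
      (fun u hu => hG u ⟨by linarith [hu.1, hw3.1], hu.2⟩)
      (fun u hu huL => hq u ⟨by linarith [hu.1, hw3.1], hu.2⟩ (by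
        intro hc
        rcases List.mem_cons.mp hc with e | e
        · rw [e] at hu; linarith [hu.1, hw3.1]
        · exact huL e))
      (fun u hu => hx u (by simp [hu])) hk' hg
    rw [List.map_cons]
    exact Walk.cons (by simpa using n1.trans' n2) n3

/-- **Closing of the cycle**, with the order of the marks (`L` = the times of the marks in
`(a, a + 1)` in increasing order; the time `a` may be special). -/
theorem Wd.cycle_walk (w : Wd R Pal) (hτ : ∀ p a, τ p a a = 0) (σ : Equiv.Perm ι)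
    (hσ : ∀ u p, Pal (u + 1) p = Pal u (σ p)) (hR : ∀ p q a b, R p q a b ↔ R (σ p) (σ q) a b)
    (L : List ℝ) (hL : L.Pairwise (· < ·)) (m : ℝ → M) (a : ℝ) (hLa : ∀ t ∈ L, a < t ∧ t < a + 1)
    (hG : ∀ u ∈ Ioo a (a + 1), Pal u ∈ G)
    (hq : ∀ u ∈ Ioo a (a + 1), u ∉ L → Quiet τ (Pal u))
    (hx : ∀ u ∈ L, Cross R τ Pal u (m u))
    {Bp Bm : (ι → Λ) → Prop}
    (hBp : ∀ᶠ v in 𝓝[>] a, ∀ h, Sel R (Pal v) h → Bp h)
    (hBm : ∀ᶠ v in 𝓝[<] a, ∀ h, Sel R (Pal v) h → Bm h) :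
    ∃ h g : ι → Λ, Bp h ∧ Bm g ∧ Sel R (Pal a) h ∧ Sel R (Pal a) g ∧
      Walk R τ G h (L.map m) (fun p => g (σ p)) := by
  have hs := w.sel_near a
  have htr : Tendsto (fun v : ℝ => v - 1) (𝓝[<] (a + 1)) (𝓝[<] a) := by
    refine tendsto_nhdsWithin_of_tendsto_nhds_of_eventually_within _ ?_ ?_
    · have : Tendsto (fun v : ℝ => v - 1) (𝓝 (a + 1)) (𝓝 (a + 1 - 1)) :=
        (continuous_sub_right 1).tendsto _
      rw [add_sub_cancel_right] at this
      exact this.mono_left nhdsWithin_le_nhds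
    · filter_upwards [self_mem_nhdsWithin] with v hv
      have : v < a + 1 := hv
      show v - 1 < a
      linarith
  have e2 := htr.eventually (hBm.and (nhdsWithin_le_nhds hs))
  have hLa1 : ∀ᶠ v in 𝓝[>] a, ∀ u ∈ L, v < u := by
    have h1 : ∀ᶠ v in 𝓝[>] a, ∀ u ∈ L.toFinset, v < u := by
      refine (Finset.eventually_all _).mpr fun u hu => ?_
      exact nhdsWithin_le_nhds (Iio_mem_nhds (hLa u (List.mem_toFinset.mp hu)).1)
    filter_upwards [h1] with v hv u hu
    exact hv u (List.mem_toFinset.mpr hu)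
  have hLb1 : ∀ᶠ v in 𝓝[<] (a + 1), ∀ u ∈ L, u < v := by
    have h1 : ∀ᶠ v in 𝓝[<] (a + 1), ∀ u ∈ L.toFinset, u < v := by
      refine (Finset.eventually_all _).mpr fun u hu => ?_
      exact nhdsWithin_le_nhds (Ioi_mem_nhds (hLa u (List.mem_toFinset.mp hu)).2)
    filter_upwards [h1] with v hv u hu
    exact hv u (List.mem_toFinset.mpr hu)
  obtain ⟨v, ⟨⟨hv1, hv2⟩, hv3⟩, hv4⟩ := (((hBp.and (nhdsWithin_le_nhds hs)).and hLa1).and
    (Ioo_mem_nhdsGT (show a < a + 1 / 2 by linarith))).exists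
  obtain ⟨v', ⟨⟨hw1, hw2⟩, hw3⟩, hw4⟩ := ((e2.and hLb1).and
    (Ioo_mem_nhdsLT (show a + 1 / 2 < a + 1 by linarith))).exists
  obtain ⟨h, hh⟩ := w.ex v
  obtain ⟨g, hg⟩ := w.ex (v' - 1)
  have hg' : Sel R (Pal v') (fun p => g (σ p)) := by
    have e : ∀ p, Pal v' p = Pal (v' - 1) (σ p) := by
      intro p
      rw [← hσ, sub_add_cancel]
    refine ⟨fun p => ?_, fun p q => ?_⟩
    · rw [e]; exact hg.1 (σ p)
    · exact (hR p q _ _).mpr (hg.2 (σ p) (σ q))
  refine ⟨h, g, hv1 h hh, hw1 g hg, hv2 h hh, hw2 g hg, ?_⟩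
  refine w.walk hτ m L v hL (fun t ht => ⟨hv3 t ht, hw3 t ht⟩) (by linarith [hv4.2, hw4.1])
    (fun u hu => hG u ⟨by linarith [hu.1, hv4.1], by linarith [hu.2, hw4.2]⟩)
    (fun u hu => hq u ⟨by linarith [hu.1, hv4.1], by linarith [hu.2, hw4.2]⟩) hx hh hg'

end Vale.Agent.P032.Words.Scc
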